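import Mathlib
import Crest.Prelude.Def_SpanningTrees

/-!
The weighted matrix-tree theorem and non-vanishing of the spanning tree polynomial.
-/

set_option autoImplicit false

namespace Crest.Agent.H5

open Finset Crest.ProbabilityR.SpanningTrees

section CB

variable {n κ R : Type*} [Fintype n] [DecidableEq n] [DecidableEq κ] [CommRing R]

lemma det_expand_fun (E : Finset κ) (b : κ → n → R) (z : κ → R) :
    (Matrix.of fun x y => ∑ e ∈ E, z e * b e x * b e y).det =
      ∑ f ∈ (Fintype.piFinset fun _ : n => E).filter Function.Injective,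
        (∏ x, z (f x)) * ((∏ x, b (f x) x) * (Matrix.of fun x y => b (f x) y).det) := by
  have h1 : (Matrix.of fun x y => ∑ e ∈ E, z e * b e x * b e y).det =
      (Matrix.detRowAlternating (n := n) (R := R)).toMultilinearMap
        (fun x => ∑ e ∈ E, (z e * b e x) • b e) := by
    show Matrix.detRowAlternating _ = Matrix.detRowAlternating _
    congr 1
    funext x y
    simp [Finset.sum_apply]
  rw [h1, MultilinearMap.map_sum_finset, Finset.sum_filter]
  refine Finset.sum_congr rfl fun f _ => ?_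
  rw [MultilinearMap.map_smul_univ, Finset.prod_mul_distrib, smul_eq_mul, mul_assoc]
  split_ifs with h
  · rfl
  · have : (Matrix.of fun x y => b (f x) y).det = 0 := by
      simp only [Function.Injective, not_forall] at h
      obtain ⟨x, y, hxy, hne⟩ := h
      exact Matrix.det_zero_of_row_eq hne (by funext t; simp [hxy])
    have h2 : (Matrix.detRowAlternating (n := n) (R := R)).toMultilinearMap (fun i => b (f i)) =
        (Matrix.of fun x y => b (f x) y).det := rfl
    rw [h2, this]; simp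

lemma det_expand_sets (E : Finset κ) (b : κ → n → R) (z : κ → R) :
    (Matrix.of fun x y => ∑ e ∈ E, z e * b e x * b e y).det =
      ∑ A ∈ E.powersetCard (Fintype.card n),
        (∏ e ∈ A, z e) * (Matrix.of fun x y => ∑ e ∈ A, b e x * b e y).det := by
  rw [det_expand_fun, ← Finset.sum_fiberwise_of_maps_to (t := E.powersetCard (Fintype.card n))
    (g := fun f => Finset.univ.image f)]
  · refine Finset.sum_congr rfl fun A hA => ?_
    have h1 := det_expand_fun A b (fun _ => 1)
    simp only [one_mul, Finset.prod_const_one] at h1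
    rw [h1, Finset.mul_sum]
    rw [Finset.mem_powersetCard] at hA
    refine Finset.sum_congr ?_ fun f hf => ?_
    · ext f
      simp only [Finset.mem_filter, Fintype.mem_piFinset]
      constructor
      · rintro ⟨⟨_, h2⟩, h3⟩
        exact ⟨fun x => h3 ▸ Finset.mem_image_of_mem f (Finset.mem_univ x), h2⟩
      · rintro ⟨h2, h3⟩
        refine ⟨⟨fun x => hA.1 (h2 x), h3⟩, ?_⟩
        apply Finset.eq_of_subset_of_card_le
        · intro e he
          obtain ⟨x, _, rfl⟩ := Finset.mem_image.1 he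
          exact h2 x
        · rw [Finset.card_image_of_injective _ h3, hA.2]; rfl
    · simp only [Finset.mem_filter, Fintype.mem_piFinset] at hf
      have h4 : Finset.univ.image f = A := by
        apply Finset.eq_of_subset_of_card_le
        · intro e he
          obtain ⟨x, _, rfl⟩ := Finset.mem_image.1 he
          exact hf.1 x
        · rw [Finset.card_image_of_injective _ hf.2, hA.2]; rfl
      rw [← h4, Finset.prod_image fun x _ y _ h => hf.2 h]
  · intro f hf
    simp only [Finset.mem_filter, Fintype.mem_piFinset] at hf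
    rw [Finset.mem_powersetCard]
    constructor
    · intro e he
      obtain ⟨x, _, rfl⟩ := Finset.mem_image.1 he
      exact hf.1 x
    · rw [Finset.card_image_of_injective _ hf.2]; rfl

end CB

variable {V : Type*}

/-- the edge set `A` connects all vertices of `S` -/
def Conn (S : Finset V) (A : Finset (Sym2 V)) : Prop :=
  ∀ x ∈ S, ∀ y ∈ S, (SimpleGraph.fromEdgeSet (A : Set (Sym2 V))).Reachable x y

lemma const_of_reachable {β : Type*} {A : Finset (Sym2 V)} (φ : V → β)
    (h : ∀ u w, s(u, w) ∈ A → φ u = φ w) {x y : V}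
    (hxy : (SimpleGraph.fromEdgeSet (A : Set (Sym2 V))).Reachable x y) : φ x = φ y := by
  rw [SimpleGraph.reachable_iff_reflTransGen] at hxy
  induction hxy with
  | refl => rfl
  | tail _ hadj ih =>
    rw [SimpleGraph.fromEdgeSet_adj] at hadj
    exact ih.trans (h _ _ hadj.1)

lemma Conn.const {β : Type*} {S : Finset V} {A : Finset (Sym2 V)} (hc : Conn S A) (φ : V → β)
    (h : ∀ u w, s(u, w) ∈ A → φ u = φ w) {x y : V} (hx : x ∈ S) (hy : y ∈ S) : φ x = φ y :=
  const_of_reachable φ h (hc x hx y hy)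

lemma reach_iff_of_mem {A : Finset (Sym2 V)} (x : V) {u w : V} (h : s(u, w) ∈ A) :
    (SimpleGraph.fromEdgeSet (A : Set (Sym2 V))).Reachable x u ↔
      (SimpleGraph.fromEdgeSet (A : Set (Sym2 V))).Reachable x w := by
  by_cases huw : u = w
  · rw [huw]
  have hadj : (SimpleGraph.fromEdgeSet (A : Set (Sym2 V))).Adj u w :=
    (SimpleGraph.fromEdgeSet_adj _).2 ⟨h, huw⟩
  exact ⟨fun h => h.trans hadj.reachable, fun h => h.trans hadj.symm.reachable⟩

lemma conn_of_const {S : Finset V} {A : Finset (Sym2 V)}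
    (h : ∀ φ : V → Prop, (∀ u w, s(u, w) ∈ A → φ u = φ w) → ∀ x ∈ S, ∀ y ∈ S, φ x = φ y) :
    Conn S A := by
  intro x hx y hy
  have := h (fun u => (SimpleGraph.fromEdgeSet (A : Set (Sym2 V))).Reachable x u)
    (fun u w huw => propext (reach_iff_of_mem x huw)) x hx y hy
  exact this ▸ SimpleGraph.Reachable.refl x

lemma mem_edgesIn {G : SimpleGraph V} {S : Finset V} {e : Sym2 V} :
    e ∈ edgesIn G S ↔ (∀ a ∈ e, a ∈ S) ∧ e ∈ G.edgeSet := by
  unfold edgesIn
  simp only [Finset.mem_filter, Finset.mem_sym2_iff]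

lemma mk_mem_edgesIn {G : SimpleGraph V} {S : Finset V} {u w : V} :
    s(u, w) ∈ edgesIn G S ↔ u ∈ S ∧ w ∈ S ∧ G.Adj u w := by
  rw [mem_edgesIn]
  simp [and_assoc]

lemma edgesIn_mono (G : SimpleGraph V) {S S' : Finset V} (h : S ⊆ S') :
    edgesIn G S ⊆ edgesIn G S' := fun _ he =>
  mem_edgesIn.2 ⟨fun a ha => h ((mem_edgesIn.1 he).1 a ha), (mem_edgesIn.1 he).2⟩

lemma induce_connected_iff {G : SimpleGraph V} {S : Finset V} {A : Finset (Sym2 V)}
    (hA : A ⊆ edgesIn G S) :
    ((SimpleGraph.fromEdgeSet (A : Set (Sym2 V))).induce (S : Set V)).Connected ↔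
      S.Nonempty ∧ Conn S A := by
  constructor
  · intro h
    obtain ⟨⟨x, hx⟩⟩ := h.nonempty
    refine ⟨⟨x, hx⟩, fun a ha b hb => ?_⟩
    exact (h.preconnected ⟨a, ha⟩ ⟨b, hb⟩).map (SimpleGraph.Embedding.induce (S : Set V)).toHom
  · rintro ⟨⟨x, hx⟩, hc⟩
    have : Nonempty (S : Set V) := ⟨⟨x, hx⟩⟩
    refine ⟨fun a b => ?_⟩
    set H := (SimpleGraph.fromEdgeSet (A : Set (Sym2 V))).induce (S : Set V)
    have := hc.const (fun u => ∃ h : u ∈ S, H.Reachable a ⟨u, h⟩) (by
      intro u w huw
      obtain ⟨hu, hw, hadj⟩ := mk_mem_edgesIn.1 (hA huw)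
      have h1 : H.Adj ⟨u, hu⟩ ⟨w, hw⟩ := by
        show (SimpleGraph.fromEdgeSet (A : Set (Sym2 V))).Adj u w
        exact (SimpleGraph.fromEdgeSet_adj _).2 ⟨huw, hadj.ne⟩
      exact propext ⟨fun ⟨_, h⟩ => ⟨hw, h.trans h1.reachable⟩,
        fun ⟨_, h⟩ => ⟨hu, h.trans h1.symm.reachable⟩⟩) a.2 b.2
    have h2 : ∃ h : (a : V) ∈ S, H.Reachable a ⟨a, h⟩ := ⟨a.2, SimpleGraph.Reachable.refl _⟩
    rw [this] at h2
    exact h2.2

lemma card_edgeSet_induce {G : SimpleGraph V} {S : Finset V} {A : Finset (Sym2 V)}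
    (hA : A ⊆ edgesIn G S) :
    Nat.card ((SimpleGraph.fromEdgeSet (A : Set (Sym2 V))).induce (S : Set V)).edgeSet =
      A.card := by
  set H := (SimpleGraph.fromEdgeSet (A : Set (Sym2 V))).induce (S : Set V)
  have h1 : Sym2.map (Subtype.val : ↥(S : Set V) → V) '' H.edgeSet = (A : Set (Sym2 V)) := by
    ext e
    constructor
    · rintro ⟨e', he', rfl⟩
      induction e' using Sym2.ind with
      | h a b =>
        have : (SimpleGraph.fromEdgeSet (A : Set (Sym2 V))).Adj a b := he'
        exact ((SimpleGraph.fromEdgeSet_adj _).1 this).1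
    · intro he
      induction e using Sym2.ind with
      | h u w =>
        obtain ⟨hu, hw, hadj⟩ := mk_mem_edgesIn.1 (hA he)
        refine ⟨s(⟨u, hu⟩, ⟨w, hw⟩), ?_, rfl⟩
        show (SimpleGraph.fromEdgeSet (A : Set (Sym2 V))).Adj u w
        exact (SimpleGraph.fromEdgeSet_adj _).2 ⟨he, hadj.ne⟩
  rw [Nat.card_coe_set_eq, ← Set.ncard_image_of_injective _
    (Sym2.map.injective Subtype.val_injective), h1, Set.ncard_coe_finset]

lemma isSpanningTreeOn_iff {G : SimpleGraph V} {S : Finset V} {A : Finset (Sym2 V)} :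
    IsSpanningTreeOn G S A ↔ A ⊆ edgesIn G S ∧ Conn S A ∧ A.card + 1 = S.card := by
  unfold IsSpanningTreeOn
  refine and_congr_right fun hA => ?_
  rw [SimpleGraph.isTree_iff_connected_and_card, induce_connected_iff hA, card_edgeSet_induce hA]
  simp only [Nat.card_coe_set_eq, Set.ncard_coe_finset]
  constructor
  · rintro ⟨⟨_, h⟩, h'⟩; exact ⟨h, h'⟩
  · rintro ⟨h, h'⟩; exact ⟨⟨Finset.card_pos.1 (by omega), h⟩, h'⟩

lemma card_le_of_conn {G : SimpleGraph V} {S : Finset V} {A : Finset (Sym2 V)}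
    (hA : A ⊆ edgesIn G S) (hS : S.Nonempty) (hc : Conn S A) : S.card ≤ A.card + 1 := by
  have := ((induce_connected_iff hA).2 ⟨hS, hc⟩).card_vert_le_card_edgeSet_add_one
  rw [card_edgeSet_induce hA] at this
  simpa only [Nat.card_coe_set_eq, Set.ncard_coe_finset] using this

lemma conn_edgesIn {G : SimpleGraph V} {S : Finset V} (h : (G.induce (S : Set V)).Connected) :
    S.Nonempty ∧ Conn S (edgesIn G S) := by
  rw [← induce_connected_iff (G := G) (Finset.Subset.refl _)]
  convert h using 1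
  ext ⟨a, ha⟩ ⟨b, hb⟩
  simp only [SimpleGraph.comap_adj, Function.Embedding.subtype_apply, SimpleGraph.fromEdgeSet_adj,
    Finset.mem_coe, mk_mem_edgesIn]
  exact ⟨fun h => h.1.2.2, fun h => ⟨⟨ha, hb, h⟩, h.ne⟩⟩

lemma connected_of_conn {G : SimpleGraph V} {S : Finset V} (hS : S.Nonempty)
    (h : Conn S (edgesIn G S)) : (G.induce (S : Set V)).Connected := by
  have := (induce_connected_iff (G := G) (Finset.Subset.refl _)).2 ⟨hS, h⟩
  convert this using 1
  ext ⟨a, ha⟩ ⟨b, hb⟩
  simp only [SimpleGraph.comap_adj, Function.Embedding.subtype_apply, SimpleGraph.fromEdgeSet_adj,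
    Finset.mem_coe, mk_mem_edgesIn]
  exact ⟨fun h => ⟨⟨ha, hb, h⟩, h.ne⟩, fun h => h.1.2.2⟩

section det

variable [DecidableEq V]

/-- signed incidence vector of an edge -/
noncomputable def inc (R : Type*) [Ring R] (e : Sym2 V) (x : V) : R :=
  (if x = e.out.1 then 1 else 0) - (if x = e.out.2 then 1 else 0)

omit [DecidableEq V] in
lemma mk_out (e : Sym2 V) : s(e.out.1, e.out.2) = e := e.out_eq

lemma sum_inc {R : Type*} [Ring R] {S : Finset V} {r : V} (hr : r ∈ S) {e : Sym2 V}
    (he : ∀ a ∈ e, a ∈ S) (φ : V → R) (h0 : φ r = 0) :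
    ∑ x : S.erase r, inc R e x * φ x = φ e.out.1 - φ e.out.2 := by
  rw [Finset.sum_coe_sort (S.erase r) (fun x => inc R e x * φ x)]
  have h1 : ∑ x ∈ S.erase r, inc R e x * φ x = ∑ x ∈ S, inc R e x * φ x := by
    rw [← Finset.add_sum_erase S _ hr, h0]; simp
  rw [h1]
  simp only [inc, sub_mul, ite_mul, one_mul, zero_mul, Finset.sum_sub_distrib, Finset.sum_ite_eq']
  rw [if_pos (he _ (Sym2.out_fst_mem e)), if_pos (he _ (Sym2.out_snd_mem e))]

omit [DecidableEq V] in
lemma out_eq_of_const {β : Type*} {A : Finset (Sym2 V)} (φ : V → β)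
    (h : ∀ u w, s(u, w) ∈ A → φ u = φ w) {e : Sym2 V} (he : e ∈ A) : φ e.out.1 = φ e.out.2 :=
  h _ _ (by rw [mk_out]; exact he)

omit [DecidableEq V] in
lemma const_of_out_eq {β : Type*} {A : Finset (Sym2 V)} (φ : V → β)
    (h : ∀ e ∈ A, φ e.out.1 = φ e.out.2) (u w : V) (huw : s(u, w) ∈ A) : φ u = φ w := by
  have h1 := h _ huw
  have h2 := mk_out s(u, w)
  rcases Sym2.eq_iff.1 h2 with ⟨a, b⟩ | ⟨a, b⟩
  · rw [a, b] at h1; exact h1
  · rw [a, b] at h1; exact h1.symm

lemma det_lap_of_not_conn {G : SimpleGraph V} {S : Finset V} {r : V} (hr : r ∈ S)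
    {A : Finset (Sym2 V)} (hA : A ⊆ edgesIn G S) (hc : ¬ Conn S A) :
    (Matrix.of fun x y : S.erase r => ∑ e ∈ A, inc ℂ e x * inc ℂ e y).det = 0 := by
  classical
  rw [← Matrix.exists_mulVec_eq_zero_iff]
  let φ : V → ℂ := fun u =>
    if (SimpleGraph.fromEdgeSet (A : Set (Sym2 V))).Reachable r u then 0 else 1
  have h0 : φ r = 0 := by simp [φ]
  refine ⟨fun x => φ x, fun h => hc ?_, ?_⟩
  · have h1 : ∀ x ∈ S, (SimpleGraph.fromEdgeSet (A : Set (Sym2 V))).Reachable r x := by
      intro x hx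
      by_cases hxr : x = r
      · rw [hxr]
      · have := congrFun h ⟨x, Finset.mem_erase.2 ⟨hxr, hx⟩⟩
        by_contra hn
        simp [φ, hn] at this
    exact fun x hx y hy => (h1 x hx).symm.trans (h1 y hy)
  · funext x
    simp only [Matrix.mulVec, dotProduct, Matrix.of_apply, Finset.sum_mul, Pi.zero_apply]
    rw [Finset.sum_comm]
    refine Finset.sum_eq_zero fun e he => ?_
    simp only [mul_assoc]
    rw [← Finset.mul_sum, sum_inc hr (mem_edgesIn.1 (hA he)).1 φ h0,
      out_eq_of_const φ (fun u w huw => by simp only [φ, reach_iff_of_mem r huw]) he]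
    simp

lemma det_lap_of_tree {G : SimpleGraph V} {S : Finset V} {r : V} (hr : r ∈ S)
    {A : Finset (Sym2 V)} (hA : A ⊆ edgesIn G S) (hc : Conn S A) (hcard : A.card + 1 = S.card) :
    (Matrix.of fun x y : S.erase r => ∑ e ∈ A, inc ℂ e x * inc ℂ e y).det = 1 := by
  classical
  have hcard' : Fintype.card (S.erase r) = Fintype.card A := by
    simp only [Fintype.card_coe, Finset.card_erase_of_mem hr]; omega
  let σ : (S.erase r) ≃ A := Fintype.equivOfCardEq hcard'
  let B : Matrix (S.erase r) (S.erase r) ℤ := Matrix.of fun i x => inc ℤ (σ i : Sym2 V) x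
  have hbr : ∀ e ∈ A, ¬ (SimpleGraph.fromEdgeSet ((A.erase e : Finset _) : Set (Sym2 V))).Reachable
      e.out.1 e.out.2 := by
    intro e he hreach
    have hc' : Conn S (A.erase e) := by
      apply conn_of_const
      intro φ hφ x hx y hy
      refine hc.const φ (const_of_out_eq φ fun e' he' => ?_) hx hy
      by_cases hee : e' = e
      · rw [hee]; exact const_of_reachable φ hφ hreach
      · exact out_eq_of_const φ hφ (Finset.mem_erase.2 ⟨hee, he'⟩)
    have := card_le_of_conn ((Finset.erase_subset e A).trans hA) ⟨r, hr⟩ hc'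
    rw [Finset.card_erase_of_mem he] at this
    have := Finset.card_pos.2 ⟨e, he⟩
    omega
  let ψ : Sym2 V → V → ℤ := fun e u =>
    if (SimpleGraph.fromEdgeSet ((A.erase e : Finset _) : Set (Sym2 V))).Reachable e.out.1 u
      then 1 else 0
  let M : Matrix (S.erase r) (S.erase r) ℤ := Matrix.of fun x j => ψ (σ j) x - ψ (σ j) r
  have hBM : B * M = 1 := by
    ext i j
    simp only [Matrix.mul_apply, B, M, Matrix.of_apply]
    rw [sum_inc hr (mem_edgesIn.1 (hA (σ i).2)).1 (fun u => ψ (σ j) u - ψ (σ j) r) (sub_self _)]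
    by_cases hij : i = j
    · subst hij
      simp only [ψ, if_neg (hbr _ (σ i).2), if_pos (SimpleGraph.Reachable.refl _)]
      simp
    · have hne : (σ i : Sym2 V) ≠ σ j := fun h => hij (σ.injective (Subtype.ext h))
      rw [Matrix.one_apply_ne hij,
        out_eq_of_const (A := A.erase (σ j)) (ψ (σ j))
          (fun u w huw => by simp only [ψ, reach_iff_of_mem _ huw])
          (Finset.mem_erase.2 ⟨hne, (σ i).2⟩)]
      simp
  have hunit : IsUnit B.det := Matrix.isUnit_det_of_right_inverse hBM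
  have hsq : B.det * B.det = 1 := by
    rcases Int.isUnit_iff.1 hunit with h | h <;> simp [h]
  have hL : (Matrix.of fun x y : S.erase r => ∑ e ∈ A, inc ℂ e x * inc ℂ e y) =
      (Int.castRingHom ℂ).mapMatrix (B.transpose * B) := by
    ext x y
    simp only [Matrix.of_apply, RingHom.mapMatrix_apply, Matrix.map_apply, Matrix.mul_apply,
      Matrix.transpose_apply, B, map_mul]
    rw [← Finset.sum_coe_sort A, ← Equiv.sum_comp σ]
    refine Finset.sum_congr rfl fun i _ => ?_
    simp [inc]
  rw [hL, ← RingHom.map_det, Matrix.det_mul, Matrix.det_transpose, hsq, map_one]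

open Classical in
/-- the spanning trees of the piece -/
noncomputable def trees (G : SimpleGraph V) (S : Finset V) : Finset (Finset (Sym2 V)) :=
  (edgesIn G S).powerset.filter (fun A => IsSpanningTreeOn G S A)

omit [DecidableEq V] in
lemma mem_trees {G : SimpleGraph V} {S : Finset V} {A : Finset (Sym2 V)} :
    A ∈ trees G S ↔ A ⊆ edgesIn G S ∧ Conn S A ∧ A.card + 1 = S.card := by
  unfold trees
  simp only [Finset.mem_filter, isSpanningTreeOn_iff, Finset.mem_powerset]
  exact ⟨fun h => h.2, fun h => ⟨h.1, h⟩⟩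

theorem matrix_tree (G : SimpleGraph V) {S : Finset V} {r : V} (hr : r ∈ S) (z : Sym2 V → ℂ) :
    (Matrix.of fun x y : S.erase r => ∑ e ∈ edgesIn G S, z e * inc ℂ e x * inc ℂ e y).det =
      ∑ A ∈ trees G S, ∏ e ∈ A, z e := by
  classical
  rw [det_expand_sets (edgesIn G S) (fun e (x : S.erase r) => inc ℂ e x) z]
  have hcard : Fintype.card (S.erase r) + 1 = S.card := by
    simp only [Fintype.card_coe, Finset.card_erase_of_mem hr]
    have := Finset.card_pos.2 ⟨r, hr⟩
    omega
  symm
  refine Finset.sum_subset_zero_on_sdiff ?_ ?_ ?_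
  · intro A hA
    rw [mem_trees] at hA
    rw [Finset.mem_powersetCard]
    exact ⟨hA.1, by omega⟩
  · intro A hA
    rw [Finset.mem_sdiff, Finset.mem_powersetCard, mem_trees] at hA
    rw [det_lap_of_not_conn hr hA.1.1 fun hc => hA.2 ⟨hA.1.1, hc, by omega⟩, mul_zero]
  · intro A hA
    rw [mem_trees] at hA
    rw [det_lap_of_tree hr hA.1 hA.2.1 hA.2.2, mul_one]

omit [DecidableEq V] in
theorem tree_poly_ne_zero {G : SimpleGraph V} {S : Finset V}
    (hS : (G.induce (S : Set V)).Connected) (z : Sym2 V → ℂ)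
    (hz : ∀ e ∈ edgesIn G S, 0 < (z e).im ∨ ((z e).im = 0 ∧ 0 < (z e).re)) :
    ∑ A ∈ trees G S, ∏ e ∈ A, z e ≠ 0 := by
  classical
  obtain ⟨⟨r, hr⟩, hc⟩ := conn_edgesIn hS
  rw [← matrix_tree G hr z]
  intro hdet
  obtain ⟨v, hv, hv0⟩ := Matrix.exists_mulVec_eq_zero_iff.2 hdet
  let φ : V → ℂ := fun u => if h : u ∈ S.erase r then v ⟨u, h⟩ else 0
  have h0 : φ r = 0 := by simp [φ]
  have hφ : ∀ x : S.erase r, φ x = v x := fun x => by simp only [φ, x.2, dif_pos]
  let d : Sym2 V → ℂ := fun e => φ e.out.1 - φ e.out.2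
  have hd : ∀ e ∈ edgesIn G S, ∑ x : S.erase r, inc ℂ e x * v x = d e := by
    intro e he
    simp only [d]
    rw [← sum_inc hr (mem_edgesIn.1 he).1 φ h0]
    simp only [hφ]
  have hq : ∑ e ∈ edgesIn G S, z e * (Complex.normSq (d e) : ℂ) = 0 := by
    have h1 : ∑ x : S.erase r, (starRingEnd ℂ) (v x) *
        (Matrix.of fun x y : S.erase r =>
          ∑ e ∈ edgesIn G S, z e * inc ℂ e x * inc ℂ e y).mulVec v x = 0 := by
      rw [hv0]; simp
    rw [← h1]
    simp only [Matrix.mulVec, dotProduct, Matrix.of_apply, Finset.sum_mul, Finset.mul_sum]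
    rw [Finset.sum_congr rfl fun x _ => Finset.sum_comm, Finset.sum_comm]
    refine Finset.sum_congr rfl fun e he => ?_
    have h2 : (starRingEnd ℂ) (d e) = ∑ x : S.erase r, inc ℂ e x * (starRingEnd ℂ) (v x) := by
      rw [← hd e he, map_sum]
      refine Finset.sum_congr rfl fun x _ => ?_
      rw [map_mul]
      congr 1
      unfold inc
      split_ifs <;> simp
    rw [Complex.normSq_eq_conj_mul_self, h2, ← hd e he, Finset.sum_mul_sum, Finset.mul_sum]
    refine Finset.sum_congr rfl fun x _ => ?_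
    rw [Finset.mul_sum]
    refine Finset.sum_congr rfl fun y _ => ?_
    ring
  have him : ∀ e ∈ edgesIn G S, (z e).im * Complex.normSq (d e) = 0 := by
    have h1 := congrArg Complex.im hq
    simp only [Complex.im_sum, Complex.mul_im, Complex.ofReal_im, mul_zero, Complex.ofReal_re,
      zero_add, Complex.zero_im] at h1
    refine (Finset.sum_eq_zero_iff_of_nonneg fun e he => ?_).1 h1
    refine mul_nonneg ?_ (Complex.normSq_nonneg _)
    rcases hz e he with h | h
    · exact h.le
    · exact h.1.ge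
  have hre : ∀ e ∈ edgesIn G S, (z e).re * Complex.normSq (d e) = 0 := by
    have h1 := congrArg Complex.re hq
    simp only [Complex.re_sum, Complex.mul_re, Complex.ofReal_im, mul_zero, Complex.ofReal_re,
      sub_zero, Complex.zero_re] at h1
    refine (Finset.sum_eq_zero_iff_of_nonneg fun e he => ?_).1 h1
    rcases hz e he with h | h
    · rcases mul_eq_zero.1 (him e he) with h2 | h2
      · exact absurd h2 h.ne'
      · rw [h2, mul_zero]
    · exact mul_nonneg h.2.le (Complex.normSq_nonneg _)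
  have hd0 : ∀ e ∈ edgesIn G S, φ e.out.1 = φ e.out.2 := by
    intro e he
    have : Complex.normSq (d e) = 0 := by
      rcases hz e he with h | h
      · exact (mul_eq_zero.1 (him e he)).resolve_left h.ne'
      · exact (mul_eq_zero.1 (hre e he)).resolve_left h.2.ne'
    exact sub_eq_zero.1 (Complex.normSq_eq_zero.1 this)
  apply hv
  funext x
  rw [← hφ, hc.const φ (const_of_out_eq φ hd0) (Finset.mem_of_mem_erase x.2) hr, h0]
  rfl

end det

lemma trees_nonempty {G : SimpleGraph V} {S : Finset V}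
    (hS : (G.induce (S : Set V)).Connected) : (trees G S).Nonempty := by
  by_contra h
  rw [Finset.not_nonempty_iff_eq_empty] at h
  have := tree_poly_ne_zero hS (fun _ => 1) (fun _ _ => Or.inr (by simp))
  simp [h] at this

lemma ustContains_eq [DecidableEq V] (G : SimpleGraph V) (S : Finset V) (F : Finset (Sym2 V)) :
    ustContains G S F = (((trees G S).filter (F ⊆ ·)).card : ℝ) / (trees G S).card := by
  unfold ustContains trees
  congr 2
  · congr 1
    ext A
    simp only [Finset.mem_filter, and_assoc]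

end Crest.Agent.H5
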