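import Mathlib
import Crest.Agent.H5.Tree

/-!
Rayleigh monotonicity for uniform spanning trees of finite pieces.
-/

set_option autoImplicit false

namespace Crest.Agent.H5

open Finset Crest.ProbabilityR.SpanningTrees

section abstract

variable {κ : Type*} [DecidableEq κ]

lemma prod_update_two {R : Type*} [CommRing R] (A : Finset κ) (x : κ → R) {f w : κ} (h : f ≠ w)
    (s t : R) : ∏ e ∈ A, Function.update (Function.update x f s) w t e =
      (if f ∈ A then s else 1) * (if w ∈ A then t else 1) * ∏ e ∈ (A.erase f).erase w, x e := by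
  have h1 : ∀ (B : Finset κ) (y : κ → R) (a : κ) (c : R), ∏ e ∈ B, Function.update y a c e =
      (if a ∈ B then c else 1) * ∏ e ∈ B.erase a, y e := by
    intro B y a c
    split_ifs with ha
    · rw [← Finset.mul_prod_erase B _ ha, Function.update_self]
      congr 1
      exact Finset.prod_congr rfl fun e he => Function.update_of_ne (Finset.ne_of_mem_erase he) _ _
    · rw [Finset.erase_eq_of_notMem ha, one_mul]
      exact Finset.prod_congr rfl fun e he => Function.update_of_ne (fun h : e = a => ha (h ▸ he)) _ _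
  rw [h1, h1, Finset.erase_right_comm]
  simp only [Finset.mem_erase, ne_eq, h, not_false_eq_true, true_and]
  ring

/-- generating polynomial of a family of sets -/
def gp {R : Type*} [CommRing R] (T : Finset (Finset κ)) (z : κ → R) : R := ∑ A ∈ T, ∏ e ∈ A, z e

omit [DecidableEq κ] in
lemma gp_pos {T : Finset (Finset κ)} (hT : T.Nonempty) {z : κ → ℝ} (hz : ∀ e, 0 < z e) :
    0 < gp T z :=
  Finset.sum_pos (fun _ _ => Finset.prod_pos fun e _ => hz e) hT

/-- coefficient in the expansion in two variables -/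
def coef {R : Type*} [CommRing R] (T : Finset (Finset κ)) (x : κ → R) (f w : κ) (b c : Bool) : R :=
  ∑ A ∈ T, if decide (f ∈ A) = b ∧ decide (w ∈ A) = c then ∏ e ∈ (A.erase f).erase w, x e else 0

lemma gp_update_two {R : Type*} [CommRing R] (T : Finset (Finset κ)) (x : κ → R) {f w : κ}
    (h : f ≠ w) (s t : R) : gp T (Function.update (Function.update x f s) w t) =
      coef T x f w false false + coef T x f w false true * t +
        s * (coef T x f w true false + coef T x f w true true * t) := by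
  simp only [gp, coef, prod_update_two _ x h, Finset.sum_mul, Finset.mul_sum, mul_add,
    ← Finset.sum_add_distrib]
  refine Finset.sum_congr rfl fun A _ => ?_
  by_cases h1 : f ∈ A <;> by_cases h2 : w ∈ A <;> simp [h1, h2] <;> ring

lemma coef_ofReal (T : Finset (Finset κ)) (x : κ → ℝ) (f w : κ) (b c : Bool) :
    coef T (fun e => (x e : ℂ)) f w b c = ((coef T x f w b c : ℝ) : ℂ) := by
  simp only [coef]
  push_cast
  refine Finset.sum_congr rfl fun A _ => ?_
  split_ifs <;> simp

/-- half-plane property -/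
def HP (T : Finset (Finset κ)) : Prop :=
  ∀ z : κ → ℂ, (∀ e, 0 < (z e).im ∨ ((z e).im = 0 ∧ 0 < (z e).re)) → gp T z ≠ 0

lemma HP.pair {T : Finset (Finset κ)} (hT : HP T) {x : κ → ℝ} (hx : ∀ e, 0 < x e) {f w : κ}
    (h : f ≠ w) {s s' t t' : ℝ} (hs : s ≤ s') (ht : t ≤ t') :
    gp T (Function.update (Function.update x f s') w t') *
        gp T (Function.update (Function.update x f s) w t) ≤
      gp T (Function.update (Function.update x f s') w t) *
        gp T (Function.update (Function.update x f s) w t') := by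
  simp only [gp_update_two T x h]
  set a0 := coef T x f w false false with ha0
  set a1 := coef T x f w false true with ha1
  set b0 := coef T x f w true false with hb0
  set b1 := coef T x f w true true with hb1
  have key : a0 * b1 ≤ a1 * b0 := by
    by_contra hlt
    push Not at hlt
    have hb : (b0 : ℂ) + b1 * Complex.I ≠ 0 := by
      intro h0
      have h1 := congrArg Complex.re h0
      have h2 := congrArg Complex.im h0
      simp at h1 h2
      rw [h1, h2] at hlt
      simp at hlt
    set ζ : ℂ := -((a0 : ℂ) + a1 * Complex.I) / ((b0 : ℂ) + b1 * Complex.I) with hζ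
    have hζim : 0 < ζ.im := by
      rw [hζ, Complex.div_im]
      have hn : 0 < Complex.normSq ((b0 : ℂ) + b1 * Complex.I) := Complex.normSq_pos.2 hb
      rw [← sub_div]
      apply div_pos _ hn
      simp
      linarith
    apply hT (Function.update (Function.update (fun e => (x e : ℂ)) f ζ) w Complex.I)
    · intro e
      by_cases h1 : e = w
      · subst h1; left; simp
      · rw [Function.update_of_ne h1]
        by_cases h2 : e = f
        · subst h2; left; simpa using hζim
        · rw [Function.update_of_ne h2]; right; simpa using hx e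
    · rw [gp_update_two T _ h]
      simp only [coef_ofReal, ← ha0, ← ha1, ← hb0, ← hb1]
      rw [hζ, div_mul_cancel₀ _ hb]
      ring
  have : 0 ≤ (s' - s) * (t' - t) * (a1 * b0 - a0 * b1) :=
    mul_nonneg (mul_nonneg (sub_nonneg.2 hs) (sub_nonneg.2 ht)) (sub_nonneg.2 key)
  nlinarith

/-- override on a finite set -/
def ov (O : Finset κ) (t : ℝ) (y : κ → ℝ) : κ → ℝ := fun e => if e ∈ O then t else y e

lemma ov_pos (O : Finset κ) {t : ℝ} (ht : 0 < t) {y : κ → ℝ} (hy : ∀ e, 0 < y e) (e : κ) :
    0 < ov O t y e := by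
  unfold ov; split_ifs
  · exact ht
  · exact hy e

lemma update_pos {t : ℝ} (ht : 0 < t) {y : κ → ℝ} (hy : ∀ e, 0 < y e) (w e : κ) :
    0 < Function.update y w t e := by
  by_cases h : e = w
  · subst h; simpa using ht
  · rw [Function.update_of_ne h]; exact hy e

lemma ov_update (O : Finset κ) (t s : ℝ) (y : κ → ℝ) {w : κ} (hw : w ∉ O) :
    ov O t (Function.update y w s) = Function.update (ov O t y) w s := by
  funext e
  by_cases h : e = w
  · subst h; simp [ov, hw]
  · simp [ov, Function.update_of_ne h]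

lemma ov_insert (O : Finset κ) (t : ℝ) (y : κ → ℝ) (w : κ) :
    ov (insert w O) t y = Function.update (ov O t y) w t := by
  funext e
  by_cases h : e = w
  · subst h; simp [ov]
  · simp [ov, h]

lemma ov_mono (ρ : (κ → ℝ) → ℝ) (O : Finset κ) {t t' : ℝ} (ht : 0 < t) (ht' : 0 < t')
    (h : ∀ w ∈ O, ∀ y : κ → ℝ, (∀ e, 0 < y e) →
      ρ (Function.update y w t') ≤ ρ (Function.update y w t)) :
    ∀ y : κ → ℝ, (∀ e, 0 < y e) → ρ (ov O t' y) ≤ ρ (ov O t y) := by
  induction O using Finset.induction_on with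
  | empty => intro y _; exact le_rfl
  | insert w O hw ih =>
    intro y hy
    rw [ov_insert, ov_insert]
    refine (h w (Finset.mem_insert_self _ _) _ (ov_pos O ht' hy)).trans ?_
    rw [← ov_update O t' t y hw, ← ov_update O t t y hw]
    exact ih (fun w hw => h w (Finset.mem_insert_of_mem hw)) _ (update_pos ht hy w)

lemma HP.sets {T : Finset (Finset κ)} (hT : HP T) (hne : T.Nonempty) {F O : Finset κ}
    (hd : Disjoint F O) {s s' t t' : ℝ} (hs0 : 0 < s) (hs : s ≤ s') (ht0 : 0 < t) (ht : t ≤ t')
    (y : κ → ℝ) (hy : ∀ e, 0 < y e) :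
    gp T (ov O t' (ov F s' y)) / gp T (ov O t (ov F s' y)) ≤
      gp T (ov O t' (ov F s y)) / gp T (ov O t (ov F s y)) := by
  have hs1 : 0 < s' := hs0.trans_le hs
  have ht1 : 0 < t' := ht0.trans_le ht
  refine ov_mono (fun y => gp T (ov O t' y) / gp T (ov O t y)) F hs0 hs1 (fun f hf y hy => ?_) y hy
  have hfO : f ∉ O := Finset.disjoint_left.1 hd hf
  have h1 := ov_mono (fun y => gp T (Function.update y f s') / gp T (Function.update y f s)) O
    ht0 ht1 (fun w hw y hy => by
      have hfw : f ≠ w := fun h => hfO (h ▸ hw)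
      simp only [Function.update_comm hfw.symm]
      rw [div_le_div_iff₀ (gp_pos hne (update_pos ht1 (update_pos hs0 hy f) w))
        (gp_pos hne (update_pos ht0 (update_pos hs0 hy f) w))]
      exact hT.pair hy hfw hs ht) y hy
  simp only [ov_update O _ _ y hfO]
  rw [div_le_div_iff₀ (gp_pos hne (update_pos hs0 (ov_pos O ht1 hy) f))
    (gp_pos hne (update_pos hs0 (ov_pos O ht0 hy) f))] at h1
  rw [div_le_div_iff₀ (gp_pos hne (update_pos hs1 (ov_pos O ht0 hy) f))
    (gp_pos hne (update_pos hs0 (ov_pos O ht0 hy) f))]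
  linarith

lemma gp_ov (T : Finset (Finset κ)) {F O : Finset κ} (hd : Disjoint F O) (s t : ℝ) :
    gp T (ov O t (ov F s fun _ => 1)) = ∑ A ∈ T, s ^ (A ∩ F).card * t ^ (A ∩ O).card := by
  refine Finset.sum_congr rfl fun A _ => ?_
  have : ∀ e, ov O t (ov F s fun _ => 1) e =
      (if e ∈ F then s else 1) * (if e ∈ O then t else 1) := by
    intro e
    by_cases h1 : e ∈ F
    · have : e ∉ O := Finset.disjoint_left.1 hd h1
      simp [ov, h1, this]
    · by_cases h2 : e ∈ O <;> simp [ov, h1, h2]
  simp only [this, Finset.prod_mul_distrib, Finset.prod_ite_mem, Finset.prod_const]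

lemma HP.extract {T : Finset (Finset κ)} (hT : HP T) (hne : T.Nonempty) {F O : Finset κ}
    (hd : Disjoint F O) (hO : ∀ A ∈ T, 1 ≤ (A ∩ O).card) :
    ((T.filter (F ⊆ ·)).card : ℝ) * (T.filter fun A => (A ∩ O).card = 1).card ≤
      T.card * (T.filter fun A => (A ∩ O).card = 1 ∧ F ⊆ A).card := by
  set nF : ℝ := (((T.filter (F ⊆ ·)).card : ℕ) : ℝ) with hnF
  set M : ℝ := (((T.filter fun A => (A ∩ O).card = 1).card : ℕ) : ℝ) with hM
  set MF : ℝ := (((T.filter fun A => (A ∩ O).card = 1 ∧ F ⊆ A).card : ℕ) : ℝ) with hMF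
  set N : ℝ := ((T.card : ℕ) : ℝ) with hN
  have hNpos : 0 < N := by rw [hN]; exact_mod_cast hne.card_pos
  have main : ∀ s : ℝ, 1 ≤ s → nF * M ≤ N * (MF + 2 * N / s) := by
    intro s hs
    have hs0 : 0 < s := by linarith
    have ht0 : 0 < s⁻¹ := inv_pos.2 hs0
    have ht1 : s⁻¹ ≤ 1 := inv_le_one_of_one_le₀ hs
    have h1 := hT.sets hne hd one_pos hs ht0 ht1 (fun _ => 1) (fun _ => one_pos)
    rw [div_le_div_iff₀ (gp_pos hne (ov_pos O ht0 (ov_pos F hs0 fun _ => one_pos)))
      (gp_pos hne (ov_pos O ht0 (ov_pos F one_pos fun _ => one_pos)))] at h1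
    simp only [gp_ov T hd, one_pow, mul_one, one_mul, Finset.sum_const, nsmul_eq_mul] at h1
    set k := F.card
    have b1 : s ^ k * nF ≤ ∑ A ∈ T, s ^ (A ∩ F).card := by
      rw [hnF, Finset.card_filter]
      push_cast
      rw [Finset.mul_sum]
      refine Finset.sum_le_sum fun A _ => ?_
      split_ifs with h
      · rw [Finset.inter_eq_right.2 h, mul_one]
      · rw [mul_zero]; positivity
    have b2 : s⁻¹ * M ≤ ∑ A ∈ T, s⁻¹ ^ (A ∩ O).card := by
      rw [hM, Finset.card_filter]
      push_cast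
      rw [Finset.mul_sum]
      refine Finset.sum_le_sum fun A _ => ?_
      split_ifs with h
      · rw [h, pow_one, mul_one]
      · rw [mul_zero]; positivity
    have b3 : ∑ A ∈ T, s ^ (A ∩ F).card * s⁻¹ ^ (A ∩ O).card ≤
        s ^ k * s⁻¹ * (MF + 2 * N / s) := by
      have e : s ^ k * s⁻¹ * (MF + 2 * N / s) =
          ∑ A ∈ T, s ^ k * s⁻¹ * ((if (A ∩ O).card = 1 ∧ F ⊆ A then 1 else 0) + 2 / s) := by
        rw [← Finset.mul_sum, Finset.sum_add_distrib, hMF, Finset.card_filter]
        push_cast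
        simp only [Finset.sum_const, nsmul_eq_mul]
        rw [← hN]; ring
      rw [e]
      refine Finset.sum_le_sum fun A hA => ?_
      have c1 : (A ∩ F).card ≤ k := Finset.card_le_card Finset.inter_subset_right
      have c2 := hO A hA
      have p1 : s ^ (A ∩ F).card ≤ s ^ k := pow_le_pow_right₀ hs c1
      have p2 : s⁻¹ ^ (A ∩ O).card ≤ s⁻¹ := by
        simpa using pow_le_pow_of_le_one ht0.le ht1 c2
      have hsk : 0 < s ^ k := pow_pos hs0 k
      have h2s : 0 < 2 / s := by positivity
      split_ifs with h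
      · calc s ^ (A ∩ F).card * s⁻¹ ^ (A ∩ O).card ≤ s ^ k * s⁻¹ :=
              mul_le_mul p1 p2 (by positivity) hsk.le
          _ ≤ _ := by
              have : 0 < s ^ k * s⁻¹ := mul_pos hsk ht0
              nlinarith
      · have e2 : s ^ k * s⁻¹ * (0 + 2 / s) = 2 * (s ^ k * s⁻¹ * s⁻¹) := by
          rw [div_eq_mul_inv]; ring
        have hp : 0 < s ^ k * s⁻¹ * s⁻¹ := by positivity
        rw [e2]
        by_cases h3 : (A ∩ O).card = 1
        · have h4 : ¬ F ⊆ A := fun h4 => h ⟨h3, h4⟩
          have c3 : (A ∩ F).card + 1 ≤ k := by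
            refine Finset.card_lt_card ⟨Finset.inter_subset_right, fun h5 => h4 ?_⟩
            exact h5.trans Finset.inter_subset_left
          have p3 : s ^ (A ∩ F).card ≤ s ^ k * s⁻¹ := by
            rw [le_mul_inv_iff₀ hs0, ← pow_succ]
            exact pow_le_pow_right₀ hs c3
          calc s ^ (A ∩ F).card * s⁻¹ ^ (A ∩ O).card ≤ (s ^ k * s⁻¹) * s⁻¹ :=
                mul_le_mul p3 p2 (by positivity) (by positivity)
            _ ≤ _ := by linarith
        · have c3 : 2 ≤ (A ∩ O).card := by omega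
          have p3 : s⁻¹ ^ (A ∩ O).card ≤ s⁻¹ * s⁻¹ := by
            rw [← sq]; exact pow_le_pow_of_le_one ht0.le ht1 c3
          calc s ^ (A ∩ F).card * s⁻¹ ^ (A ∩ O).card ≤ s ^ k * (s⁻¹ * s⁻¹) :=
                mul_le_mul p1 p3 (by positivity) hsk.le
            _ ≤ _ := by rw [← mul_assoc]; linarith
    have hM0 : 0 ≤ M := by rw [hM]; positivity
    have hnF0 : 0 ≤ nF := by rw [hnF]; positivity
    have b4 : (s ^ k * nF) * (s⁻¹ * M) ≤ N * (s ^ k * s⁻¹ * (MF + 2 * N / s)) :=
      calc (s ^ k * nF) * (s⁻¹ * M)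
          ≤ (∑ A ∈ T, s ^ (A ∩ F).card) * ∑ A ∈ T, s⁻¹ ^ (A ∩ O).card :=
            mul_le_mul b1 b2 (by positivity) (Finset.sum_nonneg fun _ _ => by positivity)
        _ ≤ N * ∑ A ∈ T, s ^ (A ∩ F).card * s⁻¹ ^ (A ∩ O).card := h1
        _ ≤ _ := mul_le_mul_of_nonneg_left b3 hNpos.le
    have hp : 0 < s ^ k * s⁻¹ := by positivity
    refine le_of_mul_le_mul_left ?_ hp
    linarith
  refine le_of_forall_pos_le_add fun ε hε => ?_
  have h := main (max 1 (2 * N * N / ε)) (le_max_left _ _)
  have hpos : 0 < max 1 (2 * N * N / ε) := lt_of_lt_of_le one_pos (le_max_left _ _)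
  have h2 : N * (2 * N / max 1 (2 * N * N / ε)) ≤ ε := by
    rw [← mul_div_assoc, div_le_iff₀ hpos]
    have : 2 * N * N / ε ≤ max 1 (2 * N * N / ε) := le_max_right _ _
    rw [div_le_iff₀ hε] at this
    linarith
  linarith [mul_add N MF (2 * N / max 1 (2 * N * N / ε))]

end abstract

variable {V : Type*}

lemma hp_trees [DecidableEq V] {G : SimpleGraph V} {S : Finset V}
    (hS : (G.induce (S : Set V)).Connected) :
    HP (trees G S) := fun z hz => tree_poly_ne_zero hS z fun e _ => hz e

lemma mem_newEdges [DecidableEq V] {G : SimpleGraph V} {S : Finset V} {y : V} (hy : y ∉ S)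
    {g : Sym2 V} : g ∈ edgesIn G (insert y S) \ edgesIn G S ↔ ∃ x ∈ S, g = s(y, x) ∧ G.Adj y x := by
  rw [Finset.mem_sdiff]
  constructor
  · induction g using Sym2.ind with
    | h u w =>
      simp only [mk_mem_edgesIn, Finset.mem_insert]
      rintro ⟨⟨hu, hw, hadj⟩, hn⟩
      rcases hu with rfl | hu
      · rcases hw with rfl | hw
        · exact absurd rfl hadj.ne
        · exact ⟨w, hw, rfl, hadj⟩
      · rcases hw with rfl | hw
        · exact ⟨u, hu, Sym2.eq_swap, hadj.symm⟩
        · exact absurd ⟨hu, hw, hadj⟩ hn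
  · rintro ⟨x, hx, rfl, hadj⟩
    simp only [mk_mem_edgesIn, Finset.mem_insert]
    exact ⟨⟨Or.inl trivial, Or.inr hx, hadj⟩, fun h => hy h.1⟩

lemma card_pendant [DecidableEq V] {G : SimpleGraph V} {S : Finset V} {y : V} (hy : y ∉ S)
    {F : Finset (Sym2 V)} (hF : F ⊆ edgesIn G S) :
    ((trees G (insert y S)).filter fun A =>
        (A ∩ (edgesIn G (insert y S) \ edgesIn G S)).card = 1 ∧ F ⊆ A).card =
      ((trees G S).filter (F ⊆ ·)).card * (edgesIn G (insert y S) \ edgesIn G S).card := by
  set O := edgesIn G (insert y S) \ edgesIn G S with hO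
  rw [← Finset.card_product]
  symm
  have hOn : ∀ {A0 : Finset (Sym2 V)}, A0 ⊆ edgesIn G S → ∀ g ∈ O, g ∉ A0 :=
    fun h g hg hg' => (Finset.mem_sdiff.1 hg).2 (h hg')
  have hinter : ∀ {A0 : Finset (Sym2 V)}, A0 ⊆ edgesIn G S → ∀ g ∈ O, insert g A0 ∩ O = {g} := by
    intro A0 h g hg
    ext e
    simp only [Finset.mem_inter, Finset.mem_insert, Finset.mem_singleton]
    constructor
    · rintro ⟨h1 | h1, h2⟩
      · exact h1
      · exact absurd h1 (hOn h e h2)
    · rintro rfl; exact ⟨Or.inl rfl, hg⟩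
  refine Finset.card_bij (fun p _ => insert p.2 p.1) ?_ ?_ ?_
  · rintro ⟨A0, g⟩ hp
    simp only [Finset.mem_product, Finset.mem_filter, mem_trees] at hp ⊢
    obtain ⟨⟨⟨h1, h2, h3⟩, h4⟩, hg⟩ := hp
    obtain ⟨x, hx, rfl, hadj⟩ := (mem_newEdges hy).1 hg
    refine ⟨⟨?_, ?_, ?_⟩, ?_, h4.trans (Finset.subset_insert _ _)⟩
    · exact Finset.insert_subset (Finset.mem_sdiff.1 hg).1
        (h1.trans (edgesIn_mono G (Finset.subset_insert _ _)))
    · apply conn_of_const
      intro φ hφ
      have a1 : ∀ u ∈ insert y S, φ u = φ x := by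
        intro u hu
        rcases Finset.mem_insert.1 hu with rfl | hu
        · exact hφ _ _ (Finset.mem_insert_self _ _)
        · exact h2.const φ (fun u w h => hφ u w (Finset.mem_insert_of_mem h)) hu hx
      exact fun a ha b hb => (a1 a ha).trans (a1 b hb).symm
    · rw [Finset.card_insert_of_notMem (hOn h1 _ hg), Finset.card_insert_of_notMem hy, h3]
    · rw [hinter h1 _ hg, Finset.card_singleton]
  · rintro ⟨A0, g⟩ hp ⟨A1, g'⟩ hp' h
    simp only [Finset.mem_product, Finset.mem_filter, mem_trees] at hp hp'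
    have h1 := hinter hp.1.1.1 g hp.2
    simp only at h
    rw [h, hinter hp'.1.1.1 g' hp'.2, Finset.singleton_inj] at h1
    subst h1
    have h2 := congrArg (fun B => B.erase g') h
    simp only [Finset.erase_insert (hOn hp.1.1.1 _ hp.2),
      Finset.erase_insert (hOn hp'.1.1.1 _ hp'.2)] at h2
    rw [h2]
  · intro A hA
    simp only [Finset.mem_filter, mem_trees] at hA
    obtain ⟨⟨h1, h2, h3⟩, h4, h5⟩ := hA
    obtain ⟨g, hg⟩ := Finset.card_eq_one.1 h4
    have hgA : g ∈ A ∩ O := hg ▸ Finset.mem_singleton_self g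
    rw [Finset.mem_inter] at hgA
    have hsub : A.erase g ⊆ edgesIn G S := by
      intro e he
      by_contra hn
      have : e ∈ A ∩ O := Finset.mem_inter.2 ⟨Finset.mem_of_mem_erase he,
        Finset.mem_sdiff.2 ⟨h1 (Finset.mem_of_mem_erase he), hn⟩⟩
      rw [hg, Finset.mem_singleton] at this
      exact Finset.ne_of_mem_erase he this
    refine ⟨(A.erase g, g), ?_, Finset.insert_erase hgA.1⟩
    simp only [Finset.mem_product, Finset.mem_filter, mem_trees]
    obtain ⟨x, hx, rfl, hadj⟩ := (mem_newEdges hy).1 hgA.2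
    refine ⟨⟨⟨hsub, ?_, ?_⟩, ?_⟩, hgA.2⟩
    · apply conn_of_const
      intro φ hφ a ha b hb
      have hne : ∀ u ∈ S, u ≠ y := fun u hu h => hy (h ▸ hu)
      have := h2.const (Function.update φ y (φ x)) (by
        intro u w huw
        by_cases he : s(u, w) = s(y, x)
        · rcases Sym2.eq_iff.1 he with ⟨rfl, rfl⟩ | ⟨rfl, rfl⟩
          · rw [Function.update_self, Function.update_of_ne (hne _ hx)]
          · rw [Function.update_self, Function.update_of_ne (hne _ hx)]
        · have h6 := Finset.mem_erase.2 ⟨he, huw⟩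
          obtain ⟨hu, hw, _⟩ := mk_mem_edgesIn.1 (hsub h6)
          rw [Function.update_of_ne (hne _ hu), Function.update_of_ne (hne _ hw)]
          exact hφ u w h6) (Finset.mem_insert_of_mem ha) (Finset.mem_insert_of_mem hb)
      rwa [Function.update_of_ne (hne _ ha), Function.update_of_ne (hne _ hb)] at this
    · rw [Finset.card_insert_of_notMem hy] at h3
      rw [Finset.card_erase_of_mem hgA.1]
      have := Finset.card_pos.2 ⟨_, hgA.1⟩
      omega
    · intro e he
      exact Finset.mem_erase.2 ⟨fun h => hOn hF _ hgA.2 (h ▸ he), h5 he⟩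

lemma ust_insert_le [DecidableEq V] {G : SimpleGraph V} {S : Finset V} {y : V} (hy : y ∉ S)
    (hS : (G.induce (S : Set V)).Connected)
    (hS' : (G.induce ((insert y S : Finset V) : Set V)).Connected)
    {F : Finset (Sym2 V)} (hF : F ⊆ edgesIn G S) :
    ustContains G (insert y S) F ≤ ustContains G S F := by
  set O := edgesIn G (insert y S) \ edgesIn G S with hO
  have hd : Disjoint F O := Finset.disjoint_left.2 fun e he he' => (Finset.mem_sdiff.1 he').2 (hF he)
  have hO1 : ∀ A ∈ trees G (insert y S), 1 ≤ (A ∩ O).card := by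
    intro A hA
    obtain ⟨h1, h2, _⟩ := mem_trees.1 hA
    by_contra hn
    have h0 : A ∩ O = ∅ := Finset.card_eq_zero.1 (by omega)
    obtain ⟨x, hx⟩ := (conn_edgesIn hS).1
    have := h2.const (fun u => u ∈ S) (by
      intro u w huw
      have : s(u, w) ∈ edgesIn G S := by
        by_contra hn
        have : s(u, w) ∈ A ∩ O := Finset.mem_inter.2 ⟨huw, Finset.mem_sdiff.2 ⟨h1 huw, hn⟩⟩
        rw [h0] at this
        exact absurd this (Finset.notMem_empty _)
      obtain ⟨hu, hw, _⟩ := mk_mem_edgesIn.1 this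
      exact propext ⟨fun _ => hw, fun _ => hu⟩)
      (Finset.mem_insert_of_mem hx) (Finset.mem_insert_self y S)
    exact hy (this ▸ hx)
  have hne' := trees_nonempty hS'
  have hne := trees_nonempty hS
  have h1 := (hp_trees hS').extract hne' hd hO1
  have h2 := card_pendant (G := G) hy hF
  have h3 := card_pendant (G := G) hy (Finset.empty_subset (edgesIn G S))
  simp only [Finset.empty_subset, and_true, Finset.filter_true] at h3
  rw [← hO] at h2 h3
  rw [h2, h3] at h1
  push_cast at h1
  have hOpos : (0 : ℝ) < O.card := by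
    obtain ⟨A, hA⟩ := hne'
    have := (hO1 A hA).trans (Finset.card_le_card Finset.inter_subset_right)
    exact_mod_cast this
  rw [ustContains_eq, ustContains_eq, div_le_div_iff₀ (by exact_mod_cast hne'.card_pos)
    (by exact_mod_cast hne.card_pos)]
  refine le_of_mul_le_mul_right ?_ hOpos
  linarith

theorem ust_anti {G : SimpleGraph V} {S' : Finset V}
    (hS' : (G.induce (S' : Set V)).Connected) (n : ℕ) :
    ∀ S : Finset V, S ⊆ S' → S.card + n = S'.card → (G.induce (S : Set V)).Connected →
      ∀ F : Finset (Sym2 V), F ⊆ edgesIn G S → ustContains G S' F ≤ ustContains G S F := by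
  classical
  induction n with
  | zero =>
    intro S hSS hcard _ F _
    rw [Finset.eq_of_subset_of_card_le hSS (by omega)]
  | succ n ih =>
    intro S hSS hcard hS F hF
    obtain ⟨⟨x0, hx0⟩, hc⟩ := conn_edgesIn hS
    obtain ⟨y0, hy0, hy0'⟩ : ∃ y ∈ S', y ∉ S := by
      by_contra hn
      push Not at hn
      have := Finset.card_le_card (show S' ⊆ S from hn)
      omega
    obtain ⟨y, hy, hyS, x, hx, hadj⟩ : ∃ y ∈ S', y ∉ S ∧ ∃ x ∈ S, G.Adj y x := by
      by_contra hn
      push Not at hn
      have := (conn_edgesIn hS').2.const (fun u => u ∈ S) (by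
        intro u w huw
        obtain ⟨hu, hw, hadj⟩ := mk_mem_edgesIn.1 huw
        refine propext ⟨fun h => ?_, fun h => ?_⟩
        · by_contra h2; exact hn w hw h2 u h hadj.symm
        · by_contra h2; exact hn u hu h2 w h hadj) (hSS hx0) hy0
      exact hy0' (this ▸ hx0)
    have hconn : (G.induce ((insert y S : Finset V) : Set V)).Connected := by
      refine connected_of_conn ⟨y, Finset.mem_insert_self _ _⟩ (conn_of_const fun φ hφ => ?_)
      have a1 : ∀ u ∈ insert y S, φ u = φ x := by
        intro u hu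
        rcases Finset.mem_insert.1 hu with rfl | hu
        · exact hφ _ _ (mk_mem_edgesIn.2 ⟨Finset.mem_insert_self _ _,
            Finset.mem_insert_of_mem hx, hadj⟩)
        · exact hc.const φ (fun u w h => hφ u w
            (edgesIn_mono G (Finset.subset_insert _ _) h)) hu hx
      exact fun a ha b hb => (a1 a ha).trans (a1 b hb).symm
    refine (ih (insert y S) (Finset.insert_subset hy hSS) ?_ hconn F
      (hF.trans (edgesIn_mono G (Finset.subset_insert _ _)))).trans (ust_insert_le hyS hS hconn hF)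
    rw [Finset.card_insert_of_notMem hyS]; omega

lemma ust_nonneg (G : SimpleGraph V) (S : Finset V) (F : Finset (Sym2 V)) :
    0 ≤ ustContains G S F := by
  unfold ustContains; positivity

/-- the free limit -/
noncomputable def fl (G : SimpleGraph V) (F : Finset (Sym2 V)) : ℝ :=
  sInf {t | ∃ S : Finset V, (G.induce (S : Set V)).Connected ∧ F ⊆ edgesIn G S ∧
    t = ustContains G S F}

theorem tendsto_ust {G : SimpleGraph V} (S : ℕ → Finset V) (hmono : Monotone S)
    (hexh : ∀ v, ∃ n, v ∈ S n) (hconn : ∀ n, (G.induce (S n : Set V)).Connected)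
    (F : Finset (Sym2 V)) (hF : (F : Set (Sym2 V)) ⊆ G.edgeSet) :
    Filter.Tendsto (fun n => ustContains G (S n) F) Filter.atTop (nhds (fl G F)) := by
  classical
  have hev : ∀ T : Finset V, ∀ᶠ n in Filter.atTop, T ⊆ S n := by
    intro T
    have : ∀ v ∈ T, ∀ᶠ n in Filter.atTop, v ∈ S n := fun v _ => by
      obtain ⟨m, hm⟩ := hexh v
      exact Filter.eventually_atTop.2 ⟨m, fun n hn => hmono hn hm⟩
    exact (Filter.eventually_all_finset T).2 this
  have hevF : ∀ᶠ n in Filter.atTop, F ⊆ edgesIn G (S n) := by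
    filter_upwards [hev (F.biUnion fun e => e.toFinset)] with n hn e he
    exact mem_edgesIn.2 ⟨fun a ha => hn (Finset.mem_biUnion.2 ⟨e, he, Sym2.mem_toFinset.2 ha⟩),
      hF he⟩
  have hbdd : BddBelow {t | ∃ S : Finset V, (G.induce (S : Set V)).Connected ∧ F ⊆ edgesIn G S ∧
      t = ustContains G S F} := ⟨0, by rintro t ⟨S, _, _, rfl⟩; exact ust_nonneg G S F⟩
  have hne : Set.Nonempty {t | ∃ S : Finset V, (G.induce (S : Set V)).Connected ∧
      F ⊆ edgesIn G S ∧ t = ustContains G S F} := by
    obtain ⟨n, hn⟩ := hevF.exists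
    exact ⟨_, S n, hconn n, hn, rfl⟩
  rw [tendsto_order]
  constructor
  · intro a ha
    filter_upwards [hevF] with n hn
    exact ha.trans_le (csInf_le hbdd ⟨S n, hconn n, hn, rfl⟩)
  · intro a ha
    obtain ⟨t, ⟨S0, h1, h2, rfl⟩, ht⟩ := exists_lt_of_csInf_lt hne ha
    filter_upwards [hev S0] with n hn
    refine lt_of_le_of_lt ?_ ht
    exact ust_anti (hconn n) ((S n).card - S0.card) S0 hn
      (by have := Finset.card_le_card hn; omega) h1 F h2

end Crest.Agent.H5
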