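import Mathlib

/-!
The deterministic decoding scheme: from uniform labels and a prediction rule `Q` recover noisy
observations round by round through a sup-norm contraction.
-/

set_option autoImplicit false

namespace Crest.Agent.H5

open Filter Topology

/-- noise strength -/
noncomputable def eps : ℝ := 1 / 1000

/-- likelihood ratio of the observation `z` -/
noncomputable def lr (z : ℝ) : ℝ := (1 + eps * (2 * z - 1)) / (1 - eps * (2 * z - 1))

/-- distribution function of the mixture with weight `q` -/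
noncomputable def mcdf (q z : ℝ) : ℝ := z + eps * (2 * q - 1) * (z ^ 2 - z)

/-- clamp to the unit interval -/
noncomputable def clamp (x : ℝ) : ℝ := max 0 (min 1 x)

variable {V : Type*}

open Classical in
/-- weights known at the update time of `v` -/
noncomputable def fld (R : V → V → Prop) (lam z : V → ℝ) (v : V) : V → ℝ :=
  fun w => lam w * (if R w v then lr (z w) else 1)

/-- the contraction -/
noncomputable def psi (Q : V → (V → ℝ) → ℝ) (R : V → V → Prop) (lam u z : V → ℝ) : V → ℝ :=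
  fun v => clamp (u v - eps * (2 * Q v (fld R lam z v) - 1) * (z v ^ 2 - z v))

/-- one round of decoding -/
noncomputable def roundZ (Q : V → (V → ℝ) → ℝ) (R : V → V → Prop) (lam u : V → ℝ) : V → ℝ :=
  fun v => limsup (fun m => ((psi Q R lam u)^[m] (fun _ => 0)) v) atTop

/-- accumulated weights -/
noncomputable def lamSeq (Q : V → (V → ℝ) → ℝ) (R : V → V → Prop) (U : ℕ × V → ℝ) :
    ℕ → V → ℝ
  | 0 => fun _ => 1
  | k + 1 => fun w => lamSeq Q R U k w * lr (roundZ Q R (lamSeq Q R U k) (fun v => U (k, v)) w)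

/-- decoded observations -/
noncomputable def zSeq (Q : V → (V → ℝ) → ℝ) (R : V → V → Prop) (U : ℕ × V → ℝ) (k : ℕ) :
    V → ℝ :=
  roundZ Q R (lamSeq Q R U k) (fun v => U (k, v))

/-- the statistic used for decoding -/
noncomputable def stat (z : ℝ) : ℝ := if z ≤ 1 / 2 then 1 else 0

/-- read the hidden bit off the observations -/
noncomputable def decode (z : ℕ → ℝ) : Bool :=
  decide (limsup (fun n : ℕ => (∑ k ∈ Finset.range n, stat (z k)) / (n : ℝ)) atTop < 1 / 2)

/-- the factor map -/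
noncomputable def core (Q : V → (V → ℝ) → ℝ) (R : V → V → Prop) (U : ℕ × V → ℝ) : V → Bool :=
  fun v => decode (fun k => zSeq Q R U k v)

section natural

variable {V' : Type*} (j : V' → V) {Q : V → (V → ℝ) → ℝ} {R : V → V → Prop}
  {Q' : V' → (V' → ℝ) → ℝ} {R' : V' → V' → Prop}

lemma fld_comp (hR : ∀ a b, R' a b ↔ R (j a) (j b)) (lam z : V → ℝ) (v : V') :
    fld R' (lam ∘ j) (z ∘ j) v = fld R lam z (j v) ∘ j := by
  funext w
  simp only [fld, Function.comp]
  by_cases h : R' w v
  · rw [if_pos h, if_pos ((hR _ _).1 h)]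
  · rw [if_neg h, if_neg (fun h' => h ((hR _ _).2 h'))]

lemma psi_comp (hQ : ∀ v lam, Q' v (lam ∘ j) = Q (j v) lam) (hR : ∀ a b, R' a b ↔ R (j a) (j b))
    (lam u z : V → ℝ) : psi Q' R' (lam ∘ j) (u ∘ j) (z ∘ j) = psi Q R lam u z ∘ j := by
  funext v
  simp only [psi, Function.comp, fld_comp j hR, hQ]

lemma roundZ_comp (hQ : ∀ v lam, Q' v (lam ∘ j) = Q (j v) lam)
    (hR : ∀ a b, R' a b ↔ R (j a) (j b)) (lam u : V → ℝ) :
    roundZ Q' R' (lam ∘ j) (u ∘ j) = roundZ Q R lam u ∘ j := by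
  have : ∀ m, (psi Q' R' (lam ∘ j) (u ∘ j))^[m] (fun _ => 0) =
      ((psi Q R lam u)^[m] (fun _ => 0)) ∘ j := by
    intro m
    induction m with
    | zero => rfl
    | succ m ih => rw [Function.iterate_succ_apply', Function.iterate_succ_apply', ih,
        psi_comp j hQ hR]
  funext v
  simp only [roundZ, this, Function.comp]

lemma lamSeq_comp (hQ : ∀ v lam, Q' v (lam ∘ j) = Q (j v) lam)
    (hR : ∀ a b, R' a b ↔ R (j a) (j b)) (U : ℕ × V → ℝ) (U' : ℕ × V' → ℝ)
    (hU : ∀ k v, U' (k, v) = U (k, j v)) (k : ℕ) :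
    lamSeq Q' R' U' k = lamSeq Q R U k ∘ j := by
  induction k with
  | zero => rfl
  | succ k ih =>
    funext w
    have e : (fun v => U' (k, v)) = (fun v => U (k, v)) ∘ j := by
      funext v; exact hU k v
    simp only [lamSeq, ih, e, roundZ_comp j hQ hR, Function.comp]

theorem core_comp (hQ : ∀ v lam, Q' v (lam ∘ j) = Q (j v) lam)
    (hR : ∀ a b, R' a b ↔ R (j a) (j b)) (U : ℕ × V → ℝ) (U' : ℕ × V' → ℝ)
    (hU : ∀ k v, U' (k, v) = U (k, j v)) :
    core Q' R' U' = core Q R U ∘ j := by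
  funext v
  have e : ∀ k, (fun v => U' (k, v)) = (fun v => U (k, v)) ∘ j := by
    intro k; funext v; exact hU k v
  simp only [core, zSeq, lamSeq_comp j hQ hR U U' hU, e, roundZ_comp j hQ hR, Function.comp]

end natural

section measurable

lemma measurable_lr : Measurable lr := by
  unfold lr; fun_prop

lemma measurable_clamp : Measurable clamp := by
  unfold clamp; fun_prop

lemma measurable_stat : Measurable stat :=
  Measurable.ite (measurableSet_le measurable_id measurable_const) measurable_const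
    measurable_const

lemma measurable_decode : Measurable decode := by
  have h : Measurable fun z : ℕ → ℝ =>
      limsup (fun n : ℕ => (∑ k ∈ Finset.range n, stat (z k)) / (n : ℝ)) atTop :=
    Measurable.limsup fun n => (Finset.measurable_sum _ fun k _ =>
      measurable_stat.comp (measurable_pi_apply k)).div_const _
  refine measurable_to_bool ?_
  have : decode ⁻¹' {true} = {z : ℕ → ℝ |
      limsup (fun n : ℕ => (∑ k ∈ Finset.range n, stat (z k)) / (n : ℝ)) atTop < 1 / 2} := by
    ext z; simp [decode]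
  rw [this]
  exact measurableSet_lt h measurable_const

variable {Ω : Type*} [MeasurableSpace Ω] {Q : Ω → V → (V → ℝ) → ℝ} {R : Ω → V → V → Prop}

lemma measurable_fld (hR : ∀ a b, MeasurableSet {ω | R ω a b}) {lam z : Ω → V → ℝ}
    (hl : Measurable lam) (hz : Measurable z) (v : V) :
    Measurable fun ω => fld (R ω) (lam ω) (z ω) v := by
  refine measurable_pi_lambda _ fun w => ?_
  unfold fld
  refine ((measurable_pi_apply w).comp hl).mul ?_
  exact Measurable.ite (hR w v) (measurable_lr.comp ((measurable_pi_apply w).comp hz))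
    measurable_const

lemma measurable_psi (hQ : ∀ v, Measurable fun p : Ω × (V → ℝ) => Q p.1 v p.2)
    (hR : ∀ a b, MeasurableSet {ω | R ω a b}) {lam u z : Ω → V → ℝ}
    (hl : Measurable lam) (hu : Measurable u) (hz : Measurable z) :
    Measurable fun ω => psi (Q ω) (R ω) (lam ω) (u ω) (z ω) := by
  refine measurable_pi_lambda _ fun v => ?_
  unfold psi
  have h1 : Measurable fun ω => Q ω v (fld (R ω) (lam ω) (z ω) v) :=
    (hQ v).comp (measurable_id.prodMk (measurable_fld hR hl hz v))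
  have h2 : Measurable fun ω => z ω v := (measurable_pi_apply v).comp hz
  have h3 : Measurable fun ω => u ω v := (measurable_pi_apply v).comp hu
  exact measurable_clamp.comp (h3.sub ((measurable_const.mul
    ((measurable_const.mul h1).sub measurable_const)).mul ((h2.pow_const 2).sub h2)))

lemma measurable_roundZ (hQ : ∀ v, Measurable fun p : Ω × (V → ℝ) => Q p.1 v p.2)
    (hR : ∀ a b, MeasurableSet {ω | R ω a b}) {lam u : Ω → V → ℝ}
    (hl : Measurable lam) (hu : Measurable u) :
    Measurable fun ω => roundZ (Q ω) (R ω) (lam ω) (u ω) := by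
  have h : ∀ m, Measurable fun ω => (psi (Q ω) (R ω) (lam ω) (u ω))^[m] (fun _ => 0) := by
    intro m
    induction m with
    | zero => exact measurable_const
    | succ m ih =>
      simp only [Function.iterate_succ_apply']
      exact measurable_psi hQ hR hl hu ih
  refine measurable_pi_lambda _ fun v => ?_
  exact Measurable.limsup fun m => (measurable_pi_apply v).comp (h m)

lemma measurable_lamSeq (hQ : ∀ v, Measurable fun p : Ω × (V → ℝ) => Q p.1 v p.2)
    (hR : ∀ a b, MeasurableSet {ω | R ω a b}) {U : Ω → ℕ × V → ℝ} (hU : Measurable U) (k : ℕ) :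
    Measurable fun ω => lamSeq (Q ω) (R ω) (U ω) k := by
  induction k with
  | zero => exact measurable_const
  | succ k ih =>
    refine measurable_pi_lambda _ fun w => ?_
    simp only [lamSeq]
    have h1 : Measurable fun ω => fun v => U ω (k, v) :=
      measurable_pi_lambda _ fun v => (measurable_pi_apply (k, v)).comp hU
    exact ((measurable_pi_apply w).comp ih).mul
      (measurable_lr.comp ((measurable_pi_apply w).comp (measurable_roundZ hQ hR ih h1)))

theorem measurable_core (hQ : ∀ v, Measurable fun p : Ω × (V → ℝ) => Q p.1 v p.2)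
    (hR : ∀ a b, MeasurableSet {ω | R ω a b}) {U : Ω → ℕ × V → ℝ} (hU : Measurable U) :
    Measurable fun ω => core (Q ω) (R ω) (U ω) := by
  refine measurable_pi_lambda _ fun v => ?_
  refine measurable_decode.comp (measurable_pi_lambda _ fun k => ?_)
  have h1 : Measurable fun ω => fun v => U ω (k, v) :=
    measurable_pi_lambda _ fun v => (measurable_pi_apply (k, v)).comp hU
  exact (measurable_pi_apply v).comp (measurable_roundZ hQ hR (measurable_lamSeq hQ hR hU k) h1)

end measurable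

section determ

lemma clamp_mem (x : ℝ) : 0 ≤ clamp x ∧ clamp x ≤ 1 :=
  ⟨le_max_left _ _, max_le zero_le_one (min_le_left _ _)⟩

lemma clamp_eq {x : ℝ} (h0 : 0 ≤ x) (h1 : x ≤ 1) : clamp x = x := by
  unfold clamp; rw [min_eq_right h1, max_eq_right h0]

lemma abs_clamp_sub (x y : ℝ) : |clamp x - clamp y| ≤ |x - y| := by
  unfold clamp
  refine (abs_max_sub_max_le_max _ _ _ _).trans ?_
  simp only [sub_self, abs_zero]
  refine max_le (abs_nonneg _) ?_
  refine (abs_min_sub_min_le_max _ _ _ _).trans ?_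
  simp

lemma lr_pos {z : ℝ} (h0 : 0 ≤ z) (h1 : z ≤ 1) : 0 < lr z := by
  unfold lr eps
  apply div_pos <;> linarith

lemma abs_lr_sub {z z' : ℝ} (h0 : 0 ≤ z) (h1 : z ≤ 1) (_h0' : 0 ≤ z') (h1' : z' ≤ 1) {d : ℝ}
    (hd : |z' - z| ≤ d) : |lr z' - lr z| ≤ (16 * eps * d) * lr z := by
  have a1 : 0 < 1 - eps * (2 * z - 1) := by unfold eps; linarith
  have a2 : 0 < 1 - eps * (2 * z' - 1) := by unfold eps; linarith
  have a3 : 0 < 1 + eps * (2 * z - 1) := by unfold eps; linarith
  have e : lr z' - lr z = (4 * eps * (z' - z) / ((1 - eps * (2 * z' - 1)) *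
      (1 + eps * (2 * z - 1)))) * lr z := by
    unfold lr
    field_simp
    ring
  rw [e, abs_mul, abs_of_pos (lr_pos h0 h1)]
  refine mul_le_mul_of_nonneg_right ?_ (lr_pos h0 h1).le
  rw [abs_div, abs_of_pos (mul_pos a2 a3), div_le_iff₀ (mul_pos a2 a3), abs_mul,
    abs_of_pos (by unfold eps; norm_num : 0 < 4 * eps)]
  have b1 : 1 / 2 ≤ 1 - eps * (2 * z' - 1) := by unfold eps; linarith
  have b2 : 1 / 2 ≤ 1 + eps * (2 * z - 1) := by unfold eps; linarith
  have b3 : 1 / 4 ≤ (1 - eps * (2 * z' - 1)) * (1 + eps * (2 * z - 1)) := by nlinarith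
  have hd0 : 0 ≤ d := (abs_nonneg _).trans hd
  have he : 0 < eps := by unfold eps; norm_num
  have : 0 ≤ 16 * eps * d := by positivity
  nlinarith

/-- properties of an admissible prediction rule -/
structure GoodQ (Q : V → (V → ℝ) → ℝ) : Prop where
  nonneg : ∀ v lam, (∀ w, 0 < lam w) → 0 ≤ Q v lam
  le_one : ∀ v lam, (∀ w, 0 < lam w) → Q v lam ≤ 1
  lip : ∀ v lam lam', (∀ w, 0 < lam w) → (∀ w, 0 < lam' w) → lam v = lam' v → ∀ δ : ℝ, 0 ≤ δ →
    (∀ w, |lam' w - lam w| ≤ δ * lam w) → |Q v lam - Q v lam'| ≤ 512 * δ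

lemma fld_pos (R : V → V → Prop) {lam z : V → ℝ} (hl : ∀ w, 0 < lam w)
    (hz : ∀ w, 0 ≤ z w ∧ z w ≤ 1) (v w : V) : 0 < fld R lam z v w := by
  unfold fld
  refine mul_pos (hl w) ?_
  split_ifs
  · exact lr_pos (hz w).1 (hz w).2
  · norm_num

lemma psi_contract {Q : V → (V → ℝ) → ℝ} (hQ : GoodQ Q) {R : V → V → Prop} (hR : ∀ v, ¬ R v v)
    {lam : V → ℝ} (hl : ∀ w, 0 < lam w) (u : V → ℝ) {z z' : V → ℝ}
    (hz : ∀ w, 0 ≤ z w ∧ z w ≤ 1) (hz' : ∀ w, 0 ≤ z' w ∧ z' w ≤ 1) {d : ℝ}
    (hd : ∀ w, |z' w - z w| ≤ d) (v : V) :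
    |psi Q R lam u z' v - psi Q R lam u z v| ≤ d / 2 := by
  unfold psi
  refine (abs_clamp_sub _ _).trans ?_
  have hd0 : 0 ≤ d := (abs_nonneg _).trans (hd v)
  have he : 0 < eps := by unfold eps; norm_num
  have hq := hQ.lip v (fld R lam z v) (fld R lam z' v) (fld_pos R hl hz v) (fld_pos R hl hz' v)
    (by simp [fld, hR v]) (16 * eps * d) (by positivity) (by
      intro w
      unfold fld
      split_ifs
      · rw [← mul_sub, abs_mul, abs_of_pos (hl w)]
        have := abs_lr_sub (hz w).1 (hz w).2 (hz' w).1 (hz' w).2 (hd w)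
        have h2 := hl w
        nlinarith
      · simp only [sub_self, abs_zero]
        have := hl w
        positivity)
  set q := Q v (fld R lam z v)
  set q' := Q v (fld R lam z' v)
  have q0 : 0 ≤ q' := hQ.nonneg v _ (fld_pos R hl hz' v)
  have q1 : q' ≤ 1 := hQ.le_one v _ (fld_pos R hl hz' v)
  set a := z v
  set a' := z' v
  have ha := hz v
  have ha' := hz' v
  have hda := hd v
  have e : u v - eps * (2 * q' - 1) * (a' ^ 2 - a') - (u v - eps * (2 * q - 1) * (a ^ 2 - a)) =
      eps * (2 * (q - q') * (a ^ 2 - a) - (2 * q' - 1) * ((a' - a) * (a' + a - 1))) := by ring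
  rw [e, abs_mul, abs_of_pos he]
  have t1 : |2 * (q - q') * (a ^ 2 - a)| ≤ 2 * (512 * (16 * eps * d)) * (1 / 4) := by
    rw [abs_mul, abs_mul, abs_of_pos (by norm_num : (0 : ℝ) < 2)]
    refine mul_le_mul (by linarith) ?_ (abs_nonneg _) (by positivity)
    rw [abs_le]; constructor <;> nlinarith [ha.1, ha.2, sq_nonneg (a - 1 / 2)]
  have t2 : |(2 * q' - 1) * ((a' - a) * (a' + a - 1))| ≤ 1 * (d * 1) := by
    rw [abs_mul, abs_mul]
    refine mul_le_mul ?_ (mul_le_mul hda ?_ (abs_nonneg _) hd0) (by positivity) zero_le_one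
    · rw [abs_le]; constructor <;> linarith
    · rw [abs_le]; constructor <;> linarith [ha.1, ha.2, ha'.1, ha'.2]
  have t3 := abs_sub (2 * (q - q') * (a ^ 2 - a)) ((2 * q' - 1) * ((a' - a) * (a' + a - 1)))
  calc eps * |2 * (q - q') * (a ^ 2 - a) - (2 * q' - 1) * ((a' - a) * (a' + a - 1))|
      ≤ eps * (2 * (512 * (16 * eps * d)) * (1 / 4) + 1 * (d * 1)) :=
        mul_le_mul_of_nonneg_left (by linarith) he.le
    _ ≤ d / 2 := by unfold eps; linarith

lemma roundZ_eq {Q : V → (V → ℝ) → ℝ} (hQ : GoodQ Q) {R : V → V → Prop} (hR : ∀ v, ¬ R v v)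
    {lam : V → ℝ} (hl : ∀ w, 0 < lam w) (u : V → ℝ) {z : V → ℝ}
    (hz : ∀ w, 0 ≤ z w ∧ z w ≤ 1) (hu : ∀ v, u v = mcdf (Q v (fld R lam z v)) (z v)) :
    roundZ Q R lam u = z := by
  have hfix : psi Q R lam u z = z := by
    funext v
    unfold psi
    rw [hu v, mcdf, add_sub_cancel_right, clamp_eq (hz v).1 (hz v).2]
  have hm : ∀ m, (∀ w, 0 ≤ ((psi Q R lam u)^[m] (fun _ => 0)) w ∧
      ((psi Q R lam u)^[m] (fun _ => 0)) w ≤ 1) ∧
      ∀ w, |((psi Q R lam u)^[m] (fun _ => 0)) w - z w| ≤ (1 / 2) ^ m := by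
    intro m
    induction m with
    | zero =>
      refine ⟨fun w => by simp, fun w => ?_⟩
      simp only [Function.iterate_zero, id_eq, zero_sub, abs_neg, pow_zero]
      rw [abs_of_nonneg (hz w).1]; exact (hz w).2
    | succ m ih =>
      rw [Function.iterate_succ_apply']
      refine ⟨fun w => clamp_mem _, fun w => ?_⟩
      have := psi_contract hQ hR hl u hz ih.1 ih.2 w
      rw [hfix] at this
      rw [pow_succ]; linarith
  funext v
  apply Tendsto.limsup_eq
  rw [tendsto_iff_dist_tendsto_zero]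
  refine squeeze_zero (fun _ => dist_nonneg) (fun m => (hm m).2 v) ?_
  exact tendsto_pow_atTop_nhds_zero_of_lt_one (by norm_num) (by norm_num)

/-- true accumulated weights -/
noncomputable def lamT (Z : ℕ × V → ℝ) (k : ℕ) : V → ℝ :=
  fun w => ∏ k' ∈ Finset.range k, lr (Z (k', w))

lemma lamT_pos {Z : ℕ × V → ℝ} (hZ : ∀ i, 0 ≤ Z i ∧ Z i ≤ 1) (k : ℕ) (w : V) : 0 < lamT Z k w :=
  Finset.prod_pos fun _ _ => lr_pos (hZ _).1 (hZ _).2

/-- the weights known when the observation `i` is made -/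
noncomputable def fldT (R : V → V → Prop) (Z : ℕ × V → ℝ) (i : ℕ × V) : V → ℝ :=
  fld R (lamT Z i.1) (fun w => Z (i.1, w)) i.2

lemma fldT_pos (R : V → V → Prop) {Z : ℕ × V → ℝ} (hZ : ∀ i, 0 ≤ Z i ∧ Z i ≤ 1) (i : ℕ × V)
    (w : V) : 0 < fldT R Z i w :=
  fld_pos R (lamT_pos hZ _) (fun _ => hZ _) _ _

theorem core_eq {Q : V → (V → ℝ) → ℝ} (hQ : GoodQ Q) {R : V → V → Prop} (hR : ∀ v, ¬ R v v)
    {Z : ℕ × V → ℝ} (hZ : ∀ i, 0 ≤ Z i ∧ Z i ≤ 1) (U : ℕ × V → ℝ)
    (hU : ∀ i, U i = mcdf (Q i.2 (fldT R Z i)) (Z i)) :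
    core Q R U = fun v => decode (fun k => Z (k, v)) := by
  have h1 : ∀ k, roundZ Q R (lamT Z k) (fun v => U (k, v)) = fun v => Z (k, v) := fun k =>
    roundZ_eq hQ hR (lamT_pos hZ k) _ (fun _ => hZ _) (fun v => hU (k, v))
  have h2 : ∀ k, lamSeq Q R U k = lamT Z k := by
    intro k
    induction k with
    | zero => funext w; simp [lamSeq, lamT]
    | succ k ih =>
      funext w
      simp only [lamSeq, ih, h1]
      simp [lamT, Finset.prod_range_succ]
  funext v
  simp only [core, zSeq, h2, h1]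

end determ

attribute [irreducible] core

end Crest.Agent.H5
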