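import Mathlib
import Crest.Agent.H5.Core

/-!
The noisy channel: mixtures with linear densities on the unit interval.
-/

set_option autoImplicit false

namespace Crest.Agent.H5

open MeasureTheory Set

/-- density of the mixture with weight `q` -/
noncomputable def dens (q : ℝ) (z : unitInterval) : ℝ := 1 + eps * (2 * q - 1) * (2 * (z : ℝ) - 1)

/-- law of the observation, mixture weight `q` -/
noncomputable def chan (q : ℝ) : Measure unitInterval :=
  volume.withDensity (fun z => ENNReal.ofReal (dens q z))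

lemma continuous_dens (q : ℝ) : Continuous (dens q) := by
  unfold dens; fun_prop

lemma measurable_dens (q : ℝ) : Measurable (dens q) := (continuous_dens q).measurable

lemma dens_pos {q : ℝ} (h0 : 0 ≤ q) (h1 : q ≤ 1) (z : unitInterval) : 0 < dens q z := by
  unfold dens eps
  have a0 := z.2.1
  have a1 := z.2.2
  have : -1 ≤ (2 * q - 1) * (2 * (z : ℝ) - 1) := by nlinarith [mul_nonneg h0 a0, mul_nonneg (sub_nonneg.2 h1) (sub_nonneg.2 a1)]
  nlinarith

lemma dens_le {q : ℝ} (h0 : 0 ≤ q) (h1 : q ≤ 1) (z : unitInterval) : dens q z ≤ 2 := by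
  unfold dens eps
  have a0 := z.2.1
  have a1 := z.2.2
  have : (2 * q - 1) * (2 * (z : ℝ) - 1) ≤ 1 := by nlinarith [mul_nonneg h0 (sub_nonneg.2 a1), mul_nonneg (sub_nonneg.2 h1) a0]
  nlinarith

lemma dens_one (z : unitInterval) : dens 1 z = dens 0 z * lr z := by
  unfold dens lr
  have a0 := z.2.1
  have a1 := z.2.2
  have : 1 - eps * (2 * (z : ℝ) - 1) ≠ 0 := by unfold eps; linarith
  field_simp
  ring

lemma integral_chan {q : ℝ} (h0 : 0 ≤ q) (h1 : q ≤ 1) (f : unitInterval → ℝ) :
    ∫ z, f z ∂(chan q) = ∫ z, dens q z * f z := by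
  unfold chan
  rw [integral_withDensity_eq_integral_toReal_smul ((measurable_dens q).ennreal_ofReal)
    (Filter.Eventually.of_forall fun _ => ENNReal.ofReal_lt_top)]
  congr 1
  funext z
  rw [ENNReal.toReal_ofReal (dens_pos h0 h1 z).le, smul_eq_mul]

lemma integrable_dens (q : ℝ) : Integrable (dens q) :=
  (continuous_dens q).integrable_of_hasCompactSupport (HasCompactSupport.of_compactSpace _)

lemma chan_apply {q : ℝ} (h0 : 0 ≤ q) (h1 : q ≤ 1) {A : Set unitInterval} (hA : MeasurableSet A) :
    chan q A = ENNReal.ofReal (∫ z in A, dens q z) := by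
  unfold chan
  rw [withDensity_apply _ hA, ofReal_integral_eq_lintegral_ofReal (integrable_dens q).integrableOn
    (Filter.Eventually.of_forall fun z => (dens_pos h0 h1 z).le)]

lemma integral_dens_Iic (q : ℝ) (t : unitInterval) :
    ∫ z in Iic t, dens q z = mcdf q t := by
  have h1 : ∫ z in Iic t, dens q z =
      ∫ z : unitInterval, (Iic (t : ℝ)).indicator
        (fun x : ℝ => 1 + eps * (2 * q - 1) * (2 * x - 1)) z := by
    rw [← integral_indicator measurableSet_Iic]
    congr 1
  rw [h1, integral_subtype (s := unitInterval) measurableSet_Icc,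
    setIntegral_indicator measurableSet_Iic]
  have h2 : unitInterval ∩ Iic (t : ℝ) = Icc 0 (t : ℝ) := by
    ext x
    simp only [mem_inter_iff, mem_Icc, mem_Iic]
    constructor
    · rintro ⟨⟨a, _⟩, c⟩; exact ⟨a, c⟩
    · rintro ⟨a, c⟩; exact ⟨⟨a, c.trans t.2.2⟩, c⟩
  rw [h2, integral_Icc_eq_integral_Ioc, ← intervalIntegral.integral_of_le t.2.1]
  have h3 : ∀ x ∈ uIcc (0 : ℝ) t, HasDerivAt (fun x => mcdf q x)
      (1 + eps * (2 * q - 1) * (2 * x - 1)) x := by
    intro x _
    unfold mcdf
    have := ((hasDerivAt_id x).add ((((hasDerivAt_id x).pow 2).sub (hasDerivAt_id x)).const_mul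
      (eps * (2 * q - 1))))
    refine this.congr_deriv ?_
    simp
  rw [intervalIntegral.integral_eq_sub_of_hasDerivAt h3 (by
    apply Continuous.intervalIntegrable; fun_prop)]
  simp [mcdf]

lemma chan_Iic {q : ℝ} (h0 : 0 ≤ q) (h1 : q ≤ 1) (t : unitInterval) :
    chan q (Iic t) = ENNReal.ofReal (mcdf q t) := by
  rw [chan_apply h0 h1 measurableSet_Iic, integral_dens_Iic]

lemma isProb_chan {q : ℝ} (h0 : 0 ≤ q) (h1 : q ≤ 1) : IsProbabilityMeasure (chan q) := by
  constructor
  have : (univ : Set unitInterval) = Iic 1 := by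
    ext z; simp [unitInterval.le_one']
  rw [this, chan_Iic h0 h1]
  simp [mcdf]

instance isProb_chan_one : IsProbabilityMeasure (chan 1) := isProb_chan zero_le_one le_rfl
instance isProb_chan_zero : IsProbabilityMeasure (chan 0) := isProb_chan le_rfl zero_le_one

lemma chan_real {q : ℝ} (h0 : 0 ≤ q) (h1 : q ≤ 1) {A : Set unitInterval} (hA : MeasurableSet A) :
    (chan q).real A = ∫ z in A, dens q z := by
  rw [Measure.real, chan_apply h0 h1 hA, ENNReal.toReal_ofReal]
  exact integral_nonneg fun z => (dens_pos h0 h1 z).le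

lemma chan_mix {q : ℝ} (h0 : 0 ≤ q) (h1 : q ≤ 1) {A : Set unitInterval} (hA : MeasurableSet A) :
    (chan q).real A = (chan 0).real A + q * ((chan 1).real A - (chan 0).real A) := by
  rw [chan_real h0 h1 hA, chan_real le_rfl zero_le_one hA, chan_real zero_le_one le_rfl hA,
    ← integral_sub (integrable_dens 1).integrableOn (integrable_dens 0).integrableOn,
    ← integral_const_mul, ← integral_add (g := fun a => q * (dens 1 a - dens 0 a))
      (integrable_dens 0).integrableOn
      (((integrable_dens 1).integrableOn.sub (integrable_dens 0).integrableOn).const_mul q)]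
  congr 1
  funext z
  simp only [dens]
  ring

lemma mcdf_lt {q : ℝ} (h0 : 0 ≤ q) (h1 : q ≤ 1) {a b : ℝ} (ha : 0 ≤ a) (hab : a < b) (hb : b ≤ 1) :
    mcdf q a < mcdf q b := by
  have e : mcdf q b - mcdf q a = (b - a) * (1 + eps * ((2 * q - 1) * (a + b - 1))) := by
    unfold mcdf; ring
  have h2 : -1 ≤ (2 * q - 1) * (a + b - 1) := by
    nlinarith [mul_nonneg h0 (add_nonneg ha (ha.trans hab.le)),
      mul_nonneg (sub_nonneg.2 h1) (by linarith : 0 ≤ 2 - (a + b))]
  have h3 : 0 < 1 + eps * ((2 * q - 1) * (a + b - 1)) := by unfold eps; linarith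
  have := mul_pos (sub_pos.2 hab) h3
  linarith

lemma mcdf_le_iff {q : ℝ} (h0 : 0 ≤ q) (h1 : q ≤ 1) (a b : unitInterval) :
    mcdf q a ≤ mcdf q b ↔ a ≤ b := by
  constructor
  · intro h
    by_contra hlt
    have hlt' : (b : ℝ) < a := lt_of_not_ge hlt
    exact absurd (mcdf_lt h0 h1 b.2.1 hlt' a.2.2) (not_lt.2 h)
  · intro h
    have h' : (a : ℝ) ≤ b := h
    rcases h'.eq_or_lt with e | e
    · rw [e]
    · exact (mcdf_lt h0 h1 a.2.1 e b.2.2).le

lemma mcdf_mem {q : ℝ} (h0 : 0 ≤ q) (h1 : q ≤ 1) (z : unitInterval) :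
    0 ≤ mcdf q z ∧ mcdf q z ≤ 1 := by
  have a := (mcdf_le_iff h0 h1 0 z).2 unitInterval.nonneg'
  have b := (mcdf_le_iff h0 h1 z 1).2 unitInterval.le_one'
  simp only [mcdf] at a b ⊢
  simp only [Icc.coe_zero, Icc.coe_one] at a b
  constructor <;> nlinarith

/-- probability integral transform -/
noncomputable def ucdf (q : ℝ) (z : unitInterval) : unitInterval :=
  projIcc 0 1 zero_le_one (mcdf q z)

lemma coe_ucdf {q : ℝ} (h0 : 0 ≤ q) (h1 : q ≤ 1) (z : unitInterval) :
    (ucdf q z : ℝ) = mcdf q z := by
  unfold ucdf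
  rw [projIcc_of_mem zero_le_one ⟨(mcdf_mem h0 h1 z).1, (mcdf_mem h0 h1 z).2⟩]

lemma continuous_ucdf : Continuous fun p : ℝ × unitInterval => ucdf p.1 p.2 := by
  unfold ucdf mcdf
  exact continuous_projIcc.comp (by fun_prop)

lemma measurable_ucdf : Measurable fun p : ℝ × unitInterval => ucdf p.1 p.2 :=
  continuous_ucdf.measurable

lemma measurable_ucdf' (q : ℝ) : Measurable (ucdf q) :=
  measurable_ucdf.comp (measurable_const.prodMk measurable_id)

lemma map_ucdf {q : ℝ} (h0 : 0 ≤ q) (h1 : q ≤ 1) : (chan q).map (ucdf q) = volume := by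
  have := isProb_chan h0 h1
  have : IsProbabilityMeasure ((chan q).map (ucdf q)) :=
    Measure.isProbabilityMeasure_map (measurable_ucdf' q).aemeasurable
  refine Measure.ext_of_Iic _ _ fun t => ?_
  have hc : ContinuousOn (mcdf q) (Icc 0 1) := by
    unfold mcdf; fun_prop
  have hs := intermediate_value_Icc zero_le_one hc
  have ht : (t : ℝ) ∈ Icc (mcdf q 0) (mcdf q 1) := by
    simp only [mcdf]
    constructor
    · simpa using t.2.1
    · simpa using t.2.2
  obtain ⟨s, hs1, hs2⟩ := hs ht
  rw [Measure.map_apply (measurable_ucdf' q) measurableSet_Iic]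
  have : ucdf q ⁻¹' Iic t = Iic ⟨s, hs1⟩ := by
    ext z
    simp only [mem_preimage, mem_Iic]
    rw [← mcdf_le_iff h0 h1 z, ← Subtype.coe_le_coe, coe_ucdf h0 h1]
    simp only
    rw [hs2]
  rw [this, chan_Iic h0 h1, unitInterval.volume_Iic]
  simp only
  rw [hs2]

lemma integral_stat {q : ℝ} (h0 : 0 ≤ q) (h1 : q ≤ 1) :
    ∫ z : unitInterval, stat z ∂(chan q) = 1 / 2 - eps * (2 * q - 1) / 4 := by
  set h : unitInterval := ⟨1 / 2, by norm_num, by norm_num⟩
  have e : (fun z : unitInterval => stat z) = (Iic h).indicator (fun _ => (1 : ℝ)) := by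
    funext z
    by_cases hz : z ≤ h
    · have hz' : (z : ℝ) ≤ 1 / 2 := hz
      rw [indicator_of_mem (show z ∈ Iic h from hz), stat, if_pos hz']
    · have hz' : ¬ (z : ℝ) ≤ 1 / 2 := hz
      rw [indicator_of_notMem (show z ∉ Iic h from hz), stat, if_neg hz']
  rw [e, integral_indicator_const _ measurableSet_Iic, chan_real h0 h1 measurableSet_Iic,
    integral_dens_Iic]
  simp only [mcdf, h, smul_eq_mul]
  ring

/-- product of measures with densities -/
lemma pi_chan {J : Type*} [Fintype J] (q : J → ℝ) (hq : ∀ j, 0 ≤ q j ∧ q j ≤ 1) :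
    Measure.pi (fun j => chan (q j)) =
      (Measure.pi fun _ : J => (volume : Measure unitInterval)).withDensity
        (fun y => ENNReal.ofReal (∏ j, dens (q j) (y j))) := by
  have : ∀ j, IsProbabilityMeasure (chan (q j)) := fun j => isProb_chan (hq j).1 (hq j).2
  refine Measure.pi_eq fun s hs => ?_
  have hcont : Continuous fun y : J → unitInterval => ∏ j, dens (q j) (y j) :=
    continuous_finsetProd _ fun j _ => (continuous_dens _).comp (continuous_apply j)
  have hint : Integrable (fun y : J → unitInterval => ∏ j, dens (q j) (y j))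
      (Measure.pi fun _ : J => (volume : Measure unitInterval)) :=
    hcont.integrable_of_hasCompactSupport (HasCompactSupport.of_compactSpace _)
  rw [withDensity_apply _ (MeasurableSet.univ_pi hs),
    ← ofReal_integral_eq_lintegral_ofReal hint.integrableOn
      (Filter.Eventually.of_forall fun y => Finset.prod_nonneg fun j _ =>
        (dens_pos (hq j).1 (hq j).2 _).le),
    ← integral_indicator (MeasurableSet.univ_pi hs)]
  have e : (Set.pi univ s).indicator (fun y : J → unitInterval => ∏ j, dens (q j) (y j)) =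
      fun y => ∏ j, (s j).indicator (dens (q j)) (y j) := by
    funext y
    by_cases hy : y ∈ Set.pi univ s
    · rw [indicator_of_mem hy]
      exact Finset.prod_congr rfl fun j _ => (indicator_of_mem (hy j (mem_univ j)) _).symm
    · rw [indicator_of_notMem hy]
      simp only [Set.mem_pi, mem_univ, forall_true_left, not_forall] at hy
      obtain ⟨j, hj⟩ := hy
      exact (Finset.prod_eq_zero (Finset.mem_univ j) (indicator_of_notMem hj _)).symm
  rw [e, integral_fintype_prod_eq_prod (fun j => (s j).indicator (dens (q j))),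
    ENNReal.ofReal_prod_of_nonneg]
  · refine Finset.prod_congr rfl fun j _ => ?_
    rw [integral_indicator (hs j), chan_apply (hq j).1 (hq j).2 (hs j)]
  · intro j _
    exact integral_nonneg fun z => indicator_nonneg (fun z _ => (dens_pos (hq j).1 (hq j).2 z).le) z

lemma integral_pi_chan {J : Type*} [Fintype J] (q : J → ℝ) (hq : ∀ j, 0 ≤ q j ∧ q j ≤ 1)
    (f : (J → unitInterval) → ℝ) :
    ∫ y, f y ∂(Measure.pi (fun j => chan (q j))) =
      ∫ y, (∏ j, dens (q j) (y j)) * f y
        ∂(Measure.pi fun _ : J => (volume : Measure unitInterval)) := by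
  rw [pi_chan q hq]
  have hcont : Continuous fun y : J → unitInterval => ∏ j, dens (q j) (y j) :=
    continuous_finsetProd _ fun j _ => (continuous_dens _).comp (continuous_apply j)
  rw [integral_withDensity_eq_integral_toReal_smul (hcont.measurable.ennreal_ofReal)
    (Filter.Eventually.of_forall fun _ => ENNReal.ofReal_lt_top)]
  congr 1
  funext y
  rw [ENNReal.toReal_ofReal (Finset.prod_nonneg fun j _ => (dens_pos (hq j).1 (hq j).2 _).le),
    smul_eq_mul]

/-- resampling a set of coordinates preserves a product law -/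
lemma map_piecewise_infinitePi {ι X : Type*} [MeasurableSpace X] (μ : ι → Measure X)
    [∀ i, IsProbabilityMeasure (μ i)] (p : ι → Prop) [DecidablePred p] :
    ((Measure.infinitePi μ).prod (Measure.infinitePi μ)).map
      (fun y : (ι → X) × (ι → X) => fun i => if p i then y.1 i else y.2 i) =
      Measure.infinitePi μ := by
  classical
  have hm : Measurable (fun y : (ι → X) × (ι → X) => fun i => if p i then y.1 i else y.2 i) := by
    refine measurable_pi_lambda _ fun i => ?_
    by_cases h : p i
    · simp only [h, if_true]; fun_prop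
    · simp only [h, if_false]; fun_prop
  refine Measure.eq_infinitePi μ fun s t ht => ?_
  rw [Measure.map_apply hm (MeasurableSet.pi s.countable_toSet fun i _ => ht i)]
  have e : (fun y : (ι → X) × (ι → X) => fun i => if p i then y.1 i else y.2 i) ⁻¹'
      ((s : Set ι).pi t) = (((s.filter p : Finset ι) : Set ι).pi t) ×ˢ
        (((s.filter fun i => ¬ p i : Finset ι) : Set ι).pi t) := by
    ext y
    simp only [mem_preimage, Set.mem_pi, Finset.mem_coe, mem_prod, Finset.mem_filter]
    constructor
    · intro h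
      refine ⟨fun i hi => ?_, fun i hi => ?_⟩
      · have := h i hi.1; rwa [if_pos hi.2] at this
      · have := h i hi.1; rwa [if_neg hi.2] at this
    · rintro ⟨h1, h2⟩ i hi
      by_cases h : p i
      · rw [if_pos h]; exact h1 i ⟨hi, h⟩
      · rw [if_neg h]; exact h2 i ⟨hi, h⟩
  rw [e, Measure.prod_prod, Measure.infinitePi_pi μ (fun i _ => ht i),
    Measure.infinitePi_pi μ (fun i _ => ht i), Finset.prod_filter_mul_prod_filter_not]

end Crest.Agent.H5
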