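import Mathlib
import Crest.Prelude.Def_StronglyRayleigh

/-!
Tilted means of strongly Rayleigh laws are Lipschitz in the tilting weights (sup norm).
-/

set_option autoImplicit false

namespace Crest.Agent.H5

open MeasureTheory Crest.ProbabilityR.StronglyRayleigh Metric

variable {ι : Type*}

/-- weight of the configuration `x` in the window `W`. -/
def wt {R : Type*} [CommMonoid R] (W : Finset ι) (z : ι → R) (x : ι → Bool) : R :=
  ∏ w ∈ W, if x w = true then z w else 1

/-- indicator of occupation at `v`. -/
noncomputable def ind (v : ι) (x : ι → Bool) : ℝ := if x v = true then 1 else 0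

/-- tilted probability that `v` is occupied. -/
noncomputable def qW (ν : Measure (ι → Bool)) (W : Finset ι) (v : ι) (lam : ι → ℝ) : ℝ :=
  (∫ x, ind v x * wt W lam x ∂ν) / ∫ x, wt W lam x ∂ν

lemma measurableSet_occ (v : ι) (b : Bool) : MeasurableSet {x : ι → Bool | x v = b} :=
  measurableSet_eq_fun (measurable_pi_apply v) measurable_const

lemma measurable_ind (v : ι) : Measurable (ind v) :=
  Measurable.ite (measurableSet_occ v true) measurable_const measurable_const

lemma ind_nonneg (v : ι) (x : ι → Bool) : 0 ≤ ind v x := by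
  unfold ind; split_ifs <;> norm_num

lemma ind_le_one (v : ι) (x : ι → Bool) : ind v x ≤ 1 := by
  unfold ind; split_ifs <;> norm_num

lemma measurable_wt_real (W : Finset ι) (z : ι → ℝ) : Measurable (wt W z) := by
  unfold wt
  exact Finset.measurable_prod _ fun w _ =>
    Measurable.ite (measurableSet_occ w true) measurable_const measurable_const

lemma measurable_wt_complex (W : Finset ι) (z : ι → ℂ) : Measurable (wt W z) := by
  unfold wt
  exact Finset.measurable_prod _ fun w _ =>
    Measurable.ite (measurableSet_occ w true) measurable_const measurable_const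

lemma norm_wt_le {𝕜 : Type*} [RCLike 𝕜] (W : Finset ι) (z : ι → 𝕜) (x : ι → Bool) :
    ‖wt W z x‖ ≤ ∏ w ∈ W, (‖z w‖ + 1) := by
  unfold wt
  rw [norm_prod]
  refine Finset.prod_le_prod (fun _ _ => norm_nonneg _) fun w _ => ?_
  split_ifs
  · linarith
  · simp

lemma integrable_wt_real (μ : Measure (ι → Bool)) [IsFiniteMeasure μ] (W : Finset ι) (z : ι → ℝ) :
    Integrable (wt W z) μ :=
  Integrable.of_bound (measurable_wt_real W z).aestronglyMeasurable _
    (Filter.Eventually.of_forall (norm_wt_le W z))

lemma integrable_wt_complex (μ : Measure (ι → Bool)) [IsFiniteMeasure μ] (W : Finset ι)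
    (z : ι → ℂ) : Integrable (wt W z) μ :=
  Integrable.of_bound (measurable_wt_complex W z).aestronglyMeasurable _
    (Filter.Eventually.of_forall (norm_wt_le W z))

lemma wt_pos (W : Finset ι) {z : ι → ℝ} (hz : ∀ w ∈ W, 0 < z w) (x : ι → Bool) :
    0 < wt W z x := by
  unfold wt
  refine Finset.prod_pos fun w hw => ?_
  split_ifs
  · exact hz w hw
  · norm_num

lemma wt_ofReal (W : Finset ι) (z : ι → ℝ) (x : ι → Bool) :
    wt W (fun w => (z w : ℂ)) x = ((wt W z x : ℝ) : ℂ) := by
  unfold wt
  push_cast
  refine Finset.prod_congr rfl fun w _ => ?_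
  split_ifs <;> simp

lemma wt_congr {R : Type*} [CommMonoid R] (W : Finset ι) {z z' : ι → R}
    (h : ∀ w ∈ W, z w = z' w) : wt W z = wt W z' := by
  funext x
  unfold wt
  refine Finset.prod_congr rfl fun w hw => ?_
  rw [h w hw]

lemma integral_wt_pos (μ : Measure (ι → Bool)) [IsProbabilityMeasure μ] (W : Finset ι)
    {z : ι → ℝ} (hz : ∀ w ∈ W, 0 < z w) : 0 < ∫ x, wt W z x ∂μ := by
  rw [integral_pos_iff_support_of_nonneg (fun x => (wt_pos W hz x).le) (integrable_wt_real μ W z)]
  have : Function.support (wt W z) = Set.univ := by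
    ext x; simp [(wt_pos W hz x).ne']
  rw [this]; simp

lemma measurableSet_cyl (W S : Finset ι) :
    MeasurableSet {ω : ι → Bool | ∀ i ∈ W, (ω i = true ↔ i ∈ S)} := by
  have : {ω : ι → Bool | ∀ i ∈ W, (ω i = true ↔ i ∈ S)} =
      ⋂ i ∈ W, {ω : ι → Bool | ω i = true ↔ i ∈ S} := by
    ext; simp
  rw [this]
  refine Finset.measurableSet_biInter _ fun i _ => ?_
  by_cases h : i ∈ S
  · simpa [h] using measurableSet_occ i true
  · simpa [h] using measurableSet_occ i false

lemma genPoly_eq_integral (μ : Measure (ι → Bool)) [IsFiniteMeasure μ] (W : Finset ι)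
    (z : ι → ℂ) : genPoly μ W z = ∫ x, wt W z x ∂μ := by
  classical
  have key : ∀ x, wt W z x = ∑ S ∈ W.powerset,
      ({ω : ι → Bool | ∀ i ∈ W, (ω i = true ↔ i ∈ S)}).indicator (fun _ => ∏ i ∈ S, z i) x := by
    intro x
    rw [Finset.sum_eq_single (W.filter fun i => x i = true)]
    · rw [Set.indicator_of_mem]
      · unfold wt
        rw [Finset.prod_filter]
      · intro i hi
        simp [hi]
    · intro S hS hne
      apply Set.indicator_of_notMem
      intro h
      apply hne
      ext i
      rw [Finset.mem_filter]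
      constructor
      · intro hi
        have hiW := Finset.mem_powerset.1 hS hi
        exact ⟨hiW, (h i hiW).2 hi⟩
      · rintro ⟨hiW, hx⟩
        exact (h i hiW).1 hx
    · intro h
      exact absurd (Finset.mem_powerset.2 (Finset.filter_subset _ _)) h
  simp_rw [key]
  rw [integral_finsetSum]
  · unfold genPoly
    refine Finset.sum_congr rfl fun S _ => ?_
    rw [integral_indicator_const _ (measurableSet_cyl W S)]
    simp [Measure.real]
  · intro S _
    exact (integrable_const _).indicator (measurableSet_cyl W S)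

lemma genPoly_ofReal (μ : Measure (ι → Bool)) [IsFiniteMeasure μ] (W : Finset ι)
    (z : ι → ℝ) : genPoly μ W (fun w => (z w : ℂ)) = ((∫ x, wt W z x ∂μ : ℝ) : ℂ) := by
  rw [genPoly_eq_integral]
  simp_rw [wt_ofReal]
  exact integral_ofReal

lemma genPoly_conj (μ : Measure (ι → Bool)) (W : Finset ι) (z : ι → ℂ) :
    genPoly μ W (fun w => (starRingEnd ℂ) (z w)) = (starRingEnd ℂ) (genPoly μ W z) := by
  unfold genPoly
  simp [map_sum, map_prod]

lemma genPoly_congr (μ : Measure (ι → Bool)) (W : Finset ι) {z z' : ι → ℂ}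
    (h : ∀ w ∈ W, z w = z' w) : genPoly μ W z = genPoly μ W z' := by
  unfold genPoly
  refine Finset.sum_congr rfl fun S hS => ?_
  congr 1
  exact Finset.prod_congr rfl fun i hi => h i (Finset.mem_powerset.1 hS hi)

lemma differentiable_genPoly (μ : Measure (ι → Bool)) (W : Finset ι) (z : ι → ℂ → ℂ)
    (hz : ∀ w, Differentiable ℂ (z w)) :
    Differentiable ℂ (fun t => genPoly μ W (fun w => z w t)) := by
  unfold genPoly
  refine Differentiable.fun_sum fun S _ => ?_
  refine Differentiable.const_mul ?_ _
  exact Differentiable.fun_finsetProd fun i _ => hz i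

lemma genPoly_split (ν : Measure (ι → Bool)) [IsFiniteMeasure ν] (W : Finset ι) (v : ι)
    (z : ι → ℂ) : genPoly ν W z =
      genPoly (ν.restrict {x | x v = false}) W z + genPoly (ν.restrict {x | x v = true}) W z := by
  simp only [genPoly_eq_integral]
  rw [← integral_add_compl (measurableSet_occ v false) (integrable_wt_complex ν W z)]
  congr 3
  ext x; simp

lemma wt_insert {R : Type*} [CommMonoid R] [DecidableEq ι] (W : Finset ι) {v : ι} (hv : v ∉ W)
    (z : ι → R) (x : ι → Bool) :
    wt (insert v W) z x = (if x v = true then z v else 1) * wt W z x := by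
  unfold wt
  rw [Finset.prod_insert hv]

lemma genPoly_insert [DecidableEq ι] (ν : Measure (ι → Bool)) [IsFiniteMeasure ν] (W : Finset ι)
    {v : ι} (hv : v ∉ W) (z : ι → ℂ) : genPoly ν (insert v W) z =
      genPoly (ν.restrict {x | x v = false}) W z +
        z v * genPoly (ν.restrict {x | x v = true}) W z := by
  rw [genPoly_split ν _ v]
  simp only [genPoly_eq_integral]
  congr 1
  · refine setIntegral_congr_fun (measurableSet_occ v false) fun x hx => ?_
    have hx' : x v = false := hx
    simp [wt_insert W hv, hx']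
  · rw [← integral_const_mul]
    refine setIntegral_congr_fun (measurableSet_occ v true) fun x hx => ?_
    have hx' : x v = true := hx
    simp [wt_insert W hv, hx']

/-- Borel–Carathéodory consequence: a holomorphic function on the unit disc preserving the
half planes and nonnegative on the real diameter varies by bounded ratios. -/
lemma bc_ratio (g : ℂ → ℂ) (hg : DifferentiableOn ℂ g (ball 0 1))
    (hup : ∀ t ∈ ball (0 : ℂ) 1, 0 < t.im → 0 ≤ (g t).im)
    (hdn : ∀ t ∈ ball (0 : ℂ) 1, t.im < 0 → (g t).im ≤ 0)
    (hre : ∀ t ∈ ball (0 : ℂ) 1, t.im = 0 → (g t).im = 0 ∧ 0 ≤ (g t).re)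
    (s : ℝ) (hs : |s| ≤ 1 / 2) :
    (g s).re ≤ Real.exp (4 * Real.pi * |s|) * (g 0).re ∧
      (g 0).re ≤ Real.exp (4 * Real.pi * |s|) * (g s).re := by
  have hsb : (s : ℂ) ∈ ball (0 : ℂ) 1 := by
    simp only [mem_ball, dist_zero_right, Complex.norm_real, Real.norm_eq_abs]; linarith
  have h0b : (0 : ℂ) ∈ ball (0 : ℂ) 1 := by simp
  have hs1 : -1 < s := by linarith [neg_abs_le s]
  have main : ∀ η : ℝ, 0 < η →
      |Real.log ((g s).re + η * (1 + s)) - Real.log ((g 0).re + η)| ≤ 4 * Real.pi * |s| := by
    intro η hη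
    set h : ℂ → ℂ := fun t => g t + η * (1 + t) with hh
    have hslit : ∀ t ∈ ball (0 : ℂ) 1, h t ∈ Complex.slitPlane := by
      intro t ht
      rw [Complex.mem_slitPlane_iff]
      have him : (h t).im = (g t).im + η * t.im := by simp [hh]
      have hr : (h t).re = (g t).re + η * (1 + t.re) := by simp [hh]
      rcases lt_trichotomy t.im 0 with h1 | h1 | h1
      · right
        have := hdn t ht h1
        have : η * t.im < 0 := mul_neg_of_pos_of_neg hη h1
        rw [him]; linarith
      · left
        have := (hre t ht h1).2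
        have h2 : -1 < t.re := by
          have := Complex.abs_re_le_norm t
          have h3 : ‖t‖ < 1 := by simpa using ht
          linarith [neg_abs_le t.re]
        have : 0 < η * (1 + t.re) := mul_pos hη (by linarith)
        rw [hr]; linarith
      · right
        have := hup t ht h1
        have : 0 < η * t.im := mul_pos hη h1
        rw [him]; linarith
    have hhd : DifferentiableOn ℂ h (ball 0 1) := by
      apply hg.add
      fun_prop
    have hreal : ∀ r : ℝ, (r : ℂ) ∈ ball (0 : ℂ) 1 → -1 < r →
        Complex.log (h r) = ((Real.log ((g r).re + η * (1 + r)) : ℝ) : ℂ) := by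
      intro r hr hr1
      have h1 := hre r hr (by simp)
      have h2 : h r = (((g r).re + η * (1 + r) : ℝ) : ℂ) := by
        apply Complex.ext
        · simp [hh]
        · simp [hh, h1.1]
      rw [h2, Complex.ofReal_log]
      have : 0 < η * (1 + r) := mul_pos hη (by linarith)
      linarith [h1.2]
    set f : ℂ → ℂ := fun t => -Complex.I * (Complex.log (h t) - Complex.log (h 0)) with hf
    have hfd : DifferentiableOn ℂ f (ball 0 1) := by
      apply DifferentiableOn.const_mul
      apply DifferentiableOn.sub_const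
      exact hhd.clog hslit
    have h0 := hreal 0 (by simp) (by norm_num)
    have hmaps : Set.MapsTo f (ball 0 1) {z | z.re ≤ Real.pi} := by
      intro t _
      have : (f t).re = (Complex.log (h t)).im := by
        simp only [hf]
        have h0' : Complex.log (h 0) = ((Real.log ((g 0).re + η * (1 + 0)) : ℝ) : ℂ) := by
          simpa using h0
        rw [h0']
        simp
      show (f t).re ≤ Real.pi
      rw [this, Complex.log_im]
      exact Complex.arg_le_pi _
    have hbc := Complex.borelCaratheodory_zero Real.pi_pos hfd hmaps one_pos hsb (by simp [hf])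
    have hn : ‖f s‖ = |Real.log ((g s).re + η * (1 + s)) - Real.log ((g 0).re + η)| := by
      simp only [hf]
      have h0' : Complex.log (h 0) = ((Real.log ((g 0).re + η) : ℝ) : ℂ) := by
        simpa using h0
      rw [hreal s hsb hs1, h0', ← Complex.ofReal_sub]
      simp [-Complex.ofReal_sub]
    rw [← hn]
    refine hbc.trans ?_
    simp only [Complex.norm_real, Real.norm_eq_abs]
    rw [div_le_iff₀ (by linarith)]
    have := Real.pi_pos
    have := abs_nonneg s
    nlinarith [mul_nonneg this Real.pi_pos.le]
  have hg0 := (hre 0 h0b (by simp)).2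
  have hgs := (hre s hsb (by simp)).2
  set K := Real.exp (4 * Real.pi * |s|) with hK
  have hKpos : 0 < K := Real.exp_pos _
  constructor
  · refine le_of_forall_pos_le_add fun ε hε => ?_
    have hη : 0 < ε / K := div_pos hε hKpos
    have h1 := (abs_le.1 (main (ε / K) hη)).2
    have hp1 : 0 < (g s).re + ε / K * (1 + s) := by
      have : 0 < ε / K * (1 + s) := mul_pos hη (by linarith)
      linarith
    have hp2 : 0 < (g 0).re + ε / K := by linarith
    have h2 : (g s).re + ε / K * (1 + s) ≤ K * ((g 0).re + ε / K) := by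
      rw [← Real.log_le_log_iff hp1 (mul_pos hKpos hp2), Real.log_mul hKpos.ne' hp2.ne', hK,
        Real.log_exp]
      linarith
    have h3 : K * (ε / K) = ε := by field_simp
    have : 0 < ε / K * (1 + s) := mul_pos hη (by linarith)
    nlinarith
  · refine le_of_forall_pos_le_add fun ε hε => ?_
    have hη : 0 < ε / (2 * K) := div_pos hε (by linarith)
    have h1 := (abs_le.1 (main (ε / (2 * K)) hη)).1
    have hp1 : 0 < (g s).re + ε / (2 * K) * (1 + s) := by
      have : 0 < ε / (2 * K) * (1 + s) := mul_pos hη (by linarith)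
      linarith
    have hp2 : 0 < (g 0).re + ε / (2 * K) := by linarith
    have h2 : (g 0).re + ε / (2 * K) ≤ K * ((g s).re + ε / (2 * K) * (1 + s)) := by
      rw [← Real.log_le_log_iff hp2 (mul_pos hKpos hp1), Real.log_mul hKpos.ne' hp1.ne', hK,
        Real.log_exp]
      linarith
    have h3 : K * (ε / (2 * K) * (1 + s)) = ε * (1 + s) / 2 := by field_simp
    have h4 : ε * (1 + s) / 2 ≤ ε := by
      have : s ≤ 1 / 2 := (le_abs_self s).trans hs
      nlinarith
    nlinarith

lemma sr_im [DecidableEq ι] {ν : Measure (ι → Bool)} [IsFiniteMeasure ν]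
    (hν : IsStronglyRayleigh ν) (W : Finset ι) {v : ι} (hv : v ∉ W) (z : ι → ℂ)
    (hz : ∀ w ∈ W, 0 < (z w).im) :
    (genPoly (ν.restrict {x | x v = true}) W z / genPoly ν W z).im ≤ 0 := by
  set A := genPoly (ν.restrict {x | x v = false}) W z with hA
  set B := genPoly (ν.restrict {x | x v = true}) W z with hB
  have hP : genPoly ν W z = A + B := genPoly_split ν W v z
  have hP0 : A + B ≠ 0 := hP ▸ hν W z hz
  rw [hP]
  by_cases hB0 : B = 0
  · simp [hB0]
  have h1 : 0 ≤ (A / B).im := by
    by_contra hneg
    push Not at hneg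
    have hne := hν (insert v W) (Function.update z v (-(A / B))) (by
      intro i hi
      rcases Finset.mem_insert.1 hi with rfl | hi
      · simp only [Function.update_self, Complex.neg_im]; linarith
      · have : i ≠ v := fun h => hv (h ▸ hi)
        rw [Function.update_of_ne this]; exact hz i hi)
    apply hne
    rw [genPoly_insert ν W hv]
    have hc : ∀ w ∈ W, Function.update z v (-(A / B)) w = z w := fun w hw =>
      Function.update_of_ne (fun h : w = v => hv (h ▸ hw)) _ _
    rw [genPoly_congr _ W hc, genPoly_congr _ W hc, ← hA, ← hB, Function.update_self]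
    field_simp
    ring
  have h2 : B / (A + B) = (A / B + 1)⁻¹ := by
    field_simp
  rw [h2, Complex.inv_im]
  have : (A / B + 1).im = (A / B).im := by simp
  rw [this]
  exact div_nonpos_of_nonpos_of_nonneg (by linarith) (Complex.normSq_nonneg _)

/-- conditional (tilted) mass of the event `x v = b`. -/
noncomputable def frac (ν : Measure (ι → Bool)) (W : Finset ι) (v : ι) (b : Bool)
    (lam : ι → ℝ) : ℝ :=
  (∫ x in {x | x v = b}, wt W lam x ∂ν) / ∫ x, wt W lam x ∂ν

lemma frac_nonneg (ν : Measure (ι → Bool)) (W : Finset ι) (v : ι) (b : Bool)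
    {lam : ι → ℝ} (h : ∀ w ∈ W, 0 < lam w) : 0 ≤ frac ν W v b lam :=
  div_nonneg (integral_nonneg fun x => (wt_pos W h x).le)
    (integral_nonneg fun x => (wt_pos W h x).le)

lemma frac_ratio [DecidableEq ι] {ν : Measure (ι → Bool)} [IsProbabilityMeasure ν]
    (hν : IsStronglyRayleigh ν) (W : Finset ι) {v : ι} (hv : v ∉ W) (b : Bool)
    (m u : ι → ℝ) (hm : ∀ w ∈ W, 0 < m w) (hu : ∀ w ∈ W, 0 < u w ∧ u w ≤ 1)
    (s : ℝ) (hs0 : 0 ≤ s) (hs : s ≤ 1 / 2) :
    frac ν W v b (fun w => m w * (1 + u w * s)) ≤ Real.exp (4 * Real.pi * s) * frac ν W v b m ∧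
      frac ν W v b m ≤
        Real.exp (4 * Real.pi * s) * frac ν W v b (fun w => m w * (1 + u w * s)) := by
  set z : ι → ℂ → ℂ := fun w t => (m w : ℂ) * (1 + (u w : ℂ) * t) with hz
  have hzd : ∀ w, Differentiable ℂ (z w) := fun w => by
    simp only [hz]; fun_prop
  set G : Bool → ℂ → ℂ := fun c t =>
    genPoly (ν.restrict {x | x v = c}) W (fun w => z w t) / genPoly ν W (fun w => z w t) with hG
  have hzim : ∀ t : ℂ, 0 < t.im → ∀ w ∈ W, 0 < (z w t).im := by
    intro t ht w hw
    have : (z w t).im = m w * (u w * t.im) := by simp [hz]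
    rw [this]
    exact mul_pos (hm w hw) (mul_pos (hu w hw).1 ht)
  have hconj : ∀ (μ : Measure (ι → Bool)) (t : ℂ), genPoly μ W (fun w => z w ((starRingEnd ℂ) t)) =
      (starRingEnd ℂ) (genPoly μ W (fun w => z w t)) := by
    intro μ t
    rw [← genPoly_conj]
    congr 1
    funext w
    simp [hz]
  have hrealpos : ∀ r : ℝ, |r| < 1 → ∀ w ∈ W, 0 < m w * (1 + u w * r) := by
    intro r hr w hw
    refine mul_pos (hm w hw) ?_
    have h1 := hu w hw
    have h2 : -1 < r := by linarith [neg_abs_le r]
    nlinarith [h1.1, h1.2]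
  have hreal : ∀ (c : Bool) (r : ℝ), G c r = ((frac ν W v c (fun w => m w * (1 + u w * r)) : ℝ) : ℂ) := by
    intro c r
    have : (fun w => z w r) = fun w => ((m w * (1 + u w * r) : ℝ) : ℂ) := by
      funext w; simp [hz]
    simp only [hG, this, genPoly_ofReal, frac]
    push_cast
    rfl
  have hPne : ∀ t ∈ ball (0 : ℂ) 1, genPoly ν W (fun w => z w t) ≠ 0 := by
    intro t ht
    rcases lt_trichotomy t.im 0 with h1 | h1 | h1
    · have h2 := hν W _ (hzim ((starRingEnd ℂ) t) (by simpa using h1))
      rw [hconj] at h2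
      simpa using h2
    · have ht' : t = (t.re : ℂ) := by
        apply Complex.ext <;> simp [h1]
      have hr : |t.re| < 1 := by
        have := Complex.abs_re_le_norm t
        have h3 : ‖t‖ < 1 := by simpa using ht
        linarith
      have : (fun w => z w t) = fun w => ((m w * (1 + u w * t.re) : ℝ) : ℂ) := by
        funext w; rw [ht']; simp [hz]
      rw [this, genPoly_ofReal]
      exact_mod_cast (integral_wt_pos ν W (hrealpos _ hr)).ne'
    · exact hν W _ (hzim t h1)
  have hGd : ∀ c, DifferentiableOn ℂ (G c) (ball 0 1) := fun c =>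
    (differentiable_genPoly _ W z hzd).differentiableOn.div
      (differentiable_genPoly _ W z hzd).differentiableOn hPne
  have hGre : ∀ c, ∀ t ∈ ball (0 : ℂ) 1, t.im = 0 → (G c t).im = 0 ∧ 0 ≤ (G c t).re := by
    intro c t ht h1
    have ht' : t = (t.re : ℂ) := by
      apply Complex.ext <;> simp [h1]
    have hr : |t.re| < 1 := by
      have := Complex.abs_re_le_norm t
      have h3 : ‖t‖ < 1 := by simpa using ht
      linarith
    rw [ht', hreal]
    simp only [Complex.ofReal_im, Complex.ofReal_re, true_and]
    exact frac_nonneg ν W v c (hrealpos _ hr)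
  have hGconj : ∀ c t, G c ((starRingEnd ℂ) t) = (starRingEnd ℂ) (G c t) := by
    intro c t
    simp only [hG, hconj, map_div₀]
  have hT : ∀ t : ℂ, 0 < t.im → (G true t).im ≤ 0 := fun t ht =>
    sr_im hν W hv _ (hzim t ht)
  have hT' : ∀ t : ℂ, t.im < 0 → 0 ≤ (G true t).im := by
    intro t ht
    have := hT ((starRingEnd ℂ) t) (by simpa using ht)
    rw [hGconj] at this
    simpa using this
  have hF : ∀ t ∈ ball (0 : ℂ) 1, (G false t).im = -(G true t).im := by
    intro t ht
    have h1 : G false t = 1 - G true t := by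
      simp only [hG]
      have h2 := hPne t ht
      have h3 := genPoly_split ν W v (fun w => z w t)
      field_simp
      rw [h3]; ring
    rw [h1]; simp
  have habs : |s| = s := abs_of_nonneg hs0
  have h0 : frac ν W v b (fun w => m w * (1 + u w * (0 : ℝ))) = frac ν W v b m := by simp
  cases b with
  | false =>
    have := bc_ratio (G false) (hGd false)
      (fun t ht h => by rw [hF t ht]; linarith [hT t h])
      (fun t ht h => by rw [hF t ht]; linarith [hT' t h]) (hGre false) s (by rw [habs]; exact hs)
    have e0 : G false 0 = ((frac ν W v false m : ℝ) : ℂ) := by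
      rw [← h0, ← hreal]; simp
    rw [hreal, e0, habs] at this
    simpa using this
  | true =>
    have hneg : ∀ t ∈ ball (0 : ℂ) 1, -t ∈ ball (0 : ℂ) 1 := by
      intro t ht; simpa using ht
    have := bc_ratio (fun t => G true (-t))
      ((hGd true).comp (differentiable_neg.differentiableOn) hneg)
      (fun t _ h => hT' (-t) (by simpa using h))
      (fun t _ h => hT (-t) (by simpa using h))
      (fun t ht h => hGre true (-t) (hneg t ht) (by simpa using h)) (-s)
      (by rw [abs_neg, habs]; exact hs)
    have e0 : G true 0 = ((frac ν W v true m : ℝ) : ℂ) := by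
      rw [← h0, ← hreal]; simp
    simp only [Complex.ofReal_neg, neg_neg, neg_zero, abs_neg] at this
    rw [hreal, e0, habs] at this
    simpa using this

lemma frac_congr (ν : Measure (ι → Bool)) (W : Finset ι) (v : ι) (b : Bool)
    {lam lam' : ι → ℝ} (h : ∀ w ∈ W, lam w = lam' w) : frac ν W v b lam = frac ν W v b lam' := by
  unfold frac
  rw [wt_congr W h]

lemma frac_le [DecidableEq ι] {ν : Measure (ι → Bool)} [IsProbabilityMeasure ν]
    (hν : IsStronglyRayleigh ν) (W : Finset ι) {v : ι} (hv : v ∉ W) (b : Bool)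
    (lam lam' : ι → ℝ) (hl : ∀ w ∈ W, 0 < lam w) (δ : ℝ) (hδ0 : 0 < δ) (hδ : δ ≤ 1 / 8)
    (h : ∀ w ∈ W, |lam' w - lam w| ≤ δ * lam w) :
    frac ν W v b lam ≤ Real.exp (32 * Real.pi * δ) * frac ν W v b lam' ∧
    frac ν W v b lam' ≤ Real.exp (32 * Real.pi * δ) * frac ν W v b lam := by
  set m : ι → ℝ := fun w => lam w * (1 - 2 * δ) with hm
  set s : ℝ := 4 * δ with hs
  have h12 : 0 < 1 - 2 * δ := by linarith
  have hmpos : ∀ w ∈ W, 0 < m w := fun w hw => mul_pos (hl w hw) h12
  have key : ∀ l : ι → ℝ, (∀ w ∈ W, |l w - lam w| ≤ δ * lam w) →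
      frac ν W v b l ≤ Real.exp (4 * Real.pi * s) * frac ν W v b m ∧
      frac ν W v b m ≤ Real.exp (4 * Real.pi * s) * frac ν W v b l := by
    intro l hlw
    have hr := frac_ratio hν W hv b m (fun w => (l w / m w - 1) / s) hmpos (by
      intro w hw
      have h1 := abs_le.1 (hlw w hw)
      have h2 := hl w hw
      have h3 := hmpos w hw
      have hs0 : 0 < s := by rw [hs]; linarith
      constructor
      · apply div_pos _ hs0
        rw [sub_pos, lt_div_iff₀ h3, hm]
        simp only
        nlinarith [h1.1]
      · rw [div_le_one hs0, sub_le_iff_le_add, div_le_iff₀ h3, hm, hs]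
        simp only
        have : 0 ≤ δ * lam w * (1 - 8 * δ) := mul_nonneg (mul_pos hδ0 h2).le (by linarith)
        nlinarith [h1.2]) s (by rw [hs]; linarith) (by rw [hs]; linarith)
    have e : frac ν W v b (fun w => m w * (1 + (l w / m w - 1) / s * s)) = frac ν W v b l := by
      apply frac_congr
      intro w hw
      have h3 := (hmpos w hw).ne'
      have hs0 : s ≠ 0 := by rw [hs]; linarith
      field_simp
      ring
    rw [e] at hr
    exact hr
  have k1 := key lam (fun w hw => by simp; exact (mul_pos hδ0 (hl w hw)).le)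
  have k2 := key lam' h
  have hK : Real.exp (32 * Real.pi * δ) = Real.exp (4 * Real.pi * s) * Real.exp (4 * Real.pi * s) := by
    rw [← Real.exp_add, hs]; congr 1; ring
  have hp := Real.exp_pos (4 * Real.pi * s)
  rw [hK]
  constructor
  · calc frac ν W v b lam ≤ Real.exp (4 * Real.pi * s) * frac ν W v b m := k1.1
      _ ≤ Real.exp (4 * Real.pi * s) * (Real.exp (4 * Real.pi * s) * frac ν W v b lam') :=
          mul_le_mul_of_nonneg_left k2.2 hp.le
      _ = _ := by ring
  · calc frac ν W v b lam' ≤ Real.exp (4 * Real.pi * s) * frac ν W v b m := k2.1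
      _ ≤ Real.exp (4 * Real.pi * s) * (Real.exp (4 * Real.pi * s) * frac ν W v b lam) :=
          mul_le_mul_of_nonneg_left k1.2 hp.le
      _ = _ := by ring

lemma integral_ind_mul (ν : Measure (ι → Bool)) (v : ι) (f : (ι → Bool) → ℝ) :
    ∫ x, ind v x * f x ∂ν = ∫ x in {x | x v = true}, f x ∂ν := by
  rw [← integral_indicator (measurableSet_occ v true)]
  congr 1
  funext x
  by_cases h : x v = true
  · simp [ind, h, Set.indicator]
  · simp [ind, h, Set.indicator]

lemma integral_split (ν : Measure (ι → Bool)) (v : ι) (f : (ι → Bool) → ℝ)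
    (hf : Integrable f ν) :
    ∫ x, f x ∂ν = (∫ x in {x | x v = false}, f x ∂ν) + ∫ x in {x | x v = true}, f x ∂ν := by
  rw [← integral_add_compl (measurableSet_occ v false) hf]
  congr 3
  ext x; simp

lemma frac_add (ν : Measure (ι → Bool)) [IsProbabilityMeasure ν] (W : Finset ι) (v : ι)
    {lam : ι → ℝ} (h : ∀ w ∈ W, 0 < lam w) :
    frac ν W v false lam + frac ν W v true lam = 1 := by
  unfold frac
  rw [← add_div, ← integral_split ν v _ (integrable_wt_real ν W lam)]
  exact div_self (integral_wt_pos ν W h).ne'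

lemma qW_eq_frac [DecidableEq ι] (ν : Measure (ι → Bool)) [IsProbabilityMeasure ν]
    (W : Finset ι) (v : ι) {lam : ι → ℝ} (h : ∀ w ∈ W, 0 < lam w) :
    qW ν W v lam = (if v ∈ W then lam v else 1) * frac ν (W.erase v) v true lam /
      (frac ν (W.erase v) v false lam +
        (if v ∈ W then lam v else 1) * frac ν (W.erase v) v true lam) := by
  have hpos := integral_wt_pos ν (W.erase v) (fun w hw => h w (Finset.mem_of_mem_erase hw))
  have e : ∀ x, wt W lam x =
      (if x v = true then (if v ∈ W then lam v else 1) else 1) * wt (W.erase v) lam x := by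
    intro x
    by_cases hv : v ∈ W
    · conv_lhs => rw [← Finset.insert_erase hv]
      rw [wt_insert _ (Finset.notMem_erase v W)]
      simp [hv]
    · simp [hv]
  set c := (if v ∈ W then lam v else 1) with hc
  have e1 : ∫ x in {x | x v = true}, wt W lam x ∂ν =
      c * ∫ x in {x | x v = true}, wt (W.erase v) lam x ∂ν := by
    rw [← integral_const_mul]
    refine setIntegral_congr_fun (measurableSet_occ v true) fun x hx => ?_
    have hx' : x v = true := hx
    simp [e x, hx']
  have e0 : ∫ x in {x | x v = false}, wt W lam x ∂ν =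
      ∫ x in {x | x v = false}, wt (W.erase v) lam x ∂ν := by
    refine setIntegral_congr_fun (measurableSet_occ v false) fun x hx => ?_
    have hx' : x v = false := hx
    simp [e x, hx']
  unfold qW frac
  rw [integral_ind_mul, integral_split ν v _ (integrable_wt_real ν W lam), e0, e1]
  field_simp

lemma qW_nonneg (ν : Measure (ι → Bool)) (W : Finset ι) (v : ι)
    {lam : ι → ℝ} (h : ∀ w ∈ W, 0 < lam w) : 0 ≤ qW ν W v lam :=
  div_nonneg (integral_nonneg fun x => mul_nonneg (ind_nonneg v x) (wt_pos W h x).le)
    (integral_nonneg fun x => (wt_pos W h x).le)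

lemma integrable_ind_mul_wt (ν : Measure (ι → Bool)) [IsFiniteMeasure ν] (W : Finset ι) (v : ι)
    (lam : ι → ℝ) : Integrable (fun x => ind v x * wt W lam x) ν :=
  (integrable_wt_real ν W lam).bdd_mul (c := 1) (measurable_ind v).aestronglyMeasurable
    (Filter.Eventually.of_forall fun x => by
      rw [Real.norm_eq_abs, abs_of_nonneg (ind_nonneg v x)]; exact ind_le_one v x)

lemma qW_le_one (ν : Measure (ι → Bool)) [IsFiniteMeasure ν] (W : Finset ι) (v : ι)
    {lam : ι → ℝ} (h : ∀ w ∈ W, 0 < lam w) : qW ν W v lam ≤ 1 := by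
  refine div_le_one_of_le₀ ?_ (integral_nonneg fun x => (wt_pos W h x).le)
  refine integral_mono (integrable_ind_mul_wt ν W v lam) (integrable_wt_real ν W lam) fun x => ?_
  have := ind_le_one v x
  have := wt_pos W h x
  simp only
  nlinarith

/-- The sup-norm Lipschitz property of tilted means. -/
theorem qW_lip {ν : Measure (ι → Bool)} [IsProbabilityMeasure ν]
    (hν : IsStronglyRayleigh ν) (W : Finset ι) (v : ι) (lam lam' : ι → ℝ)
    (hl : ∀ w, 0 < lam w) (hl' : ∀ w, 0 < lam' w) (hv : lam v = lam' v) (δ : ℝ) (hδ0 : 0 ≤ δ)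
    (h : ∀ w, |lam' w - lam w| ≤ δ * lam w) :
    |qW ν W v lam - qW ν W v lam'| ≤ 512 * δ := by
  classical
  rcases hδ0.eq_or_lt with rfl | hδ0
  · have : lam = lam' := by
      funext w
      have := h w
      simp only [zero_mul, abs_nonpos_iff] at this
      linarith
    simp [this]
  by_cases hδ : 1 / 256 ≤ δ
  · have h1 := qW_nonneg ν W v (fun w _ => hl w)
    have h2 := qW_nonneg ν W v (fun w _ => hl' w)
    have h3 := qW_le_one ν W v (fun w _ => hl w)
    have h4 := qW_le_one ν W v (fun w _ => hl' w)
    rw [abs_le]; constructor <;> linarith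
  push Not at hδ
  rw [qW_eq_frac ν W v (fun w _ => hl w), qW_eq_frac ν W v (fun w _ => hl' w), ← hv]
  set c := (if v ∈ W then lam v else 1) with hc
  have hcpos : 0 < c := by
    rw [hc]; split_ifs
    · exact hl v
    · norm_num
  have hv' := Finset.notMem_erase v W
  have f0 := frac_le hν (W.erase v) hv' false lam lam' (fun w _ => hl w) δ hδ0 (by linarith)
    (fun w _ => h w)
  have f1 := frac_le hν (W.erase v) hv' true lam lam' (fun w _ => hl w) δ hδ0 (by linarith)
    (fun w _ => h w)
  have s1 := frac_add ν (W.erase v) v (lam := lam) (fun w _ => hl w)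
  have s2 := frac_add ν (W.erase v) v (lam := lam') (fun w _ => hl' w)
  have n1 := frac_nonneg ν (W.erase v) v false (lam := lam) (fun w _ => hl w)
  have n2 := frac_nonneg ν (W.erase v) v true (lam := lam) (fun w _ => hl w)
  have n3 := frac_nonneg ν (W.erase v) v false (lam := lam') (fun w _ => hl' w)
  have n4 := frac_nonneg ν (W.erase v) v true (lam := lam') (fun w _ => hl' w)
  set a := frac ν (W.erase v) v false lam
  set b := frac ν (W.erase v) v true lam
  set a' := frac ν (W.erase v) v false lam'
  set b' := frac ν (W.erase v) v true lam'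
  set K := Real.exp (32 * Real.pi * δ) with hK
  have hK2 : K * K - 1 ≤ 512 * δ := by
    rw [hK, ← Real.exp_add]
    have hpi := Real.pi_lt_d2
    have hpi0 := Real.pi_pos
    have hx : |32 * Real.pi * δ + 32 * Real.pi * δ| ≤ 1 := by
      rw [abs_of_nonneg (by positivity)]
      nlinarith
    have := Real.abs_exp_sub_one_le hx
    rw [abs_of_nonneg (a := 32 * Real.pi * δ + 32 * Real.pi * δ) (by positivity)] at this
    have h5 := le_abs_self (Real.exp (32 * Real.pi * δ + 32 * Real.pi * δ) - 1)
    nlinarith
  have hK1 : 1 ≤ K := Real.one_le_exp (by positivity)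
  have aux : ∀ a b a' b' : ℝ, 0 ≤ a → 0 ≤ b → 0 ≤ a' → 0 ≤ b' → a + b = 1 → a' + b' = 1 →
      b ≤ K * b' → a' ≤ K * a →
      c * b / (a + c * b) - c * b' / (a' + c * b') ≤ 512 * δ := by
    intro a b a' b' ha hb ha' hb' hs hs' h1 h2
    have d1 : 0 < a + c * b := by
      rcases ha.eq_or_lt with h0 | h0
      · have : b = 1 := by linarith
        rw [← h0, this]; simpa using hcpos
      · positivity
    have d2 : 0 < a' + c * b' := by
      rcases ha'.eq_or_lt with h0 | h0
      · have : b' = 1 := by linarith
        rw [← h0, this]; simpa using hcpos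
      · positivity
    rw [div_sub_div _ _ d1.ne' d2.ne', div_le_iff₀ (mul_pos d1 d2)]
    have h3 : b * a' ≤ K * K * (b' * a) := by
      calc b * a' ≤ (K * b') * (K * a) := mul_le_mul h1 h2 ha' (by positivity)
        _ = _ := by ring
    have h4 : c * (b' * a) ≤ (a + c * b) * (a' + c * b') := by
      have : (a + c * b) * (a' + c * b') = c * (b' * a) + (a * a' + c * b * a' + c * b * (c * b')) := by
        ring
      rw [this]
      have : 0 ≤ a * a' + c * b * a' + c * b * (c * b') := by positivity
      linarith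
    have h5 : 0 ≤ K * K - 1 := by nlinarith
    calc c * b * (a' + c * b') - (a + c * b) * (c * b') = c * (b * a' - b' * a) := by ring
      _ ≤ c * ((K * K - 1) * (b' * a)) := by
          apply mul_le_mul_of_nonneg_left _ hcpos.le
          linarith
      _ = (K * K - 1) * (c * (b' * a)) := by ring
      _ ≤ (K * K - 1) * ((a + c * b) * (a' + c * b')) := mul_le_mul_of_nonneg_left h4 h5
      _ ≤ 512 * δ * ((a + c * b) * (a' + c * b')) :=
          mul_le_mul_of_nonneg_right hK2 (mul_pos d1 d2).le
  rw [abs_le]
  constructor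
  · have := aux a' b' a b n3 n4 n1 n2 s2 s1 f1.2 f0.1
    linarith
  · exact aux a b a' b' n1 n2 n3 n4 s1 s2 f1.1 f0.2

/-- naturality of the tilted mean under an injective reindexing. -/
lemma qW_map {κ : Type*} (j : κ ↪ ι) (ν : Measure (ι → Bool)) (W : Finset κ) (v : κ)
    (lam : ι → ℝ) :
    qW (ν.map (fun x => x ∘ j)) W v (lam ∘ j) = qW ν (W.map j) (j v) lam := by
  have hm : Measurable (fun x : ι → Bool => x ∘ j) :=
    measurable_pi_lambda _ fun k => measurable_pi_apply (j k)
  unfold qW
  have hm2 : Measurable (fun x => ind v x * wt W (lam ∘ j) x) :=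
    (measurable_ind v).mul (measurable_wt_real W _)
  rw [integral_map hm.aemeasurable hm2.aestronglyMeasurable,
    integral_map hm.aemeasurable (measurable_wt_real W _).aestronglyMeasurable]
  have : ∀ x : ι → Bool, wt W (lam ∘ j) (x ∘ j) = wt (W.map j) lam x := by
    intro x
    unfold wt
    rw [Finset.prod_map]
    rfl
  simp only [this]
  rfl

end Crest.Agent.H5
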