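import Mathlib
import Crest.Agent.H5.Chan
import Crest.Agent.H5.SR

/-!
The hidden-bit model and its finite Bayes formula.
-/

set_option autoImplicit false

namespace Crest.Agent.H5

open MeasureTheory Set

/-- sample space: hidden bits and, for each observation, a pair of candidate values -/
abbrev Om (V : Type*) : Type _ := (V → Bool) × (ℕ × V → unitInterval × unitInterval)

/-- law of a pair of candidate values -/
noncomputable def pairM : Measure (unitInterval × unitInterval) := (chan 1).prod (chan 0)

instance isProb_pairM : IsProbabilityMeasure pairM := by unfold pairM; infer_instance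

variable {V : Type*}

/-- joint law -/
noncomputable def PP (ν : Measure (V → Bool)) : Measure (Om V) :=
  ν.prod (Measure.infinitePi fun _ => pairM)

instance isProb_PP (ν : Measure (V → Bool)) [IsProbabilityMeasure ν] :
    IsProbabilityMeasure (PP ν) := by unfold PP; infer_instance

/-- select a candidate -/
def sel (b : Bool) (p : unitInterval × unitInterval) : unitInterval :=
  if b = true then p.1 else p.2

/-- bit as a real -/
noncomputable def bq (b : Bool) : ℝ := if b = true then 1 else 0

lemma bq_mem (b : Bool) : 0 ≤ bq b ∧ bq b ≤ 1 := by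
  cases b <;> simp [bq]

lemma measurable_sel (b : Bool) : Measurable (sel b) := by
  cases b
  · exact measurable_snd
  · exact measurable_fst

lemma map_sel (b : Bool) : pairM.map (sel b) = chan (bq b) := by
  cases b
  · have : sel false = Prod.snd := rfl
    rw [this, pairM, Measure.map_snd_prod]; simp [bq]
  · have : sel true = Prod.fst := rfl
    rw [this, pairM, Measure.map_fst_prod]; simp [bq]

/-- the observations -/
def ZZ (ω : Om V) : ℕ × V → unitInterval := fun i => sel (ω.1 i.2) (ω.2 i)

lemma measurable_sel_comp {Ω : Type*} [MeasurableSpace Ω] {b : Ω → Bool}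
    {p : Ω → unitInterval × unitInterval} (hb : Measurable b) (hp : Measurable p) :
    Measurable fun ω => sel (b ω) (p ω) := by
  unfold sel
  exact Measurable.ite (measurableSet_eq_fun hb measurable_const) hp.fst hp.snd

lemma measurable_ZZ : Measurable (ZZ : Om V → _) :=
  measurable_pi_lambda _ fun i => measurable_sel_comp
    ((measurable_pi_apply i.2).comp measurable_fst) ((measurable_pi_apply i).comp measurable_snd)

lemma integrable_of_bdd {Ω : Type*} [MeasurableSpace Ω] (μ : Measure Ω) [IsFiniteMeasure μ]
    {f : Ω → ℝ} (hf : Measurable f) (C : ℝ) (hC : ∀ ω, |f ω| ≤ C) : Integrable f μ :=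
  Integrable.of_bound hf.aestronglyMeasurable C (Filter.Eventually.of_forall hC)

lemma measurable_dens_bq {Ω : Type*} [MeasurableSpace Ω] {b : Ω → Bool}
    {z : Ω → unitInterval} (hb : Measurable b) (hz : Measurable z) :
    Measurable fun ω => dens (bq (b ω)) (z ω) := by
  have h1 : Measurable fun ω => bq (b ω) := by
    unfold bq
    exact Measurable.ite (measurableSet_eq_fun hb measurable_const) measurable_const
      measurable_const
  unfold dens
  have h2 : Measurable fun ω => (z ω : ℝ) := measurable_subtype_coe.comp hz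
  fun_prop

lemma integral_PP_finite (ν : Measure (V → Bool)) [IsProbabilityMeasure ν]
    (J : Finset (ℕ × V)) (G : (V → Bool) × (J → unitInterval) → ℝ) (hG : Measurable G)
    (hb : ∀ p, |G p| ≤ 1) :
    ∫ ω, G (ω.1, fun j : J => ZZ ω j) ∂(PP ν) =
      ∫ y, ∫ x, (∏ j : J, dens (bq (x j.1.2)) (y j)) * G (x, y) ∂ν
        ∂(Measure.pi fun _ : J => (volume : Measure unitInterval)) := by
  have hm : Measurable fun ω : Om V => G (ω.1, fun j : J => ZZ ω j) :=
    hG.comp (measurable_fst.prodMk (measurable_pi_lambda _ fun j =>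
      (measurable_pi_apply j.1).comp measurable_ZZ))
  unfold PP
  rw [integral_prod _ (integrable_of_bdd _ hm 1 fun ω => hb _)]
  have inner : ∀ x : V → Bool, ∫ ξ, G (x, fun j : J => ZZ (x, ξ) j)
      ∂(Measure.infinitePi fun _ : ℕ × V => pairM) =
      ∫ y, (∏ j : J, dens (bq (x j.1.2)) (y j)) * G (x, y)
        ∂(Measure.pi fun _ : J => (volume : Measure unitInterval)) := by
    intro x
    rw [← integral_pi_chan (fun j : J => bq (x j.1.2)) (fun j => bq_mem _) (fun y => G (x, y))]
    have hmap : (Measure.infinitePi fun _ : ℕ × V => pairM).map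
        (fun ξ => fun j : J => ZZ (x, ξ) j) = Measure.pi fun j : J => chan (bq (x j.1.2)) := by
      have e : (fun ξ : ℕ × V → unitInterval × unitInterval => fun j : J => ZZ (x, ξ) j) =
          (fun (η : J → unitInterval × unitInterval) (j : J) => sel (x j.1.2) (η j)) ∘
            J.restrict := rfl
      have hm1 : Measurable
          (fun (η : J → unitInterval × unitInterval) (j : J) => sel (x j.1.2) (η j)) :=
        measurable_pi_lambda _ fun j => (measurable_sel _).comp (measurable_pi_apply j)
      rw [e, ← Measure.map_map hm1 (Finset.measurable_restrict J),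
        Measure.infinitePi_map_restrict, Measure.pi_map_pi
          (fun j => (measurable_sel _).aemeasurable)]
      simp only [map_sel]
    rw [← hmap, integral_map]
    · exact (measurable_pi_lambda _ fun j : J => (measurable_pi_apply j.1).comp
        (measurable_ZZ.comp (measurable_const.prodMk measurable_id))).aemeasurable
    · exact (hG.comp (measurable_const.prodMk measurable_id)).aestronglyMeasurable
  simp only [inner]
  apply integral_integral_swap
  have hm2 : Measurable fun p : (V → Bool) × (J → unitInterval) =>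
      (∏ j : J, dens (bq (p.1 j.1.2)) (p.2 j)) * G (p.1, p.2) := by
    refine Measurable.mul (Finset.measurable_prod _ fun j _ => ?_) hG
    exact measurable_dens_bq ((measurable_pi_apply _).comp measurable_fst)
      ((measurable_pi_apply _).comp measurable_snd)
  refine integrable_of_bdd _ hm2 (∏ _j : J, 2) fun p => ?_
  simp only [Function.uncurry]
  rw [abs_mul]
  have h1 : |∏ j : J, dens (bq (p.1 j.1.2)) (p.2 j)| ≤ ∏ _j : J, (2 : ℝ) := by
    rw [Finset.abs_prod]
    refine Finset.prod_le_prod (fun _ _ => abs_nonneg _) fun j _ => ?_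
    rw [abs_of_pos (dens_pos (bq_mem _).1 (bq_mem _).2 _)]
    exact dens_le (bq_mem _).1 (bq_mem _).2 _
  have h2 := hb (p.1, p.2)
  calc _ ≤ (∏ _j : J, (2 : ℝ)) * 1 := mul_le_mul h1 h2 (abs_nonneg _) (by positivity)
    _ = _ := mul_one _

/-- order of the observations -/
def prec (R : V → V → Prop) (j i : ℕ × V) : Prop := j.1 < i.1 ∨ (j.1 = i.1 ∧ R j.2 i.2)

open Classical in
/-- observations made before `i` inside the window `W` -/
noncomputable def before (R : V → V → Prop) (W : Finset V) (i : ℕ × V) : Finset (ℕ × V) :=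
  (Finset.range (i.1 + 1) ×ˢ W).filter fun j => prec R j i

lemma mem_before {R : V → V → Prop} {W : Finset V} {i j : ℕ × V} :
    j ∈ before R W i ↔ j.2 ∈ W ∧ prec R j i := by
  unfold before
  simp only [Finset.mem_filter, Finset.mem_product, Finset.mem_range]
  constructor
  · rintro ⟨⟨_, h⟩, h'⟩; exact ⟨h, h'⟩
  · rintro ⟨h, h'⟩
    refine ⟨⟨?_, h⟩, h'⟩
    rcases h' with h' | h' <;> omega

lemma fldT_congr (R : V → V → Prop) {Z Z' : ℕ × V → ℝ} (i : ℕ × V) (w : V)
    (h : ∀ k, prec R (k, w) i → Z (k, w) = Z' (k, w)) : fldT R Z i w = fldT R Z' i w := by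
  unfold fldT fld lamT
  congr 1
  · refine Finset.prod_congr rfl fun k hk => ?_
    rw [h k (Or.inl (Finset.mem_range.1 hk))]
  · by_cases hR : R w i.2
    · simp only [hR, if_true]
      rw [h i.1 (Or.inr ⟨rfl, hR⟩)]
    · simp only [hR, if_false]

lemma prod_dens_before (R : V → V → Prop) (W : Finset V) (i : ℕ × V)
    (z : ℕ × V → unitInterval) (x : V → Bool) :
    ∏ j ∈ before R W i, dens (bq (x j.2)) (z j) =
      (∏ j ∈ before R W i, dens 0 (z j)) * wt W (fldT R (fun j => (z j : ℝ)) i) x := by
  classical
  have e : ∀ j : ℕ × V, dens (bq (x j.2)) (z j) =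
      dens 0 (z j) * (if x j.2 = true then lr (z j) else 1) := by
    intro j
    by_cases h : x j.2 = true
    · simp [bq, h, dens_one]
    · simp [bq, h]
  simp only [e, Finset.prod_mul_distrib]
  congr 1
  unfold before wt
  rw [Finset.prod_filter, Finset.prod_product_right]
  refine Finset.prod_congr rfl fun w _ => ?_
  by_cases h : x w = true
  · simp only [h, if_true]
    rw [Finset.prod_range_succ]
    unfold fldT fld lamT
    congr 1
    · refine Finset.prod_congr rfl fun k hk => ?_
      rw [if_pos (show prec R (k, w) i from Or.inl (Finset.mem_range.1 hk))]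
    · by_cases hR : R w i.2
      · rw [if_pos (show prec R (i.1, w) i from Or.inr ⟨rfl, hR⟩), if_pos hR]
      · rw [if_neg, if_neg hR]
        rintro (h1 | h1)
        · exact lt_irrefl _ h1
        · exact hR h1.2
  · simp [h]

lemma measurable_qW (ν : Measure (V → Bool)) [IsFiniteMeasure ν] (W : Finset V) (v : V) :
    Measurable (qW ν W v) := by
  have hw : Measurable fun p : (V → ℝ) × (V → Bool) => wt W p.1 p.2 := by
    unfold wt
    refine Finset.measurable_prod _ fun w _ => ?_
    exact Measurable.ite (measurableSet_eq_fun ((measurable_pi_apply w).comp measurable_snd)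
      measurable_const) ((measurable_pi_apply w).comp measurable_fst) measurable_const
  have h1 : Measurable fun p : (V → ℝ) × (V → Bool) => ind v p.2 * wt W p.1 p.2 :=
    ((measurable_ind v).comp measurable_snd).mul hw
  exact (h1.stronglyMeasurable.integral_prod_right' (ν := ν)).measurable.div
    (hw.stronglyMeasurable.integral_prod_right' (ν := ν)).measurable

lemma measurable_fldT (R : V → V → Prop) (i : ℕ × V) :
    Measurable fun z : ℕ × V → unitInterval => fldT R (fun j => (z j : ℝ)) i := by
  unfold fldT
  have hz : ∀ j, Measurable fun z : ℕ × V → unitInterval => (z j : ℝ) := fun j =>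
    measurable_subtype_coe.comp (measurable_pi_apply j)
  refine measurable_fld (R := fun _ => R) (fun a b => MeasurableSet.const _) ?_ ?_ _
  · refine measurable_pi_lambda _ fun w => ?_
    unfold lamT
    exact Finset.measurable_prod _ fun k _ => measurable_lr.comp (hz _)
  · exact measurable_pi_lambda _ fun w => hz _

lemma coe_mem (z : ℕ × V → unitInterval) (j : ℕ × V) : 0 ≤ (z j : ℝ) ∧ (z j : ℝ) ≤ 1 :=
  ⟨(z j).2.1, (z j).2.2⟩

lemma qW_congr (ν : Measure (V → Bool)) (W : Finset V) (v : V) {lam lam' : V → ℝ}
    (h : ∀ w ∈ W, lam w = lam' w) : qW ν W v lam = qW ν W v lam' := by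
  unfold qW
  rw [wt_congr W h]

/-- the sigma-algebra of the observations in `J` -/
@[reducible] def obsAlg (J : Finset (ℕ × V)) : MeasurableSpace (Om V) :=
  MeasurableSpace.comap (fun ω : Om V => fun j : J => ZZ ω j) inferInstance

lemma measurable_obs (J : Finset (ℕ × V)) : Measurable fun ω : Om V => fun j : J => ZZ ω j :=
  measurable_pi_lambda _ fun j => (measurable_pi_apply j.1).comp measurable_ZZ

lemma obsAlg_le (J : Finset (ℕ × V)) : obsAlg J ≤ (inferInstance : MeasurableSpace (Om V)) :=
  (measurable_obs J).comap_le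

theorem finite_bayes (ν : Measure (V → Bool)) [IsProbabilityMeasure ν] (R : V → V → Prop)
    (W : Finset V) (i : ℕ × V) :
    (fun ω : Om V => qW ν W i.2 (fldT R (fun j => (ZZ ω j : ℝ)) i)) =ᵐ[PP ν]
      (PP ν)[fun ω => ind i.2 ω.1 | obsAlg (before R W i)] := by
  classical
  set J := before R W i with hJ
  let ext : (J → unitInterval) → (ℕ × V → unitInterval) :=
    fun y j => if h : j ∈ J then y ⟨j, h⟩ else 0
  have hext : Measurable ext := by
    refine measurable_pi_lambda _ fun j => ?_
    by_cases h : j ∈ J
    · simp only [ext, h, dif_pos]; exact measurable_pi_apply _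
    · simp only [ext, h, dif_neg, not_false_eq_true]; exact measurable_const
  let qn : (ℕ × V → unitInterval) → ℝ := fun z => qW ν W i.2 (fldT R (fun j => (z j : ℝ)) i)
  have hqn : Measurable qn := (measurable_qW ν W i.2).comp (measurable_fldT R i)
  have hqn0 : ∀ z, 0 ≤ qn z := fun z => qW_nonneg ν W _ fun w _ => fldT_pos R (coe_mem z) i w
  have hqn1 : ∀ z, qn z ≤ 1 := fun z => qW_le_one ν W _ fun w _ => fldT_pos R (coe_mem z) i w
  have hqnb : ∀ z, |qn z| ≤ 1 := fun z => by rw [abs_of_nonneg (hqn0 z)]; exact hqn1 z
  have hdep : ∀ z : ℕ × V → unitInterval, qn (ext fun j : J => z j) = qn z := by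
    intro z
    apply qW_congr
    intro w hw
    apply fldT_congr
    intro k hk
    have : (k, w) ∈ J := mem_before.2 ⟨hw, hk⟩
    simp only [ext, this, dif_pos]
  have hindb : ∀ x : V → Bool, |ind i.2 x| ≤ 1 := fun x => by
    rw [abs_of_nonneg (ind_nonneg _ _)]; exact ind_le_one _ _
  refine ae_eq_condExp_of_forall_setIntegral_eq (obsAlg_le J)
    (integrable_of_bdd _ ((measurable_ind _).comp measurable_fst) 1 fun ω => hindb _)
    (fun s _ _ => (integrable_of_bdd _ (hqn.comp measurable_ZZ) 1 fun ω => hqnb _).integrableOn)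
    (fun s hs _ => ?_) ?_
  · obtain ⟨B, hB, rfl⟩ := hs
    have hs' := measurable_obs J hB
    rw [← integral_indicator hs', ← integral_indicator hs']
    have hindB : ∀ y, |B.indicator (fun _ => (1 : ℝ)) y| ≤ 1 := by
      intro y; by_cases h : y ∈ B <;> simp [h]
    have mB : Measurable (B.indicator fun _ => (1 : ℝ)) := measurable_const.indicator hB
    have e1 := integral_PP_finite ν J (fun p => B.indicator (fun _ => (1 : ℝ)) p.2 * qn (ext p.2))
      ((mB.comp measurable_snd).mul (hqn.comp (hext.comp measurable_snd))) (fun p => by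
        rw [abs_mul]; exact mul_le_one₀ (hindB _) (abs_nonneg _) (hqnb _))
    have e2 := integral_PP_finite ν J (fun p => B.indicator (fun _ => (1 : ℝ)) p.2 * ind i.2 p.1)
      ((mB.comp measurable_snd).mul ((measurable_ind _).comp measurable_fst)) (fun p => by
        rw [abs_mul]; exact mul_le_one₀ (hindB _) (abs_nonneg _) (hindb _))
    have l1 : ((fun ω : Om V => fun j : J => ZZ ω j) ⁻¹' B).indicator
        (fun ω : Om V => qW ν W i.2 (fldT R (fun j => (ZZ ω j : ℝ)) i)) =
        fun ω => B.indicator (fun _ => (1 : ℝ)) (fun j : J => ZZ ω j) *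
          qn (ext fun j : J => ZZ ω j) := by
      funext ω
      rw [hdep]
      by_cases h : (fun j : J => ZZ ω j) ∈ B
      · rw [indicator_of_mem (show ω ∈ (fun ω : Om V => fun j : J => ZZ ω j) ⁻¹' B from h), indicator_of_mem h, one_mul]
      · rw [indicator_of_notMem (show ω ∉ (fun ω : Om V => fun j : J => ZZ ω j) ⁻¹' B from h), indicator_of_notMem h, zero_mul]
    have l2 : ((fun ω : Om V => fun j : J => ZZ ω j) ⁻¹' B).indicator
        (fun ω : Om V => ind i.2 ω.1) =
        fun ω => B.indicator (fun _ => (1 : ℝ)) (fun j : J => ZZ ω j) * ind i.2 ω.1 := by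
      funext ω
      by_cases h : (fun j : J => ZZ ω j) ∈ B
      · rw [indicator_of_mem (show ω ∈ (fun ω : Om V => fun j : J => ZZ ω j) ⁻¹' B from h), indicator_of_mem h, one_mul]
      · rw [indicator_of_notMem (show ω ∉ (fun ω : Om V => fun j : J => ZZ ω j) ⁻¹' B from h), indicator_of_notMem h, zero_mul]
    rw [l1, l2, e1, e2]
    congr 1
    funext y
    have hp : ∀ x : V → Bool, ∏ j : J, dens (bq (x j.1.2)) (y j) =
        (∏ j ∈ J, dens 0 (ext y j)) * wt W (fldT R (fun j => (ext y j : ℝ)) i) x := by
      intro x
      rw [← prod_dens_before R W i (ext y) x, ← Finset.prod_coe_sort J]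
      refine Finset.prod_congr rfl fun j _ => ?_
      simp only [ext, j.2, dif_pos]
    simp only [hp]
    have hpos := integral_wt_pos ν W (fun w _ => fldT_pos R (coe_mem (ext y)) i w)
    set lam := fldT R (fun j => (ext y j : ℝ)) i
    set C := ∏ j ∈ J, dens 0 (ext y j)
    set b := B.indicator (fun _ => (1 : ℝ)) y
    have a1 : ∫ x, C * wt W lam x * (b * qn (ext y)) ∂ν =
        (C * b * qn (ext y)) * ∫ x, wt W lam x ∂ν := by
      rw [← integral_const_mul]; congr 1; funext x; ring
    have a2 : ∫ x, C * wt W lam x * (b * ind i.2 x) ∂ν =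
        (C * b) * ∫ x, ind i.2 x * wt W lam x ∂ν := by
      rw [← integral_const_mul]; congr 1; funext x; ring
    rw [a1, a2]
    have a3 : qn (ext y) = (∫ x, ind i.2 x * wt W lam x ∂ν) / ∫ x, wt W lam x ∂ν := rfl
    rw [a3]
    field_simp
  · have : (fun ω : Om V => qW ν W i.2 (fldT R (fun j => (ZZ ω j : ℝ)) i)) =
        (fun y => qn (ext y)) ∘ (fun ω : Om V => fun j : J => ZZ ω j) := by
      funext ω
      simp only [Function.comp]
      rw [hdep]
    rw [this]
    exact (((hqn.comp hext).comp (comap_measurable _)).stronglyMeasurable).aestronglyMeasurable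

end Crest.Agent.H5
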