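import Mathlib
import Crest.Agent.H5.Law1

/-!
The law of the factor map.
-/

set_option autoImplicit false

namespace Crest.Agent.H5

open MeasureTheory Set Filter Topology

variable {V : Type*}

/-- a prediction rule computing the conditional probabilities of `ν` along windows `W` -/
structure Scheme (ν : Measure (V → Bool)) (Q : V → (V → ℝ) → ℝ) (W : ℕ → V → Finset V) :
    Prop where
  good : GoodQ Q
  meas : ∀ v, Measurable (Q v)
  mono : ∀ v, Monotone (fun n => W n v)
  exh : ∀ v w, ∃ n, w ∈ W n v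
  lim : ∀ v lam, (∀ w, 0 < lam w) → Q v lam = limsup (fun n => qW ν (W n v) v lam) atTop

open Classical in
/-- forget the observations not made before `i` -/
noncomputable def trunc (R : V → V → Prop) (i : ℕ × V) (z : ℕ × V → unitInterval) :
    ℕ × V → unitInterval := fun j => if prec R j i then z j else 0

/-- predicted probability at the observation `i` -/
noncomputable def qF (Q : V → (V → ℝ) → ℝ) (R : V → V → Prop) (i : ℕ × V)
    (z : ℕ × V → unitInterval) : ℝ := Q i.2 (fldT R (fun j => (z j : ℝ)) i)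

/-- the innovations -/
noncomputable def UF (Q : V → (V → ℝ) → ℝ) (R : V → V → Prop)
    (z : ℕ × V → unitInterval) : ℕ × V → unitInterval := fun i => ucdf (qF Q R i z) (z i)

lemma measurable_qF {Q : V → (V → ℝ) → ℝ} (hQ : ∀ v, Measurable (Q v)) (R : V → V → Prop)
    (i : ℕ × V) : Measurable (qF Q R i) := (hQ _).comp (measurable_fldT R i)

lemma measurable_UF {Q : V → (V → ℝ) → ℝ} (hQ : ∀ v, Measurable (Q v)) (R : V → V → Prop) :
    Measurable (UF Q R) :=
  measurable_pi_lambda _ fun i =>
    measurable_ucdf.comp ((measurable_qF hQ R i).prodMk (measurable_pi_apply i))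

lemma qF_mem {Q : V → (V → ℝ) → ℝ} (hQ : GoodQ Q) (R : V → V → Prop) (i : ℕ × V)
    (z : ℕ × V → unitInterval) : 0 ≤ qF Q R i z ∧ qF Q R i z ≤ 1 :=
  ⟨hQ.nonneg _ _ (fldT_pos R (coe_mem z) i), hQ.le_one _ _ (fldT_pos R (coe_mem z) i)⟩

lemma qF_congr (Q : V → (V → ℝ) → ℝ) (R : V → V → Prop) (i : ℕ × V)
    {z z' : ℕ × V → unitInterval} (h : ∀ j, prec R j i → z j = z' j) :
    qF Q R i z = qF Q R i z' := by
  unfold qF
  congr 1
  funext w
  apply fldT_congr
  intro k hk
  simp only [h _ hk]

theorem key_ce {ν : Measure (V → Bool)} [IsProbabilityMeasure ν] {Q : V → (V → ℝ) → ℝ}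
    {W : ℕ → V → Finset V} (hS : Scheme ν Q W) (R : V → V → Prop) (i : ℕ × V)
    (h : (ℕ × V → unitInterval) → ℝ) (hm : Measurable h) (hb : ∀ z, |h z| ≤ 1)
    (hdep : ∀ z, h (trunc R i z) = h z) :
    ∫ ω, h (ZZ ω) * ind i.2 ω.1 ∂(PP ν) = ∫ ω, h (ZZ ω) * qF Q R i (ZZ ω) ∂(PP ν) := by
  let J : ℕ → Finset (ℕ × V) := fun n => before R (W n i.2) i
  have hJ : ∀ {n m}, n ≤ m → J n ⊆ J m := fun hnm j hj =>
    mem_before.2 ⟨hS.mono i.2 hnm (mem_before.1 hj).1, (mem_before.1 hj).2⟩
  have hcoord : ∀ (n : ℕ) (j : ℕ × V), j ∈ J n → Measurable[obsAlg (J n)] fun ω : Om V => ZZ ω j :=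
    fun n j hj => (measurable_pi_apply (⟨j, hj⟩ : J n)).comp (comap_measurable
      (fun ω : Om V => fun j : J n => ZZ ω j))
  let ℱ : Filtration ℕ (inferInstance : MeasurableSpace (Om V)) :=
    { seq := fun n => obsAlg (J n)
      mono' := fun n m hnm => by
        apply Measurable.comap_le
        exact @measurable_pi_lambda _ _ _ (obsAlg (J m)) _ _ fun j => hcoord m j (hJ hnm j.2)
      le' := fun n => obsAlg_le _ }
  have hG : (⨆ n, ℱ n) ≤ (inferInstance : MeasurableSpace (Om V)) := iSup_le fun n => ℱ.le n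
  have hlevy := tendsto_ae_condExp (μ := PP ν) (ℱ := ℱ) (fun ω => ind i.2 ω.1)
  have hbayes : ∀ᵐ ω ∂(PP ν), ∀ n, qW ν (W n i.2) i.2 (fldT R (fun j => (ZZ ω j : ℝ)) i) =
      ((PP ν)[fun ω => ind i.2 ω.1 | ℱ n]) ω :=
    ae_all_iff.2 fun n => finite_bayes ν R (W n i.2) i
  have hq : (fun ω => qF Q R i (ZZ ω)) =ᵐ[PP ν] (PP ν)[fun ω => ind i.2 ω.1 | ⨆ n, ℱ n] := by
    filter_upwards [hlevy, hbayes] with ω h1 h2
    unfold qF
    rw [hS.lim _ _ (fldT_pos R (coe_mem _) i)]
    simp only [h2]
    exact h1.limsup_eq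
  have hT : Measurable[⨆ n, ℱ n] fun ω : Om V => trunc R i (ZZ ω) := by
    refine @measurable_pi_lambda _ _ _ (⨆ n, ℱ n) _ _ fun j => ?_
    unfold trunc
    by_cases hj : prec R j i
    · simp only [hj, if_true]
      obtain ⟨n, hn⟩ := hS.exh i.2 j.2
      exact (hcoord n j (mem_before.2 ⟨hn, hj⟩)).mono (le_iSup (fun n => ℱ n) n) le_rfl
    · simp only [hj, if_false]
      exact measurable_const
  have hhm : StronglyMeasurable[⨆ n, ℱ n] fun ω : Om V => h (ZZ ω) := by
    have : (fun ω : Om V => h (ZZ ω)) = h ∘ fun ω : Om V => trunc R i (ZZ ω) := by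
      funext ω; simp [hdep]
    rw [this]
    exact (hm.comp hT).stronglyMeasurable
  have hindb : ∀ x : V → Bool, |ind i.2 x| ≤ 1 := fun x => by
    rw [abs_of_nonneg (ind_nonneg _ _)]; exact ind_le_one _ _
  have hint : Integrable (fun ω : Om V => ind i.2 ω.1) (PP ν) :=
    integrable_of_bdd _ ((measurable_ind _).comp measurable_fst) 1 fun ω => hindb _
  have h3 := condExp_stronglyMeasurable_mul_of_bound hG hhm hint 1
    (Eventually.of_forall fun ω => hb _)
  calc ∫ ω, h (ZZ ω) * ind i.2 ω.1 ∂(PP ν)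
      = ∫ ω, ((PP ν)[(fun ω : Om V => h (ZZ ω)) * (fun ω => ind i.2 ω.1) | ⨆ n, ℱ n]) ω ∂(PP ν) :=
        (integral_condExp hG).symm
    _ = ∫ ω, h (ZZ ω) * qF Q R i (ZZ ω) ∂(PP ν) := by
        refine integral_congr_ae ?_
        filter_upwards [h3, hq] with ω h1 h2
        rw [h1, h2]; rfl

lemma map_update_infinitePi {ι X : Type*} [DecidableEq ι] [MeasurableSpace X] (μ : ι → Measure X)
    [∀ i, IsProbabilityMeasure (μ i)] (i : ι) :
    ((Measure.infinitePi μ).prod (μ i)).map
      (fun p : (ι → X) × X => Function.update p.1 i p.2) = Measure.infinitePi μ := by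
  have hm : Measurable (fun p : (ι → X) × X => Function.update p.1 i p.2) := measurable_update'
  refine Measure.eq_infinitePi μ fun s t ht => ?_
  rw [Measure.map_apply hm (MeasurableSet.pi s.countable_toSet fun i _ => ht i)]
  have e : (fun p : (ι → X) × X => Function.update p.1 i p.2) ⁻¹' ((s : Set ι).pi t) =
      (((s.erase i : Finset ι) : Set ι).pi t) ×ˢ (if i ∈ s then t i else univ) := by
    ext y
    simp only [mem_preimage, Set.mem_pi, Finset.mem_coe, mem_prod, Finset.mem_erase]
    constructor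
    · intro h
      refine ⟨fun j hj => ?_, ?_⟩
      · have := h j hj.2; rwa [Function.update_of_ne hj.1] at this
      · split_ifs with hi
        · have := h i hi; rwa [Function.update_self] at this
        · trivial
    · rintro ⟨h1, h2⟩ j hj
      by_cases hji : j = i
      · subst hji
        rw [if_pos hj] at h2
        rwa [Function.update_self]
      · rw [Function.update_of_ne hji]; exact h1 j ⟨hji, hj⟩
  rw [e, Measure.prod_prod, Measure.infinitePi_pi μ (fun i _ => ht i)]
  split_ifs with hi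
  · rw [Finset.prod_erase_mul _ _ hi]
  · rw [Finset.erase_eq_of_notMem hi]; simp

lemma integral_resample [DecidableEq V] (ν : Measure (V → Bool)) [IsProbabilityMeasure ν]
    (i : ℕ × V) (H : Om V → ℝ) (hH : Measurable H) (hb : ∀ ω, |H ω| ≤ 1) :
    ∫ ω, H ω ∂(PP ν) = ∫ ω, ∫ s, H (ω.1, Function.update ω.2 i s) ∂pairM ∂(PP ν) := by
  have h1 : MeasurePreserving
      (fun p : (ℕ × V → unitInterval × unitInterval) × (unitInterval × unitInterval) =>
        Function.update p.1 i p.2)
      ((Measure.infinitePi fun _ => pairM).prod pairM) (Measure.infinitePi fun _ => pairM) :=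
    ⟨measurable_update', map_update_infinitePi (fun _ => pairM) i⟩
  have h2 := ((MeasurePreserving.id ν).prod h1).comp (measurePreserving_prodAssoc ν
    (Measure.infinitePi fun _ : ℕ × V => pairM) pairM)
  have h3 : MeasurePreserving (fun p : Om V × (unitInterval × unitInterval) =>
      ((p.1.1, Function.update p.1.2 i p.2) : Om V)) ((PP ν).prod pairM) (PP ν) := h2
  conv_lhs => rw [← h3.map_eq]
  rw [integral_map h3.measurable.aemeasurable hH.aestronglyMeasurable]
  exact integral_prod _ (integrable_of_bdd _ (hH.comp h3.measurable) 1 fun p => hb _)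

theorem step_indep [DecidableEq V] {ν : Measure (V → Bool)} [IsProbabilityMeasure ν]
    {Q : V → (V → ℝ) → ℝ}
    {W : ℕ → V → Finset V} (hS : Scheme ν Q W) (R : V → V → Prop) (hR : ∀ v, ¬ R v v) (i : ℕ × V)
    (A : Set (ℕ × V → unitInterval)) (hA : MeasurableSet A)
    (hdep : ∀ z z' : ℕ × V → unitInterval, (∀ j, prec R j i → z j = z' j) → (z ∈ A ↔ z' ∈ A))
    (B : Set unitInterval) (hB : MeasurableSet B) :
    (PP ν).real {ω | ZZ ω ∈ A ∧ UF Q R (ZZ ω) i ∈ B} =
      (volume : Measure unitInterval).real B * (PP ν).real {ω | ZZ ω ∈ A} := by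
  have hii : ¬ prec R i i := by
    rintro (h | h)
    · exact lt_irrefl _ h
    · exact hR _ h.2
  let g : (ℕ × V → unitInterval) → ℝ := A.indicator fun _ => 1
  have hg : Measurable g := measurable_const.indicator hA
  have hgb : ∀ z, |g z| ≤ 1 := fun z => by by_cases h : z ∈ A <;> simp [g, h]
  have hgdep : ∀ z z' : ℕ × V → unitInterval, (∀ j, prec R j i → z j = z' j) → g z = g z' := by
    intro z z' h
    by_cases h1 : z ∈ A
    · simp [g, h1, (hdep z z' h).1 h1]
    · have : z' ∉ A := fun h2 => h1 ((hdep z z' h).2 h2)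
      simp [g, h1, this]
  let m : Bool → ℝ → ℝ := fun b q => (chan (bq b)).real (ucdf q ⁻¹' B)
  have hmm : ∀ b, Measurable (m b) := by
    intro b
    have : IsProbabilityMeasure (chan (bq b)) := isProb_chan (bq_mem b).1 (bq_mem b).2
    have hs : MeasurableSet {p : ℝ × unitInterval | ucdf p.1 p.2 ∈ B} := measurable_ucdf hB
    exact (measurable_measure_prodMk_left (ν := chan (bq b)) hs).ennreal_toReal
  have hm0 : ∀ b q, 0 ≤ m b q := fun b q => measureReal_nonneg
  have hm1 : ∀ b q, m b q ≤ 1 := fun b q => by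
    have : IsProbabilityMeasure (chan (bq b)) := isProb_chan (bq_mem b).1 (bq_mem b).2
    exact measureReal_le_one
  have hmix : ∀ q, 0 ≤ q → q ≤ 1 → m false q + q * (m true q - m false q) =
      (volume : Measure unitInterval).real B := by
    intro q h0 h1
    have := chan_mix h0 h1 (measurable_ucdf' q hB)
    rw [← map_ucdf h0 h1, map_measureReal_apply (measurable_ucdf' q) hB, this]
    simp [m, bq]
  have hqm := measurable_qF hS.meas R i
  have hS1 : MeasurableSet {ω : Om V | ZZ ω ∈ A ∧ UF Q R (ZZ ω) i ∈ B} :=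
    (measurable_ZZ hA).inter
      (((measurable_pi_apply i).comp ((measurable_UF hS.meas R).comp measurable_ZZ)) hB)
  have hS2 : MeasurableSet {ω : Om V | ZZ ω ∈ A} := measurable_ZZ hA
  rw [← integral_indicator_one hS1, ← integral_indicator_one hS2,
    integral_resample ν i _ (measurable_one.indicator hS1) (fun ω => by
      by_cases h : ω ∈ {ω : Om V | ZZ ω ∈ A ∧ UF Q R (ZZ ω) i ∈ B}
      · rw [indicator_of_mem h]; simp
      · rw [indicator_of_notMem h]; simp)]
  have inner : ∀ ω : Om V, ∫ s, ({ω : Om V | ZZ ω ∈ A ∧ UF Q R (ZZ ω) i ∈ B}).indicator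
      (1 : Om V → ℝ) (ω.1, Function.update ω.2 i s) ∂pairM =
      g (ZZ ω) * m false (qF Q R i (ZZ ω)) + (g (ZZ ω) *
        (m true (qF Q R i (ZZ ω)) - m false (qF Q R i (ZZ ω)))) * ind i.2 ω.1 := by
    intro ω
    have hz : ∀ s, ∀ j, prec R j i → ZZ (ω.1, Function.update ω.2 i s) j = ZZ ω j := by
      intro s j hj
      have : j ≠ i := fun e => hii (e ▸ hj)
      simp only [ZZ, Function.update_of_ne this]
    have hzi : ∀ s, ZZ (ω.1, Function.update ω.2 i s) i = sel (ω.1 i.2) s := by
      intro s; simp [ZZ]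
    have e : ∀ s, ({ω : Om V | ZZ ω ∈ A ∧ UF Q R (ZZ ω) i ∈ B}).indicator
        (1 : Om V → ℝ) (ω.1, Function.update ω.2 i s) =
        g (ZZ ω) * ((sel (ω.1 i.2)) ⁻¹' (ucdf (qF Q R i (ZZ ω)) ⁻¹' B)).indicator 1 s := by
      intro s
      have e1 : (ZZ (ω.1, Function.update ω.2 i s) ∈ A ↔ ZZ ω ∈ A) := hdep _ _ (hz s)
      have e2 : UF Q R (ZZ (ω.1, Function.update ω.2 i s)) i =
          ucdf (qF Q R i (ZZ ω)) (sel (ω.1 i.2) s) := by
        unfold UF
        rw [qF_congr Q R i (hz s), hzi]
      by_cases h1 : ZZ ω ∈ A <;> by_cases h2 : ucdf (qF Q R i (ZZ ω)) (sel (ω.1 i.2) s) ∈ B <;>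
        simp [Set.indicator, e1, e2, h1, h2, g]
    simp only [e]
    rw [integral_const_mul, integral_indicator_one (measurable_sel _ (measurable_ucdf' _ hB)),
      ← map_measureReal_apply (measurable_sel _) (measurable_ucdf' _ hB), map_sel]
    by_cases hx : ω.1 i.2 = true
    · simp only [ind, hx, if_true, m]; ring
    · have hx' : ω.1 i.2 = false := by simpa using hx
      simp [ind, hx', m]
  simp only [inner]
  have hh : Measurable fun z => g z * (m true (qF Q R i z) - m false (qF Q R i z)) :=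
    hg.mul (((hmm true).comp hqm).sub ((hmm false).comp hqm))
  have hhb : ∀ z, |g z * (m true (qF Q R i z) - m false (qF Q R i z))| ≤ 1 := fun z => by
    rw [abs_mul]
    refine mul_le_one₀ (hgb z) (abs_nonneg _) ?_
    rw [abs_le]
    constructor <;> linarith [hm0 true (qF Q R i z), hm0 false (qF Q R i z), hm1 true (qF Q R i z),
      hm1 false (qF Q R i z)]
  have hk := key_ce hS R i (fun z => g z * (m true (qF Q R i z) - m false (qF Q R i z))) hh hhb
    (fun z => by
      have : ∀ j, prec R j i → trunc R i z j = z j := fun j hj => by simp [trunc, hj]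
      simp only [hgdep _ _ this, qF_congr Q R i this])
  have i1 : Integrable (fun ω : Om V => g (ZZ ω) * m false (qF Q R i (ZZ ω))) (PP ν) :=
    integrable_of_bdd _ ((hg.mul ((hmm false).comp hqm)).comp measurable_ZZ) 1 fun ω => by
      rw [abs_mul]
      refine mul_le_one₀ (hgb _) (abs_nonneg _) ?_
      rw [abs_of_nonneg (hm0 _ _)]; exact hm1 _ _
  have i2 : Integrable (fun ω : Om V => (g (ZZ ω) *
      (m true (qF Q R i (ZZ ω)) - m false (qF Q R i (ZZ ω)))) * ind i.2 ω.1) (PP ν) :=
    integrable_of_bdd _ ((hh.comp measurable_ZZ).mul ((measurable_ind _).comp measurable_fst)) 1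
      fun ω => by
        rw [abs_mul]
        refine mul_le_one₀ (hhb _) (abs_nonneg _) ?_
        rw [abs_of_nonneg (ind_nonneg _ _)]; exact ind_le_one _ _
  have i3 : Integrable (fun ω : Om V => (g (ZZ ω) *
      (m true (qF Q R i (ZZ ω)) - m false (qF Q R i (ZZ ω)))) * qF Q R i (ZZ ω)) (PP ν) :=
    integrable_of_bdd _ ((hh.mul hqm).comp measurable_ZZ) 1
      fun ω => by
        rw [abs_mul]
        refine mul_le_one₀ (hhb _) (abs_nonneg _) ?_
        rw [abs_of_nonneg (qF_mem hS.good R i _).1]; exact (qF_mem hS.good R i _).2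
  rw [integral_add i1 i2, hk, ← integral_add i1 i3, ← integral_const_mul]
  congr 1
  funext ω
  rw [← hmix _ (qF_mem hS.good R i (ZZ ω)).1 (qF_mem hS.good R i (ZZ ω)).2]
  by_cases h : ZZ ω ∈ A
  · simp only [g, indicator_of_mem h, indicator_of_mem (show ω ∈ {ω : Om V | ZZ ω ∈ A} from h),
      Pi.one_apply]
    ring
  · simp only [g, indicator_of_notMem h,
      indicator_of_notMem (show ω ∉ {ω : Om V | ZZ ω ∈ A} from h)]
    ring

theorem map_UF {ν : Measure (V → Bool)} [IsProbabilityMeasure ν] {Q : V → (V → ℝ) → ℝ}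
    {W : ℕ → V → Finset V} (hS : Scheme ν Q W) {L : Type*} [LinearOrder L] (τ : V → L)
    (hτ : Function.Injective τ) :
    (PP ν).map (fun ω => UF Q (fun a b => τ a < τ b) (ZZ ω)) =
      Measure.infinitePi fun _ : ℕ × V => (volume : Measure unitInterval) := by
  classical
  set R : V → V → Prop := fun a b => τ a < τ b with hRdef
  have hm : Measurable fun ω : Om V => UF Q R (ZZ ω) :=
    (measurable_UF hS.meas R).comp measurable_ZZ
  have htrans : ∀ a b c : ℕ × V, prec R a b → prec R b c → prec R a c := by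
    rintro a b c (h1 | h1) (h2 | h2)
    · exact Or.inl (h1.trans h2)
    · exact Or.inl (h2.1 ▸ h1)
    · exact Or.inl (h1.1 ▸ h2)
    · exact Or.inr ⟨h1.1.trans h2.1, lt_trans h1.2 h2.2⟩
  refine Measure.eq_infinitePi _ fun s t ht => ?_
  rw [Measure.map_apply hm (MeasurableSet.pi s.countable_toSet fun i _ => ht i)]
  have main : (PP ν).real ((fun ω : Om V => UF Q R (ZZ ω)) ⁻¹' ((s : Set (ℕ × V)).pi t)) =
      ∏ i ∈ s, (volume : Measure unitInterval).real (t i) := by
    induction s using Finset.induction_on_max_value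
      (f := fun i : ℕ × V => (toLex (i.1, τ i.2) : ℕ ×ₗ L)) with
    | empty => simp
    | insert a s ha hmax ih =>
      have hprec : ∀ j ∈ s, prec R j a := by
        intro j hj
        have h1 := hmax j hj
        rw [Prod.Lex.toLex_le_toLex] at h1
        rcases h1 with h1 | h1
        · exact Or.inl h1
        · refine Or.inr ⟨h1.1, lt_of_le_of_ne h1.2 fun h2 => ha ?_⟩
          have : j = a := Prod.ext h1.1 (hτ h2)
          exact this ▸ hj
      have hA : MeasurableSet (UF Q R ⁻¹' ((s : Set (ℕ × V)).pi t)) :=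
        measurable_UF hS.meas R (MeasurableSet.pi s.countable_toSet fun i _ => ht i)
      have := step_indep hS R (fun v => lt_irrefl _) a _ hA (by
        intro z z' hz
        have : ∀ j ∈ s, UF Q R z j = UF Q R z' j := by
          intro j hj
          unfold UF
          rw [hz j (hprec j hj), qF_congr Q R j fun j' hj' => hz j' (htrans _ _ _ hj' (hprec j hj))]
        simp only [mem_preimage, Set.mem_pi, Finset.mem_coe]
        constructor
        · intro h j hj; rw [← this j hj]; exact h j hj
        · intro h j hj; rw [this j hj]; exact h j hj) (t a) (ht a)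
      rw [Finset.prod_insert ha, ← ih]
      refine Eq.trans ?_ this
      congr 1
      ext ω
      simp only [Finset.coe_insert, mem_preimage, Set.mem_pi, mem_insert_iff, Finset.mem_coe,
        forall_eq_or_imp, mem_ofPred_eq]
      exact and_comm
  rw [← ofReal_measureReal, main, ENNReal.ofReal_prod_of_nonneg fun _ _ => measureReal_nonneg]
  simp only [ofReal_measureReal (measure_ne_top _ _)]

lemma ae_decode [Countable V] (ν : Measure (V → Bool)) [IsProbabilityMeasure ν] :
    ∀ᵐ ω ∂(PP ν), (fun v => decode fun k => (ZZ ω (k, v) : ℝ)) = ω.1 := by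
  have hst : ∀ b, Measurable fun p : unitInterval × unitInterval => stat (sel b p) := fun b =>
    measurable_stat.comp (measurable_subtype_coe.comp (measurable_sel b))
  have h1 : ∀ (v : V) (b : Bool), ∀ᵐ ξ ∂(Measure.infinitePi fun _ : ℕ × V => pairM),
      Tendsto (fun n : ℕ => (∑ k ∈ Finset.range n, stat (sel b (ξ (k, v)))) / (n : ℝ)) atTop
        (𝓝 (1 / 2 - eps * (2 * bq b - 1) / 4)) := by
    intro v b
    have hind : ProbabilityTheory.iIndepFun
        (fun (k : ℕ) (ξ : ℕ × V → unitInterval × unitInterval) => stat (sel b (ξ (k, v))))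
        (Measure.infinitePi fun _ : ℕ × V => pairM) :=
      (ProbabilityTheory.iIndepFun_infinitePi (P := fun _ : ℕ × V => pairM)
        (X := fun _ p => stat (sel b p)) (fun _ => hst b)).precomp (g := fun k : ℕ => (k, v))
        (fun a b h => (Prod.ext_iff.1 h).1)
    have hmp : ∀ k : ℕ, MeasurePreserving
        (fun ξ : ℕ × V → unitInterval × unitInterval => ξ (k, v))
        (Measure.infinitePi fun _ : ℕ × V => pairM) pairM := fun k =>
      measurePreserving_eval_infinitePi (fun _ : ℕ × V => pairM) (k, v)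
    have hb : ∀ z, |stat z| ≤ 1 := fun z => by unfold stat; split_ifs <;> simp
    have := ProbabilityTheory.strong_law_ae_real
      (fun (k : ℕ) (ξ : ℕ × V → unitInterval × unitInterval) => stat (sel b (ξ (k, v))))
      (integrable_of_bdd _ ((hst b).comp (measurable_pi_apply _)) 1 fun _ => hb _)
      (fun a c hac => hind.indepFun hac)
      (fun k => ProbabilityTheory.IdentDistrib.comp (u := fun p => stat (sel b p))
        ⟨(hmp k).measurable.aemeasurable, (hmp 0).measurable.aemeasurable,
          (hmp k).map_eq.trans (hmp 0).map_eq.symm⟩ (hst b))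
    have e : ∫ ξ, stat (sel b (ξ (0, v))) ∂(Measure.infinitePi fun _ : ℕ × V => pairM) =
        1 / 2 - eps * (2 * bq b - 1) / 4 := by
      have h4 : MeasurePreserving (sel b) pairM (chan (bq b)) := ⟨measurable_sel b, map_sel b⟩
      rw [← integral_stat (bq_mem b).1 (bq_mem b).2, ← (h4.comp (hmp 0)).map_eq, integral_map]
      · rfl
      · exact ((measurable_sel b).comp (hmp 0).measurable).aemeasurable
      · exact (measurable_stat.comp measurable_subtype_coe).aestronglyMeasurable
    rw [e] at this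
    exact this
  have h2 : ∀ᵐ ξ ∂(Measure.infinitePi fun _ : ℕ × V => pairM), ∀ (v : V) (b : Bool),
      Tendsto (fun n : ℕ => (∑ k ∈ Finset.range n, stat (sel b (ξ (k, v)))) / (n : ℝ)) atTop
        (𝓝 (1 / 2 - eps * (2 * bq b - 1) / 4)) :=
    ae_all_iff.2 fun v => ae_all_iff.2 fun b => h1 v b
  have h3 := (measurePreserving_snd (μ := ν)
    (ν := Measure.infinitePi fun _ : ℕ × V => pairM)).quasiMeasurePreserving.ae h2
  filter_upwards [h3] with ω hω
  funext v
  have := (hω v (ω.1 v)).limsup_eq
  unfold decode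
  simp only [ZZ]
  rw [this]
  cases ω.1 v <;> simp [bq, eps]

theorem map_core [Countable V] {ν : Measure (V → Bool)} [IsProbabilityMeasure ν]
    {Q : V → (V → ℝ) → ℝ}
    {W : ℕ → V → Finset V} (hS : Scheme ν Q W) {L : Type*} [LinearOrder L] (τ : V → L)
    (hτ : Function.Injective τ) :
    (Measure.infinitePi fun _ : ℕ × V => (volume : Measure unitInterval)).map
      (fun u => core Q (fun a b => τ a < τ b) (fun i => (u i : ℝ))) = ν := by
  set R : V → V → Prop := fun a b => τ a < τ b with hRdef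
  have hm : Measurable fun ω : Om V => UF Q R (ZZ ω) :=
    (measurable_UF hS.meas R).comp measurable_ZZ
  have hc : Measurable fun u : ℕ × V → unitInterval => core Q R (fun i => (u i : ℝ)) :=
    measurable_core (Q := fun _ => Q) (R := fun _ => R)
      (fun v => (hS.meas v).comp measurable_snd) (fun _ _ => MeasurableSet.const _)
      (measurable_pi_lambda _ fun i => measurable_subtype_coe.comp (measurable_pi_apply i))
  rw [← map_UF hS τ hτ, Measure.map_map hc hm]
  have : ((fun u : ℕ × V → unitInterval => core Q R (fun i => (u i : ℝ))) ∘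
      fun ω : Om V => UF Q R (ZZ ω)) =ᵐ[PP ν] Prod.fst := by
    filter_upwards [ae_decode ν] with ω hω
    rw [← hω]
    have hirr : ∀ v, ¬ R v v := fun v => lt_irrefl (τ v)
    have hU : ∀ i, ((UF Q R (ZZ ω) i : unitInterval) : ℝ) =
        mcdf (Q i.2 (fldT R (fun j => (ZZ ω j : ℝ)) i)) (ZZ ω i) := fun i =>
      coe_ucdf (qF_mem hS.good R i _).1 (qF_mem hS.good R i _).2 _
    exact core_eq (Z := fun j => (ZZ ω j : ℝ)) hS.good hirr (coe_mem (ZZ ω))
      (fun i => (UF Q R (ZZ ω) i : ℝ)) hU
  rw [Measure.map_congr this]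
  exact (measurePreserving_fst (μ := ν)
    (ν := Measure.infinitePi fun _ : ℕ × V => pairM)).map_eq

end Crest.Agent.H5
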