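import Mathlib
import Crest.Prelude.Def_Labels
import Crest.Agent.H5.Law2

/-!
Splitting a uniform label into a sequence of independent uniform labels, and freezing the first
coordinates.
-/

set_option autoImplicit false

namespace Crest.Agent.H5

open MeasureTheory Set Filter Topology Crest.ProbabilityR.Labels

lemma exists_split : ∃ sp : unitInterval → ℕ → unitInterval, Measurable sp ∧
    volume.map sp = Measure.infinitePi fun _ : ℕ => (volume : Measure unitInterval) :=
  Measure.exists_measurable_map_eq _

/-- split one uniform label into a sequence -/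
noncomputable def sp : unitInterval → ℕ → unitInterval := exists_split.choose

lemma measurable_sp : Measurable sp := exists_split.choose_spec.1

lemma map_sp : volume.map sp = Measure.infinitePi fun _ : ℕ => (volume : Measure unitInterval) :=
  exists_split.choose_spec.2

attribute [irreducible] sp

variable {Λ : Type*}

/-- split all labels -/
noncomputable def YY (x : Λ → unitInterval) : Λ × ℕ → unitInterval := fun p => sp (x p.1) p.2

lemma measurable_YY : Measurable (YY : (Λ → unitInterval) → _) :=
  measurable_pi_lambda _ fun p =>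
    (measurable_pi_apply p.2).comp (measurable_sp.comp (measurable_pi_apply p.1))

lemma map_YY : (labelMeasure Λ).map YY =
    Measure.infinitePi fun _ : Λ × ℕ => (volume : Measure unitInterval) := by
  have e : (YY : (Λ → unitInterval) → _) =
      (MeasurableEquiv.curry Λ ℕ unitInterval).symm ∘ (fun x i => sp (x i)) := rfl
  have hm : Measurable (fun (x : Λ → unitInterval) (i : Λ) => sp (x i)) :=
    measurable_pi_lambda _ fun i => measurable_sp.comp (measurable_pi_apply i)
  rw [e, ← Measure.map_map (MeasurableEquiv.measurable _) hm, labelMeasure,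
    Measure.infinitePi_map_pi _ (fun _ => measurable_sp)]
  simp only [map_sp]
  exact Measure.infinitePi_map_curry_symm (fun (_ : Λ) (_ : ℕ) => (volume : Measure unitInterval))

lemma ae_injective [Countable Λ] :
    ∀ᵐ a ∂(Measure.infinitePi fun _ : Λ × ℕ => (volume : Measure unitInterval)),
      Function.Injective fun v => a (v, 0) := by
  have : ∀ u w : Λ, ∀ᵐ a ∂(Measure.infinitePi fun _ : Λ × ℕ => (volume : Measure unitInterval)),
      a (u, 0) = a (w, 0) → u = w := by
    intro u w
    by_cases h : u = w
    · exact Eventually.of_forall fun _ _ => h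
    have hne : ((u, 0) : Λ × ℕ) ≠ (w, 0) := fun e => h (Prod.ext_iff.1 e).1
    have hmap := Measure.infinitePi_map_eval_prod
      (P := fun _ : Λ × ℕ => (volume : Measure unitInterval)) hne
    have hd : MeasurableSet {p : unitInterval × unitInterval | p.1 = p.2} :=
      measurableSet_eq_fun measurable_fst measurable_snd
    have h0 : (volume : Measure unitInterval).prod (volume : Measure unitInterval)
        {p : unitInterval × unitInterval | p.1 = p.2} = 0 := by
      rw [Measure.prod_apply hd]
      have : ∀ x : unitInterval, (volume : Measure unitInterval)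
          (Prod.mk x ⁻¹' {p : unitInterval × unitInterval | p.1 = p.2}) = 0 := by
        intro x
        have : Prod.mk x ⁻¹' {p : unitInterval × unitInterval | p.1 = p.2} = {x} := by
          ext y; simp [eq_comm]
        rw [this]; exact measure_singleton x
      simp only [this, lintegral_zero]
    rw [← hmap, Measure.map_apply (by fun_prop) hd] at h0
    rw [ae_iff]
    refine measure_mono_null (fun a ha => ?_) h0
    simp only [mem_ofPred_eq, Classical.not_imp] at ha
    exact ha.1
  filter_upwards [ae_all_iff.2 fun u => ae_all_iff.2 fun w => this u w] with a ha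
  exact fun u w h => ha u w h

theorem map_freeze [Countable Λ] {β : Type*} [MeasurableSpace β]
    (F : (Λ × ℕ → unitInterval) → β) (hF : Measurable F) (ν : Measure β)
    (h : ∀ a : Λ × ℕ → unitInterval, (Function.Injective fun v => a (v, 0)) →
      (Measure.infinitePi fun _ : Λ × ℕ => (volume : Measure unitInterval)).map
        (fun y => F (fun p => if p.2 = 0 then a p else y p)) = ν) :
    (labelMeasure Λ).map (F ∘ YY) = ν := by
  rw [← Measure.map_map hF measurable_YY, map_YY]
  set π := Measure.infinitePi fun _ : Λ × ℕ => (volume : Measure unitInterval) with hπ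
  have hm : Measurable (fun y : (Λ × ℕ → unitInterval) × (Λ × ℕ → unitInterval) =>
      fun i : Λ × ℕ => if i.2 = 0 then y.1 i else y.2 i) := by
    refine measurable_pi_lambda _ fun i => ?_
    by_cases h : i.2 = 0
    · simp only [h, if_true]; fun_prop
    · simp only [h, if_false]; fun_prop
  have hpw := map_piecewise_infinitePi (fun _ : Λ × ℕ => (volume : Measure unitInterval))
    (fun i => i.2 = 0)
  rw [← hπ] at hpw
  conv_lhs => rw [← hpw]
  rw [Measure.map_map hF hm]
  ext s hs
  rw [Measure.map_apply (hF.comp hm) hs, Measure.prod_apply ((hF.comp hm) hs)]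
  have : ∀ᵐ a ∂π, π (Prod.mk a ⁻¹' ((F ∘ fun y : (Λ × ℕ → unitInterval) × (Λ × ℕ → unitInterval) =>
      fun i : Λ × ℕ => if i.2 = 0 then y.1 i else y.2 i) ⁻¹' s)) = ν s := by
    filter_upwards [ae_injective] with a ha
    have hm2 : Measurable fun y : Λ × ℕ → unitInterval =>
        F fun p => if p.2 = 0 then a p else y p :=
      (hF.comp hm).comp (measurable_const.prodMk measurable_id)
    rw [← h a ha, Measure.map_apply hm2 hs]
    rfl
  rw [lintegral_congr_ae this]
  simp

lemma abs_limsup_sub_le {f g : ℕ → ℝ} (hf : ∀ n, 0 ≤ f n ∧ f n ≤ 1) (hg : ∀ n, 0 ≤ g n ∧ g n ≤ 1)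
    {c : ℝ} (h : ∀ n, |f n - g n| ≤ c) : |limsup f atTop - limsup g atTop| ≤ c := by
  have aux : ∀ f g : ℕ → ℝ, (∀ n, 0 ≤ f n ∧ f n ≤ 1) → (∀ n, 0 ≤ g n ∧ g n ≤ 1) →
      (∀ n, f n ≤ g n + c) → limsup f atTop ≤ limsup g atTop + c := by
    intro f g hf hg h
    have bg : IsBoundedUnder (· ≤ ·) atTop g := isBoundedUnder_of ⟨1, fun n => (hg n).2⟩
    have cg : IsCoboundedUnder (· ≤ ·) atTop g :=
      isCoboundedUnder_le_of_le atTop (x := 0) fun n => (hg n).1
    rw [← limsup_add_const atTop g c bg cg]
    exact limsup_le_limsup (Eventually.of_forall h)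
      (isCoboundedUnder_le_of_le atTop (x := 0) fun n => (hf n).1)
      (isBoundedUnder_of ⟨1 + c, fun n => by linarith [(hg n).2]⟩)
  have h1 := aux f g hf hg fun n => by linarith [(abs_le.1 (h n)).2]
  have h2 := aux g f hg hf fun n => by linarith [(abs_le.1 (h n)).1]
  rw [abs_le]; constructor <;> linarith

lemma limsup_mem {f : ℕ → ℝ} (hf : ∀ n, 0 ≤ f n ∧ f n ≤ 1) :
    0 ≤ limsup f atTop ∧ limsup f atTop ≤ 1 :=
  ⟨le_limsup_of_frequently_le (Frequently.of_forall fun n => (hf n).1)
      (isBoundedUnder_of ⟨1, fun n => (hf n).2⟩),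
    limsup_le_of_le (isCoboundedUnder_le_of_le atTop (x := 0) fun n => (hf n).1)
      (Eventually.of_forall fun n => (hf n).2)⟩

lemma GoodQ.limsup {V : Type*} {Q : ℕ → V → (V → ℝ) → ℝ} (h : ∀ n, GoodQ (Q n)) :
    GoodQ fun v lam => limsup (fun n => Q n v lam) atTop where
  nonneg v lam hl := (limsup_mem fun n => ⟨(h n).nonneg v lam hl, (h n).le_one v lam hl⟩).1
  le_one v lam hl := (limsup_mem fun n => ⟨(h n).nonneg v lam hl, (h n).le_one v lam hl⟩).2
  lip v lam lam' hl hl' hv δ hδ hd := abs_limsup_sub_le
    (fun n => ⟨(h n).nonneg v lam hl, (h n).le_one v lam hl⟩)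
    (fun n => ⟨(h n).nonneg v lam' hl', (h n).le_one v lam' hl'⟩)
    fun n => (h n).lip v lam lam' hl hl' hv δ hδ hd

lemma goodQ_qW {V : Type*} (ν : V → Measure (V → Bool)) [∀ v, IsProbabilityMeasure (ν v)]
    (hν : ∀ v, Crest.ProbabilityR.StronglyRayleigh.IsStronglyRayleigh (ν v)) (W : V → Finset V) :
    GoodQ fun v lam => qW (ν v) (W v) v lam where
  nonneg v _ hl := qW_nonneg _ _ v fun w _ => hl w
  le_one v _ hl := qW_le_one _ _ v fun w _ => hl w
  lip v lam lam' hl hl' hv δ hδ hd := qW_lip (hν v) (W v) v lam lam' hl hl' hv δ hδ hd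

end Crest.Agent.H5
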