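import Mathlib
import Crest.Agent.H5.Mono
import Crest.Agent.H5.Split

/-!
Uniform measures on finite families of sets, and the free uniform spanning forest as their limit.
-/

set_option autoImplicit false

namespace Crest.Agent.H5

open MeasureTheory Filter Topology Crest.ProbabilityR.SpanningTrees
  Crest.ProbabilityR.StronglyRayleigh
open scoped NNReal

section fam

variable {κ : Type*}

open Classical in
/-- indicator configuration of a finite set -/
noncomputable def cfg (A : Finset κ) : κ → Bool := fun e => decide (e ∈ A)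

lemma cfg_eq_true {A : Finset κ} {e : κ} : cfg A e = true ↔ e ∈ A := by simp [cfg]

/-- uniform measure on a finite family of finite sets -/
noncomputable def famM (T : Finset (Finset κ)) : Measure (κ → Bool) :=
  ((T.card : ℝ≥0)⁻¹) • ∑ A ∈ T, Measure.dirac (cfg A)

instance (T : Finset (Finset κ)) : IsFiniteMeasure (famM T) := by
  unfold famM; infer_instance

lemma isProb_famM {T : Finset (Finset κ)} (h : T.Nonempty) : IsProbabilityMeasure (famM T) := by
  constructor
  have h0 : (T.card : ℝ≥0) ≠ 0 := by exact_mod_cast h.card_pos.ne'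
  simp only [famM, Measure.smul_apply, Measure.coe_finsetSum, Finset.sum_apply, measure_univ,
    Finset.sum_const, nsmul_eq_mul, mul_one, ENNReal.smul_def, smul_eq_mul]
  rw [← ENNReal.coe_natCast, ← ENNReal.coe_mul, inv_mul_cancel₀ h0, ENNReal.coe_one]

lemma integral_famM {E : Type*} [NormedAddCommGroup E] [NormedSpace ℝ E] [CompleteSpace E]
    (T : Finset (Finset κ)) {f : (κ → Bool) → E} (hf : StronglyMeasurable f) :
    ∫ x, f x ∂famM T = (T.card : ℝ)⁻¹ • ∑ A ∈ T, f (cfg A) := by
  unfold famM
  rw [integral_smul_nnreal_measure,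
    integral_finsetSum_measure fun A _ => integrable_dirac' hf (by simp)]
  simp only [integral_dirac' f _ hf, NNReal.smul_def, NNReal.coe_inv, NNReal.coe_natCast]

lemma wt_cfg [DecidableEq κ] {R : Type*} [CommMonoid R] (W A : Finset κ) (z : κ → R) :
    wt W z (cfg A) = ∏ e ∈ A, if e ∈ W then z e else 1 := by
  unfold wt
  simp only [cfg_eq_true]
  rw [Finset.prod_ite_mem, Finset.prod_ite_mem, Finset.inter_comm]

lemma sr_famM {T : Finset (Finset κ)} (hT : HP T) (hne : T.Nonempty) :
    IsStronglyRayleigh (famM T) := by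
  classical
  intro W z hz
  rw [genPoly_eq_integral, integral_famM _ (measurable_wt_complex W z).stronglyMeasurable]
  simp only [wt_cfg]
  have h0 : (T.card : ℝ) ≠ 0 := by exact_mod_cast hne.card_pos.ne'
  refine smul_ne_zero (inv_ne_zero h0) (hT _ fun e => ?_)
  split_ifs with h
  · exact Or.inl (hz e h)
  · right; simp

lemma measurable_res {ι : Type*} (j : κ → ι) : Measurable (fun x : ι → Bool => x ∘ j) :=
  measurable_pi_lambda _ fun k => measurable_pi_apply (j k)

lemma sr_map {ι : Type*} (j : κ ↪ ι) {ν : Measure (ι → Bool)} [IsFiniteMeasure ν]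
    (hν : IsStronglyRayleigh ν) : IsStronglyRayleigh (ν.map (fun x => x ∘ j)) := by
  intro W z hz
  rw [genPoly_eq_integral, integral_map (measurable_res j).aemeasurable
    (measurable_wt_complex W z).aestronglyMeasurable]
  have := hν (W.map j) (Function.extend j z 0) (by
    intro i hi
    obtain ⟨w, hw, rfl⟩ := Finset.mem_map.1 hi
    rw [j.injective.extend_apply]; exact hz w hw)
  rw [genPoly_eq_integral] at this
  convert this using 3 with x
  unfold wt
  rw [Finset.prod_map]
  simp only [j.injective.extend_apply, Function.comp]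

lemma map_famM {ι : Type*} (j : κ ↪ ι) (T : Finset (Finset κ)) :
    (famM (T.map (Finset.mapEmbedding j).toEmbedding)).map (fun x => x ∘ j) = famM T := by
  unfold famM
  rw [Measure.map_smul, Measure.map_finset_sum (measurable_res j).aemeasurable, Finset.card_map,
    Finset.sum_map]
  congr 1
  refine Finset.sum_congr rfl fun A _ => ?_
  rw [Measure.map_dirac' (measurable_res j)]
  congr 1
  funext e
  rw [Bool.eq_iff_iff]
  simp [cfg_eq_true]

/-- indicator of a cylinder -/
noncomputable def cyl (F : Finset κ) (x : κ → Bool) : ℝ := ∏ w ∈ F, ind w x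

lemma measurable_cyl (F : Finset κ) : Measurable (cyl F) :=
  Finset.measurable_prod _ fun w _ => measurable_ind w

lemma cyl_eq (F : Finset κ) (x : κ → Bool) :
    cyl F x = {ω : κ → Bool | ∀ e ∈ F, ω e = true}.indicator 1 x := by
  unfold cyl
  by_cases h : ∀ e ∈ F, x e = true
  · rw [Set.indicator_of_mem (by exact h)]
    exact Finset.prod_eq_one fun e he => by simp [ind, h e he]
  · rw [Set.indicator_of_notMem (by exact h)]
    push Not at h
    obtain ⟨e, he, h⟩ := h
    exact Finset.prod_eq_zero he (by simp [ind, h])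

lemma measurableSet_cylset (F : Finset κ) :
    MeasurableSet {ω : κ → Bool | ∀ e ∈ F, ω e = true} := by
  have : {ω : κ → Bool | ∀ e ∈ F, ω e = true} = ⋂ e ∈ F, {ω : κ → Bool | ω e = true} := by
    ext; simp
  rw [this]
  exact Finset.measurableSet_biInter _ fun e _ => measurableSet_occ e true

lemma integral_cyl (ν : Measure (κ → Bool)) (F : Finset κ) :
    ∫ x, cyl F x ∂ν = (ν {ω | ∀ e ∈ F, ω e = true}).toReal := by
  simp only [cyl_eq]
  rw [integral_indicator_one (measurableSet_cylset F)]
  rfl

lemma integrable_cyl (ν : Measure (κ → Bool)) [IsFiniteMeasure ν] (F : Finset κ) :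
    Integrable (cyl F) ν := by
  refine Integrable.of_bound (measurable_cyl F).aestronglyMeasurable 1
    (Eventually.of_forall fun x => ?_)
  unfold cyl
  rw [Real.norm_eq_abs, abs_of_nonneg (Finset.prod_nonneg fun w _ => ind_nonneg w x)]
  exact Finset.prod_le_one (fun w _ => ind_nonneg w x) fun w _ => ind_le_one w x

lemma continuous_cyl (F : Finset κ) : Continuous (cyl F) := by
  refine continuous_finsetProd _ fun w _ => ?_
  exact (continuous_of_discreteTopology (f := fun b : Bool => if b = true then (1 : ℝ) else 0)).comp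
    (continuous_apply w)

lemma integral_cyl_famM [DecidableEq κ] (T : Finset (Finset κ)) (F : Finset κ) :
    ∫ x, cyl F x ∂famM T = ((T.filter (F ⊆ ·)).card : ℝ) / T.card := by
  rw [integral_famM _ (measurable_cyl F).stronglyMeasurable, smul_eq_mul, div_eq_inv_mul,
    Finset.card_filter]
  push_cast
  congr 1
  refine Finset.sum_congr rfl fun A _ => ?_
  rw [cyl_eq]
  by_cases h : F ⊆ A
  · rw [if_pos h, Set.indicator_of_mem]
    · rfl
    · exact fun e he => cfg_eq_true.2 (h he)
  · rw [if_neg h, Set.indicator_of_notMem]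
    exact fun h' => h fun e he => cfg_eq_true.1 (h' e he)

lemma cyl_map {ι : Type*} (j : κ ↪ ι) (F : Finset κ) (x : ι → Bool) :
    cyl F (x ∘ j) = cyl (F.map j) x := by
  unfold cyl
  rw [Finset.prod_map]
  rfl

lemma wt_expand (W : Finset κ) (lam : κ → ℝ) (x : κ → Bool) :
    wt W lam x = ∑ F ∈ W.powerset, (∏ w ∈ F, (lam w - 1)) * cyl F x := by
  classical
  have : wt W lam x = ∏ w ∈ W, (1 + (lam w - 1) * ind w x) := by
    unfold wt ind
    refine Finset.prod_congr rfl fun w _ => ?_
    split_ifs <;> ring
  rw [this, Finset.prod_one_add]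
  simp only [Finset.prod_mul_distrib, cyl]

lemma ind_mul_cyl [DecidableEq κ] (v : κ) (F : Finset κ) (x : κ → Bool) :
    ind v x * cyl F x = cyl (insert v F) x := by
  unfold cyl
  by_cases h : v ∈ F
  · rw [Finset.insert_eq_of_mem h, ← Finset.mul_prod_erase F _ h, ← mul_assoc]
    congr 1
    unfold ind
    split_ifs <;> ring
  · rw [Finset.prod_insert h]

lemma tendsto_qW_of_cyl (μ : ℕ → Measure (κ → Bool)) [∀ m, IsFiniteMeasure (μ m)]
    (ν : Measure (κ → Bool)) [IsProbabilityMeasure ν]
    (h : ∀ F : Finset κ, Tendsto (fun m => ∫ x, cyl F x ∂μ m) atTop (𝓝 (∫ x, cyl F x ∂ν)))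
    (W : Finset κ) (v : κ) (lam : κ → ℝ) (hl : ∀ w, 0 < lam w) :
    Tendsto (fun m => qW (μ m) W v lam) atTop (𝓝 (qW ν W v lam)) := by
  classical
  have e1 : ∀ (ρ : Measure (κ → Bool)) [IsFiniteMeasure ρ], ∫ x, wt W lam x ∂ρ =
      ∑ F ∈ W.powerset, (∏ w ∈ F, (lam w - 1)) * ∫ x, cyl F x ∂ρ := by
    intro ρ _
    simp only [wt_expand]
    rw [integral_finsetSum _ fun F _ => (integrable_cyl ρ F).const_mul _]
    simp only [integral_const_mul]
  have e2 : ∀ (ρ : Measure (κ → Bool)) [IsFiniteMeasure ρ], ∫ x, ind v x * wt W lam x ∂ρ =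
      ∑ F ∈ W.powerset, (∏ w ∈ F, (lam w - 1)) * ∫ x, cyl (insert v F) x ∂ρ := by
    intro ρ _
    have : ∀ x, ind v x * wt W lam x =
        ∑ F ∈ W.powerset, (∏ w ∈ F, (lam w - 1)) * cyl (insert v F) x := by
      intro x
      rw [wt_expand, Finset.mul_sum]
      refine Finset.sum_congr rfl fun F _ => ?_
      rw [← ind_mul_cyl]; ring
    simp only [this]
    rw [integral_finsetSum _ fun F _ => (integrable_cyl ρ _).const_mul _]
    simp only [integral_const_mul]
  unfold qW
  refine Tendsto.div ?_ ?_ (integral_wt_pos ν W fun w _ => hl w).ne'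
  · simp only [e2]
    exact tendsto_finsetSum _ fun F _ => (h _).const_mul _
  · simp only [e1]
    exact tendsto_finsetSum _ fun F _ => (h _).const_mul _

lemma exists_limit_measure [Countable κ] (μ : ℕ → Measure (κ → Bool))
    [∀ m, IsProbabilityMeasure (μ m)] (c : Finset κ → ℝ)
    (h : ∀ F : Finset κ, Tendsto (fun m => ∫ x, cyl F x ∂μ m) atTop (𝓝 (c F))) :
    ∃ ν : Measure (κ → Bool), IsProbabilityMeasure ν ∧ ∀ F, ∫ x, cyl F x ∂ν = c F := by
  let P : ℕ → ProbabilityMeasure (κ → Bool) := fun m => ⟨μ m, inferInstance⟩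
  obtain ⟨ν, hν⟩ := exists_clusterPt_of_compactSpace (map P atTop)
  refine ⟨ν, inferInstance, fun F => ?_⟩
  let f : BoundedContinuousFunction (κ → Bool) ℝ :=
    BoundedContinuousFunction.mkOfCompact ⟨cyl F, continuous_cyl F⟩
  have hc := ProbabilityMeasure.continuous_integral_boundedContinuousFunction f
  have h1 : ClusterPt (∫ x, cyl F x ∂(ν : Measure (κ → Bool))) (𝓝 (c F)) :=
    hν.map hc.continuousAt (tendsto_map' (h F))
  exact eq_of_nhds_neBot h1

end fam

variable {V : Type*}

/-- uniform spanning tree measure on edge configurations -/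
noncomputable def ustE (G : SimpleGraph V) (S : Finset V) : Measure (G.edgeSet → Bool) :=
  (famM (trees G S)).map (fun x => x ∘ Function.Embedding.subtype (· ∈ G.edgeSet))

instance (G : SimpleGraph V) (S : Finset V) : IsFiniteMeasure (ustE G S) := by
  unfold ustE; infer_instance

lemma isProb_ustE {G : SimpleGraph V} {S : Finset V} (hS : (G.induce (S : Set V)).Connected) :
    IsProbabilityMeasure (ustE G S) := by
  have := isProb_famM (trees_nonempty hS)
  exact Measure.isProbabilityMeasure_map (measurable_res _).aemeasurable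

lemma sr_ustE {G : SimpleGraph V} {S : Finset V} (hS : (G.induce (S : Set V)).Connected) :
    IsStronglyRayleigh (ustE G S) := by
  classical
  exact sr_map _ (sr_famM (hp_trees hS) (trees_nonempty hS))

lemma tendsto_cyl_ustE {G : SimpleGraph V} (S : ℕ → Finset V) (hmono : Monotone S)
    (hexh : ∀ v, ∃ n, v ∈ S n) (hconn : ∀ n, (G.induce (S n : Set V)).Connected)
    (F : Finset G.edgeSet) :
    Tendsto (fun n => ∫ x, cyl F x ∂ustE G (S n)) atTop
      (𝓝 (fl G (F.map (Function.Embedding.subtype (· ∈ G.edgeSet))))) := by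
  classical
  have := tendsto_ust S hmono hexh hconn (F.map (Function.Embedding.subtype (· ∈ G.edgeSet)))
    (by
      intro e he
      obtain ⟨w, _, rfl⟩ := Finset.mem_map.1 he
      exact w.2)
  convert this using 2 with n
  unfold ustE
  rw [integral_map (measurable_res _).aemeasurable (measurable_cyl F).aestronglyMeasurable]
  simp only [cyl_map]
  rw [integral_cyl_famM, ustContains_eq]

end Crest.Agent.H5
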