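import Mathlib
import Crest.Agent.H5.Fam

/-!
Balls around edges, the prediction rule of the free uniform spanning forest, its naturality and
measurability.
-/

set_option autoImplicit false

namespace Crest.Agent.H5

open MeasureTheory Filter Topology Crest.ProbabilityR.SpanningTrees
  Crest.ProbabilityR.StronglyRayleigh

variable {V : Type*}

/-- vertices at distance at most `m` from the pair `e` -/
def Bset (G : SimpleGraph V) (e : Sym2 V) : ℕ → Set V
  | 0 => {x | x ∈ e}
  | m + 1 => {y | y ∈ Bset G e m ∨ ∃ x, x ∈ Bset G e m ∧ G.Adj x y}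

open Classical in
/-- a finite set as a finset -/
noncomputable def finOf (s : Set V) : Finset V := if h : s.Finite then h.toFinset else ∅

lemma mem_finOf {s : Set V} {x : V} : x ∈ finOf s ↔ s.Finite ∧ x ∈ s := by
  unfold finOf
  split_ifs with h
  · simp [h]
  · simp [h]

/-- balls as finsets -/
noncomputable def ballF (G : SimpleGraph V) (e : Sym2 V) (m : ℕ) : Finset V := finOf (Bset G e m)

lemma Bset_finite {G : SimpleGraph V} (hfin : ∀ v, (G.neighborSet v).Finite) (e : Sym2 V)
    (m : ℕ) : (Bset G e m).Finite := by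
  induction m with
  | zero =>
    induction e using Sym2.ind with
    | h a b =>
      refine (Set.toFinite {a, b}).subset fun x hx => ?_
      simpa [Bset] using hx
  | succ m ih =>
    refine (ih.union (ih.biUnion fun x _ => hfin x)).subset fun y hy => ?_
    rcases hy with h | ⟨x, hx, h⟩
    · exact Or.inl h
    · exact Or.inr (Set.mem_biUnion hx h)

lemma Bset_mono (G : SimpleGraph V) (e : Sym2 V) : Monotone (Bset G e) :=
  monotone_nat_of_le_succ fun _ _ h => Or.inl h

lemma mem_ballF {G : SimpleGraph V} (hfin : ∀ v, (G.neighborSet v).Finite) {e : Sym2 V}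
    {m : ℕ} {x : V} : x ∈ ballF G e m ↔ x ∈ Bset G e m := by
  unfold ballF
  rw [mem_finOf]
  exact ⟨fun h => h.2, fun h => ⟨Bset_finite hfin e m, h⟩⟩

lemma ballF_mono {G : SimpleGraph V} (hfin : ∀ v, (G.neighborSet v).Finite) (e : Sym2 V) :
    Monotone (ballF G e) := fun _ _ h _ hx =>
  (mem_ballF hfin).2 (Bset_mono G e h ((mem_ballF hfin).1 hx))

lemma ballF_exh {G : SimpleGraph V} (hfin : ∀ v, (G.neighborSet v).Finite) (hG : G.Connected)
    (e : Sym2 V) (v : V) : ∃ n, v ∈ ballF G e n := by
  induction e using Sym2.ind with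
  | h a b =>
    have := hG.preconnected a v
    rw [SimpleGraph.reachable_iff_reflTransGen] at this
    induction this with
    | refl => exact ⟨0, (mem_ballF hfin).2 (by simp [Bset])⟩
    | tail _ hadj ih =>
      obtain ⟨n, hn⟩ := ih
      exact ⟨n + 1, (mem_ballF hfin).2 (Or.inr ⟨_, (mem_ballF hfin).1 hn, hadj⟩)⟩

lemma ballF_connected {G : SimpleGraph V} (hfin : ∀ v, (G.neighborSet v).Finite)
    {e : Sym2 V} (he : e ∈ G.edgeSet) (m : ℕ) :
    (G.induce (ballF G e m : Set V)).Connected := by
  induction e using Sym2.ind with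
  | h a b =>
    have h0 : ∀ u ∈ Bset G s(a, b) 0, u ∈ ballF G s(a, b) m := fun u hu =>
      (mem_ballF hfin).2 (Bset_mono G _ (Nat.zero_le m) hu)
    have ha : a ∈ ballF G s(a, b) m := h0 a (by simp [Bset])
    have hb : b ∈ ballF G s(a, b) m := h0 b (by simp [Bset])
    refine connected_of_conn ⟨a, ha⟩ (conn_of_const fun φ hφ => ?_)
    have key : ∀ k ≤ m, ∀ u ∈ Bset G s(a, b) k, φ u = φ a := by
      intro k
      induction k with
      | zero =>
        intro _ u hu
        have : u = a ∨ u = b := by simpa [Bset] using hu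
        rcases this with rfl | rfl
        · rfl
        · exact (hφ _ _ (mk_mem_edgesIn.2 ⟨ha, hb, he⟩)).symm
      | succ k ih =>
        intro hk u hu
        have hu' := (mem_ballF hfin).2 (Bset_mono G _ hk hu)
        rcases hu with h | ⟨x, hx, h⟩
        · exact ih (by omega) u h
        · rw [← ih (by omega) x hx]
          exact (hφ _ _ (mk_mem_edgesIn.2 ⟨(mem_ballF hfin).2
            (Bset_mono G _ (by omega : k ≤ m) hx), hu', h⟩)).symm
    intro x hx y hy
    rw [key m le_rfl x ((mem_ballF hfin).1 hx), key m le_rfl y ((mem_ballF hfin).1 hy)]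

/-- the prediction rule -/
noncomputable def QG (G : SimpleGraph V) (e : Sym2 V) (lam : Sym2 V → ℝ) : ℝ :=
  limsup (fun n => limsup (fun m =>
    qW (famM (trees G (ballF G e m))) (edgesIn G (ballF G e n)) e lam) atTop) atTop

/-- rank of `v` among the neighbours of `u` -/
noncomputable def rank {L : Type*} [LinearOrder L] (G : SimpleGraph V) (a : V → L) (u v : V) : ℕ :=
  (finOf {w | G.Adj u w ∧ a w < a v}).card

lemma rank_lt {L : Type*} [LinearOrder L] {G : SimpleGraph V}
    (hfin : ∀ v, (G.neighborSet v).Finite) (a : V → L) {u v v' : V} (hv : G.Adj u v)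
    (h : a v < a v') : rank G a u v < rank G a u v' := by
  have hf : ∀ v, {w | G.Adj u w ∧ a w < a v}.Finite := fun v =>
    (hfin u).subset fun w hw => hw.1
  refine Finset.card_lt_card ⟨fun w hw => ?_, fun hw => ?_⟩
  · rw [mem_finOf] at hw ⊢
    exact ⟨hf _, hw.2.1, hw.2.2.trans h⟩
  · have := mem_finOf.1 (hw (mem_finOf.2 ⟨hf v', hv, h⟩))
    exact lt_irrefl _ this.2.2

lemma rank_inj {L : Type*} [LinearOrder L] {G : SimpleGraph V}
    (hfin : ∀ v, (G.neighborSet v).Finite) {a : V → L} (ha : Function.Injective a) {u v v' : V}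
    (hv : G.Adj u v) (hv' : G.Adj u v') (h : rank G a u v = rank G a u v') : v = v' := by
  apply ha
  rcases lt_trichotomy (a v) (a v') with h1 | h1 | h1
  · exact absurd h (rank_lt hfin a hv h1).ne
  · exact h1
  · exact absurd h (rank_lt hfin a hv' h1).ne'

section natural

variable {V' : Type*} (σ : V' ≃ V)

lemma Bset_comap (G : SimpleGraph V) (e : Sym2 V') (m : ℕ) :
    Bset (G.comap σ) e m = σ ⁻¹' Bset G (Sym2.map σ e) m := by
  induction m with
  | zero =>
    ext x
    simp only [Bset, Set.mem_ofPred_eq, Set.mem_preimage, Sym2.mem_map]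
    exact ⟨fun h => ⟨x, h, rfl⟩, fun ⟨y, h, h'⟩ => σ.injective h' ▸ h⟩
  | succ m ih =>
    ext y
    simp only [Bset, Set.mem_ofPred_eq, Set.mem_preimage, ih, SimpleGraph.comap_adj]
    refine or_congr Iff.rfl ⟨fun ⟨x, h⟩ => ⟨σ x, h⟩, fun ⟨x, h⟩ => ⟨σ.symm x, ?_⟩⟩
    simpa using h

lemma finOf_preimage (s : Set V) : (finOf (σ ⁻¹' s)).map σ.toEmbedding = finOf s := by
  ext x
  rw [Finset.mem_map_equiv, mem_finOf, mem_finOf]
  simp only [Set.mem_preimage, Equiv.apply_symm_apply]
  refine and_congr_left fun _ => ⟨fun h => ?_, fun h => h.preimage σ.injective.injOn⟩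
  exact h.of_preimage σ.surjective

lemma ballF_comap (G : SimpleGraph V) (e : Sym2 V') (m : ℕ) :
    (ballF (G.comap σ) e m).map σ.toEmbedding = ballF G (Sym2.map σ e) m := by
  unfold ballF
  rw [Bset_comap, finOf_preimage]

lemma edgesIn_comap (G : SimpleGraph V) (S : Finset V') :
    (edgesIn (G.comap σ) S).map σ.toEmbedding.sym2Map = edgesIn G (S.map σ.toEmbedding) := by
  ext e
  induction e using Sym2.ind with
  | h u w =>
    have : s(u, w) = σ.toEmbedding.sym2Map s(σ.symm u, σ.symm w) := by
      simp [Function.Embedding.sym2Map_apply]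
    rw [mk_mem_edgesIn]
    conv_lhs => rw [this]
    rw [Finset.mem_map', mk_mem_edgesIn]
    simp

lemma conn_map (S : Finset V') (A : Finset (Sym2 V')) :
    Conn (S.map σ.toEmbedding) (A.map σ.toEmbedding.sym2Map) ↔ Conn S A := by
  constructor
  · intro h
    refine conn_of_const fun φ hφ x hx y hy => ?_
    have := h.const (φ ∘ σ.symm) (fun u w huw => by
      have e : s(u, w) = σ.toEmbedding.sym2Map s(σ.symm u, σ.symm w) := by
        simp [Function.Embedding.sym2Map_apply]
      rw [e, Finset.mem_map'] at huw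
      exact hφ _ _ huw) (Finset.mem_map_of_mem _ hx) (Finset.mem_map_of_mem _ hy)
    simpa using this
  · intro h
    refine conn_of_const fun φ hφ x hx y hy => ?_
    obtain ⟨x', hx', rfl⟩ := Finset.mem_map.1 hx
    obtain ⟨y', hy', rfl⟩ := Finset.mem_map.1 hy
    exact h.const (φ ∘ σ) (fun u w huw =>
      hφ _ _ (Finset.mem_map_of_mem σ.toEmbedding.sym2Map huw)) hx' hy'

lemma trees_comap (G : SimpleGraph V) (S : Finset V') :
    (trees (G.comap σ) S).map (Finset.mapEmbedding σ.toEmbedding.sym2Map).toEmbedding =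
      trees G (S.map σ.toEmbedding) := by
  ext A
  simp only [Finset.mem_map, mem_trees, RelEmbedding.coe_toEmbedding, Finset.mapEmbedding_apply]
  rw [← edgesIn_comap]
  constructor
  · rintro ⟨A, ⟨h1, h2, h3⟩, rfl⟩
    exact ⟨Finset.map_subset_map.2 h1, (conn_map σ S A).2 h2, by simpa using h3⟩
  · rintro ⟨h1, h2, h3⟩
    obtain ⟨A, h4, rfl⟩ := Finset.subset_map_iff.1 h1
    exact ⟨A, ⟨h4, (conn_map σ S A).1 h2, by simpa using h3⟩, rfl⟩

lemma QG_comap (G : SimpleGraph V) (e : Sym2 V') (lam : Sym2 V → ℝ) :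
    QG (G.comap σ) e (lam ∘ Sym2.map σ) = QG G (Sym2.map σ e) lam := by
  unfold QG
  congr 1
  funext n
  congr 1
  funext m
  rw [← ballF_comap, ← ballF_comap, ← edgesIn_comap, ← trees_comap]
  have := qW_map σ.toEmbedding.sym2Map (famM ((trees (G.comap σ) (ballF (G.comap σ) e m)).map
    (Finset.mapEmbedding σ.toEmbedding.sym2Map).toEmbedding))
    (edgesIn (G.comap σ) (ballF (G.comap σ) e n)) e lam
  rw [map_famM] at this
  exact this

lemma rank_comap {L : Type*} [LinearOrder L] (G : SimpleGraph V) (a : V → L) (u v : V') :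
    rank (G.comap σ) (a ∘ σ) u v = rank G a (σ u) (σ v) := by
  unfold rank
  rw [← finOf_preimage σ, Finset.card_map]
  rfl

end natural

section measurable

variable {Ω : Type*} [MeasurableSpace Ω]

/-- all fibres are measurable -/
def MF {β : Type*} (f : Ω → β) : Prop := ∀ s, Measurable fun ω => f ω = s

lemma MF.dep {β γ : Type*} [Countable β] [MeasurableSpace γ] {b : Ω → β} (hb : MF b)
    {H : β → Ω → γ} (hH : ∀ s, Measurable (H s)) : Measurable fun ω => H (b ω) ω := by
  intro t ht
  have : (fun ω => H (b ω) ω) ⁻¹' t = ⋃ s, {ω | b ω = s} ∩ H s ⁻¹' t := by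
    ext ω; simp
  rw [this]
  exact MeasurableSet.iUnion fun s => (hb s).setOf.inter (hH s ht)

lemma MF.of_mem {α : Type*} [Countable α] {f : Ω → Finset α}
    (h : ∀ y, Measurable fun ω => y ∈ f ω) : MF f := by
  intro s
  simp only [Finset.ext_iff]
  exact Measurable.forall fun y => (h y).iff measurable_const

lemma MF.finOf {α : Type*} [Countable α] {B : Ω → Set α}
    (h : ∀ y, Measurable fun ω => y ∈ B ω) : MF fun ω => finOf (B ω) := by
  refine MF.of_mem fun y => ?_
  simp only [mem_finOf]
  refine Measurable.and ?_ (h y)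
  have : ∀ ω, (B ω).Finite ↔ ∃ s : Finset α, ∀ y, (y ∈ B ω ↔ y ∈ s) := fun ω =>
    ⟨fun hf => ⟨hf.toFinset, by simp⟩, fun ⟨s, hs⟩ => s.finite_toSet.subset fun y hy =>
      (hs y).1 hy⟩
  simp only [this]
  exact Measurable.exists fun s => Measurable.forall fun y => (h y).iff measurable_const

variable [Countable V] {G : Ω → SimpleGraph V}

lemma measurable_Bset (hG : ∀ u v, Measurable fun ω => (G ω).Adj u v) (e : Sym2 V) (m : ℕ) :
    ∀ y, Measurable fun ω => y ∈ Bset (G ω) e m := by
  induction m with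
  | zero => exact fun y => measurable_const
  | succ m ih =>
    exact fun y => (ih y).or (Measurable.exists fun x => (ih x).and (hG x y))

lemma mf_ballF (hG : ∀ u v, Measurable fun ω => (G ω).Adj u v) (e : Sym2 V) (m : ℕ) :
    MF fun ω => ballF (G ω) e m := MF.finOf (measurable_Bset hG e m)

lemma mf_edgesIn (hG : ∀ u v, Measurable fun ω => (G ω).Adj u v) (S : Finset V) :
    MF fun ω => edgesIn (G ω) S := by
  refine MF.of_mem fun e => ?_
  induction e using Sym2.ind with
  | h u w =>
    simp only [mk_mem_edgesIn]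
    exact measurable_const.and (measurable_const.and (hG u w))

lemma mf_trees (hG : ∀ u v, Measurable fun ω => (G ω).Adj u v) (S : Finset V) :
    MF fun ω => trees (G ω) S := by
  refine MF.of_mem fun A => ?_
  simp only [mem_trees]
  exact ((mf_edgesIn hG S).dep (H := fun s _ => A ⊆ s) fun _ => measurable_const).and
    measurable_const

lemma measurable_QG (hG : ∀ u v, Measurable fun ω => (G ω).Adj u v) (e : Sym2 V)
    {lam : Ω → Sym2 V → ℝ} (hl : Measurable lam) : Measurable fun ω => QG (G ω) e (lam ω) := by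
  unfold QG
  refine Measurable.limsup fun n => Measurable.limsup fun m => ?_
  refine (mf_ballF hG e m).dep (H := fun s ω =>
    qW (famM (trees (G ω) s)) (edgesIn (G ω) (ballF (G ω) e n)) e (lam ω)) fun s => ?_
  refine (mf_ballF hG e n).dep (H := fun t ω =>
    qW (famM (trees (G ω) s)) (edgesIn (G ω) t) e (lam ω)) fun t => ?_
  refine (mf_trees hG s).dep (H := fun T ω =>
    qW (famM T) (edgesIn (G ω) t) e (lam ω)) fun T => ?_
  refine (mf_edgesIn hG t).dep (H := fun W ω => qW (famM T) W e (lam ω)) fun W => ?_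
  exact (measurable_qW _ W e).comp hl

lemma mf_rank (hG : ∀ u v, Measurable fun ω => (G ω).Adj u v) {a : Ω → V → unitInterval}
    (ha : Measurable a) (u v : V) : MF fun ω => rank (G ω) (a ω) u v := by
  intro k
  have : MF fun ω => finOf {w | (G ω).Adj u w ∧ a ω w < a ω v} :=
    MF.finOf fun w => (hG u w).and (measurableSet_setOfPred.1
      (measurableSet_lt ((measurable_pi_apply w).comp ha) ((measurable_pi_apply v).comp ha)))
  exact this.dep (H := fun s _ => s.card = k) fun _ => measurable_const

end measurable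

end Crest.Agent.H5
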