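import Mathlib
import Crest.Agent.H5.Ball

/-!
The factor map for the free uniform spanning forest.
-/

set_option autoImplicit false

namespace Crest.Agent.H5

open MeasureTheory Filter Topology Crest.ProbabilityR.SpanningTrees
  Crest.ProbabilityR.StronglyRayleigh Crest.ProbabilityR.Labels

variable {V : Type*}

/-- key used to order pairs -/
noncomputable def tau (a : V → unitInterval) (e : Sym2 V) : unitInterval ×ₗ unitInterval :=
  toLex ((e.map a).sup, (e.map a).inf)

lemma tau_injective {a : V → unitInterval} (ha : Function.Injective a) :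
    Function.Injective (tau a) := by
  intro e f h
  have h1 : ((e.map a).sup, (e.map a).inf) = ((f.map a).sup, (f.map a).inf) := toLex.injective h
  rw [Prod.mk.injEq] at h1
  exact Sym2.map.injective ha (Sym2.inf_eq_inf_and_sup_eq_sup.1 ⟨h1.2, h1.1⟩)

/-- label carried by the endpoint `u` for the pair `u v` -/
noncomputable def lab (G : SimpleGraph V) (y : V × ℕ → unitInterval) (k : ℕ) (u v : V) : ℝ :=
  if y (v, 0) < y (u, 0) then (y (u, Nat.pair (rank G (fun w => y (w, 0)) u v) k + 1) : ℝ) else 0

/-- labels of pairs -/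
noncomputable def UG (G : SimpleGraph V) (y : V × ℕ → unitInterval) : ℕ × Sym2 V → ℝ :=
  fun i => Sym2.lift ⟨fun u v => lab G y i.1 u v + lab G y i.1 v u, fun _ _ => add_comm _ _⟩ i.2

/-- the factor map on split labels -/
noncomputable def FG (G : SimpleGraph V) (y : V × ℕ → unitInterval) : Sym2 V → Bool :=
  core (QG G) (fun e f => tau (fun w => y (w, 0)) e < tau (fun w => y (w, 0)) f) (UG G y)

lemma FG_comap {V' : Type*} (σ : V' ≃ V) (G : SimpleGraph V) (y : V × ℕ → unitInterval) :
    FG (G.comap σ) (fun p => y (σ p.1, p.2)) = FG G y ∘ Sym2.map σ := by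
  unfold FG
  refine core_comp (Sym2.map σ) (QG_comap σ G) (fun e f => ?_) _ _ (fun k e => ?_)
  · simp only [tau, Sym2.map_map]
    rfl
  · induction e using Sym2.ind with
    | h u v =>
      have h1 := rank_comap σ G (fun w => y (w, 0)) u v
      have h2 := rank_comap σ G (fun w => y (w, 0)) v u
      simp only [UG, lab, Sym2.map_mk, Sym2.lift_mk, ← h1, ← h2]
      rfl

section measurable

variable {Ω : Type*} [MeasurableSpace Ω] [Countable V] {G : Ω → SimpleGraph V}

lemma measurable_FG (hG : ∀ u v, Measurable fun ω => (G ω).Adj u v)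
    {y : Ω → V × ℕ → unitInterval} (hy : Measurable y) : Measurable fun ω => FG (G ω) (y ω) := by
  have hyp : ∀ p, Measurable fun ω => y ω p := fun p => (measurable_pi_apply p).comp hy
  have ha : Measurable fun ω => fun w => y ω (w, 0) := measurable_pi_lambda _ fun w => hyp _
  unfold FG
  refine measurable_core (Q := fun ω => QG (G ω))
    (R := fun ω e f => tau (fun w => y ω (w, 0)) e < tau (fun w => y ω (w, 0)) f)
    (U := fun ω => UG (G ω) (y ω)) (fun e => ?_) (fun e f => ?_) ?_
  · exact measurable_QG (G := fun p : Ω × (Sym2 V → ℝ) => G p.1)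
      (fun u v => (hG u v).comp measurable_fst) e measurable_snd
  · have h1 : ∀ e : Sym2 V, Measurable fun ω => (e.map fun w => y ω (w, 0)).sup := by
      intro e
      induction e using Sym2.ind with
      | h u v => exact (hyp _).max (hyp _)
    have h2 : ∀ e : Sym2 V, Measurable fun ω => (e.map fun w => y ω (w, 0)).inf := by
      intro e
      induction e using Sym2.ind with
      | h u v => exact (hyp _).min (hyp _)
    simp only [tau, Prod.Lex.toLex_lt_toLex]
    have a1 := measurableSet_lt (h1 e) (h1 f)
    have a2 := measurableSet_eq_fun (h1 e) (h1 f)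
    have a3 := measurableSet_lt (h2 e) (h2 f)
    exact a1.union (a2.inter a3)
  · have hl : ∀ k u v, Measurable fun ω => lab (G ω) (y ω) k u v := by
      intro k u v
      unfold lab
      refine Measurable.ite (measurableSet_lt (hyp _) (hyp _)) ?_ measurable_const
      exact (mf_rank hG ha u v).dep (H := fun r ω => (y ω (u, Nat.pair r k + 1) : ℝ))
        fun r => measurable_subtype_coe.comp (hyp _)
    refine measurable_pi_lambda _ fun i => ?_
    obtain ⟨k, e⟩ := i
    induction e using Sym2.ind with
    | h u v => exact (hl k u v).add (hl k v u)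

end measurable

theorem law_FG [Countable V] {G : SimpleGraph V} (hG : G.Connected)
    (hfin : ∀ v, (G.neighborSet v).Finite) (ν : Measure (G.edgeSet → Bool))
    [IsProbabilityMeasure ν]
    (hν : ∀ F, ∫ x, cyl F x ∂ν = fl G (F.map (Function.Embedding.subtype (· ∈ G.edgeSet)))) :
    (labelMeasure V).map ((fun y => FG G y ∘ Function.Embedding.subtype (· ∈ G.edgeSet)) ∘ YY) =
      ν := by
  classical
  set j := Function.Embedding.subtype (· ∈ G.edgeSet) with hj
  let W : ℕ → G.edgeSet → Finset G.edgeSet := fun n e =>
    (edgesIn G (ballF G e n)).subtype (· ∈ G.edgeSet)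
  let Q : G.edgeSet → (G.edgeSet → ℝ) → ℝ := fun e lam =>
    limsup (fun n => limsup (fun m => qW (ustE G (ballF G e m)) (W n e) e lam) atTop) atTop
  have hprob : ∀ (e : G.edgeSet) m, IsProbabilityMeasure (ustE G (ballF G e m)) := fun e m =>
    isProb_ustE (ballF_connected hfin e.2 m)
  have hS : Scheme ν Q W :=
    { good := GoodQ.limsup fun n => GoodQ.limsup
        (Q := fun m (e : G.edgeSet) lam => qW (ustE G (ballF G e m)) (W n e) e lam) fun m =>
          goodQ_qW (fun e : G.edgeSet => ustE G (ballF G e m))
            (fun e => sr_ustE (ballF_connected hfin e.2 m)) (W n)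
      meas := fun e => Measurable.limsup fun n => Measurable.limsup fun m => measurable_qW _ _ e
      mono := fun e n m hnm => Finset.subtype_mono (edgesIn_mono G (ballF_mono hfin _ hnm))
      exh := fun e w => by
        obtain ⟨w, hw⟩ := w
        induction w using Sym2.ind with
        | h u v =>
          obtain ⟨n, hn⟩ := ballF_exh hfin hG e u
          obtain ⟨m, hm⟩ := ballF_exh hfin hG e v
          exact ⟨max n m, Finset.mem_subtype.2 (mk_mem_edgesIn.2
            ⟨ballF_mono hfin _ (le_max_left n m) hn, ballF_mono hfin _ (le_max_right n m) hm, hw⟩)⟩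
      lim := fun e lam hl => by
        simp only [Q]
        congr 1
        funext n
        refine (tendsto_qW_of_cyl (fun m => ustE G (ballF G e m)) ν (fun F => ?_) _ e lam
          hl).limsup_eq
        rw [hν]
        exact tendsto_cyl_ustE _ (ballF_mono hfin _) (ballF_exh hfin hG _)
          (ballF_connected hfin e.2) F }
  have hQ : ∀ (e : G.edgeSet) (lam : Sym2 V → ℝ), Q e (lam ∘ j) = QG G (j e) lam := by
    intro e lam
    simp only [Q, QG]
    congr 1
    funext n
    congr 1
    funext m
    unfold ustE
    rw [qW_map j, Finset.subtype_map_of_mem fun x hx => (mem_edgesIn.1 hx).2]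
    rfl
  have hF : Measurable fun y : V × ℕ → unitInterval => FG G y ∘ j :=
    (measurable_res j).comp (measurable_FG (G := fun _ => G) (fun _ _ => measurable_const)
      measurable_id)
  refine map_freeze _ hF ν fun a ha => ?_
  set a0 : V → unitInterval := fun v => a (v, 0) with ha0
  have hown : ∀ e : G.edgeSet, ∃ p : V × V, (e : Sym2 V) = s(p.1, p.2) ∧ G.Adj p.1 p.2 ∧
      a0 p.2 < a0 p.1 := by
    rintro ⟨e, he⟩
    induction e using Sym2.ind with
    | h u v =>
      have hadj : G.Adj u v := he
      rcases lt_trichotomy (a0 u) (a0 v) with h | h | h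
      · exact ⟨(v, u), Sym2.eq_swap, hadj.symm, h⟩
      · exact absurd (ha h) hadj.ne
      · exact ⟨(u, v), rfl, hadj, h⟩
  choose p hp1 hp2 hp3 using hown
  let idx : ℕ × G.edgeSet → V × ℕ := fun i =>
    ((p i.2).1, Nat.pair (rank G a0 (p i.2).1 (p i.2).2) i.1 + 1)
  have hinj : Function.Injective idx := by
    rintro ⟨k, e⟩ ⟨k', e'⟩ h
    simp only [idx, Prod.mk.injEq, add_left_inj, Nat.pair_eq_pair] at h
    obtain ⟨h1, h2, h3⟩ := h
    have h4 : (p e).2 = (p e').2 :=
      rank_inj hfin ha (hp2 e) (h1 ▸ hp2 e') (by rw [h2, h1])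
    refine Prod.ext h3 (Subtype.ext ?_)
    simp only
    rw [hp1 e, hp1 e', h1, h4]
  have h1 := map_core hS (fun e : G.edgeSet => tau a0 e)
    ((tau_injective ha).comp Subtype.val_injective)
  have h2 := Measure.map_infinitePi_infinitePi_of_inj
    (P := fun _ : V × ℕ => (volume : Measure unitInterval)) hinj
  have hc : Measurable fun u : ℕ × G.edgeSet → unitInterval =>
      core Q (fun b c : G.edgeSet => tau a0 b < tau a0 c) (fun i => (u i : ℝ)) :=
    measurable_core (Q := fun _ => Q) (R := fun _ (b c : G.edgeSet) => tau a0 b < tau a0 c)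
      (U := fun (u : ℕ × G.edgeSet → unitInterval) i => (u i : ℝ))
      (fun v => (hS.meas v).comp measurable_snd) (fun _ _ => MeasurableSet.const _)
      (measurable_pi_lambda _ fun i => measurable_subtype_coe.comp (measurable_pi_apply i))
  have hm3 : Measurable fun (ω : V × ℕ → unitInterval) (i : ℕ × G.edgeSet) => ω (idx i) :=
    measurable_pi_lambda _ fun i => measurable_pi_apply _
  rw [← h1, ← h2, Measure.map_map hc hm3]
  congr 1
  funext y
  symm
  unfold FG
  refine core_comp j (R := fun b c => tau a0 b < tau a0 c)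
    (R' := fun b c : G.edgeSet => tau a0 b < tau a0 c) hQ (fun b c => Iff.rfl)
    (UG G fun p => if p.2 = 0 then a p else y p) (fun i => (y (idx i) : ℝ)) fun k e => ?_
  have e1 : j e = s((p e).1, (p e).2) := hp1 e
  rw [e1]
  have h3 := hp3 e
  have h4 : ¬ a0 (p e).1 < a0 (p e).2 := not_lt.2 h3.le
  simp only [ha0] at h3 h4
  simp only [UG, lab, Sym2.lift_mk, if_true, h3, h4, if_false, add_zero, Nat.add_eq_zero_iff,
    one_ne_zero, and_false]
  rfl

end Crest.Agent.H5
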